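import Vale.Agent.P083.Defs

/-!
# P083: the approximate angle inequality, from the exact one
-/

open scoped BigOperators ComplexConjugate InnerProductSpace

namespace Vale.Agent.P083.AAngle

universe u

/-- the space of `E`-valued functions on the Heisenberg group -/
abbrev L (E : Type u) [NormedAddCommGroup E] : Type u := PiLp 2 (fun _ : Heis => E)

section basic

variable {E : Type u} [NormedAddCommGroup E] [InnerProductSpace ℂ E]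

/-- left translation on `L E` -/
noncomputable def lam : Heis →* (L E ≃ₗᵢ[ℂ] L E) where
  toFun g := LinearIsometryEquiv.piLpCongrLeft 2 ℂ E (Equiv.mulLeft g)
  map_one' := by
    ext F h
    simp [Equiv.piCongrLeft']
    rfl
  map_mul' a b := by
    ext F h
    simp [Equiv.piCongrLeft']
    rfl

lemma lam_apply (g : Heis) (F : L E) (h : Heis) : (lam g F) h = F (g⁻¹ * h) := by
  simp [lam, Equiv.piCongrLeft']

/-- the number of elements of the Heisenberg group -/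
noncomputable def nn : ℝ := (Fintype.card Heis : ℝ)

lemma nn_pos : 0 < nn := by
  unfold nn
  exact_mod_cast Fintype.card_pos

/-- the orbit map -/
noncomputable def T (φ : Heis → (E →L[ℂ] E)) : E →ₗ[ℂ] L E where
  toFun v := WithLp.toLp 2 (fun h => φ h⁻¹ v)
  map_add' u v := by
    ext h
    simp
  map_smul' c v := by
    ext h
    simp

lemma T_apply (φ : Heis → (E →L[ℂ] E)) (v : E) (h : Heis) : (T φ v) h = φ h⁻¹ v := rfl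

omit [InnerProductSpace ℂ E] in
lemma norm_le_of_forall (F : L E) (c : ℝ) (hc : 0 ≤ c) (h : ∀ g, ‖F g‖ ≤ c) :
    ‖F‖ ≤ Real.sqrt nn * c := by
  rw [PiLp.norm_eq_of_L2]
  rw [← Real.sqrt_sq hc, ← Real.sqrt_mul nn_pos.le]
  apply Real.sqrt_le_sqrt
  calc ∑ i, ‖F i‖ ^ 2 ≤ ∑ _i : Heis, c ^ 2 :=
        Finset.sum_le_sum fun i _ => pow_le_pow_left₀ (norm_nonneg _) (h i) 2
    _ = nn * c ^ 2 := by simp [nn]

end basic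

section approx

variable {E : Type u} [NormedAddCommGroup E] [InnerProductSpace ℂ E] [CompleteSpace E]
  {δ : ℝ} (hδ : 0 ≤ δ) (hδ1 : δ ≤ 1) {φ : Heis → (E →L[ℂ] E)}
  (hmul : ∀ h h', ‖φ h * φ h' - φ (h * h')‖ ≤ δ)
  (hstar : ∀ h, ‖star (φ h) - φ h⁻¹‖ ≤ δ)
  (hone : ‖φ 1 - 1‖ ≤ δ)

include hmul hstar hone

lemma star_mul_le (h : Heis) : ‖star (φ h) * φ h - 1‖ ≤ δ * ‖φ h‖ + 2 * δ := by
  have e1 : star (φ h) * φ h - 1 =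
      (star (φ h) - φ h⁻¹) * φ h + (φ h⁻¹ * φ h - φ (h⁻¹ * h)) + (φ 1 - 1) := by
    rw [inv_mul_cancel]
    noncomm_ring
  rw [e1]
  have h1 : ‖(star (φ h) - φ h⁻¹) * φ h‖ ≤ δ * ‖φ h‖ :=
    (norm_mul_le _ _).trans (mul_le_mul_of_nonneg_right (hstar h) (norm_nonneg _))
  have h2 := hmul h⁻¹ h
  calc ‖(star (φ h) - φ h⁻¹) * φ h + (φ h⁻¹ * φ h - φ (h⁻¹ * h)) + (φ 1 - 1)‖
      ≤ ‖(star (φ h) - φ h⁻¹) * φ h‖ + ‖φ h⁻¹ * φ h - φ (h⁻¹ * h)‖ + ‖φ 1 - 1‖ := norm_add₃_le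
    _ ≤ δ * ‖φ h‖ + δ + δ := by gcongr
    _ = δ * ‖φ h‖ + 2 * δ := by ring

include hδ hδ1

lemma norm_le (h : Heis) : ‖φ h‖ ≤ 3 := by
  have h1 := star_mul_le hmul hstar hone h
  have h2 : ‖star (φ h) * φ h‖ = ‖φ h‖ * ‖φ h‖ := CStarRing.norm_star_mul_self
  have h3 : ‖star (φ h) * φ h‖ ≤ ‖star (φ h) * φ h - 1‖ + 1 := by
    calc ‖star (φ h) * φ h‖ = ‖(star (φ h) * φ h - 1) + 1‖ := by rw [sub_add_cancel]
      _ ≤ ‖star (φ h) * φ h - 1‖ + ‖(1 : E →L[ℂ] E)‖ := norm_add_le _ _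
      _ ≤ _ := by
        gcongr
        exact ContinuousLinearMap.norm_id_le
  have h4 : ‖φ h‖ * ‖φ h‖ ≤ ‖φ h‖ + 3 := by
    have := norm_nonneg (φ h)
    have h5 : δ * ‖φ h‖ ≤ 1 * ‖φ h‖ := mul_le_mul_of_nonneg_right hδ1 this
    linarith
  nlinarith [norm_nonneg (φ h)]

lemma star_mul_le' (h : Heis) : ‖star (φ h) * φ h - 1‖ ≤ 5 * δ := by
  have h1 := star_mul_le hmul hstar hone h
  have h2 := norm_le hδ hδ1 hmul hstar hone h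
  nlinarith

lemma norm_T_le (v : E) : ‖T φ v‖ ≤ Real.sqrt nn * (3 * ‖v‖) := by
  apply norm_le_of_forall _ _ (by positivity)
  intro g
  rw [T_apply]
  exact (ContinuousLinearMap.le_opNorm _ _).trans
    (mul_le_mul_of_nonneg_right (norm_le hδ hδ1 hmul hstar hone _) (norm_nonneg _))

lemma inner_T (u v : E) :
    ‖⟪T φ u, T φ v⟫_ℂ - nn * ⟪u, v⟫_ℂ‖ ≤ nn * (5 * δ * (‖u‖ * ‖v‖)) := by
  have h1 : ⟪T φ u, T φ v⟫_ℂ - nn * ⟪u, v⟫_ℂ =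
      ∑ h : Heis, ⟪u, (star (φ h⁻¹) * φ h⁻¹ - 1) v⟫_ℂ := by
    rw [PiLp.inner_apply]
    have : ∀ h : Heis, ⟪u, (star (φ h⁻¹) * φ h⁻¹ - 1) v⟫_ℂ =
        ⟪(T φ u) h, (T φ v) h⟫_ℂ - ⟪u, v⟫_ℂ := by
      intro h
      rw [sub_apply, inner_sub_right, T_apply, T_apply,
        ContinuousLinearMap.star_eq_adjoint]
      change ⟪u, ContinuousLinearMap.adjoint (φ h⁻¹) (φ h⁻¹ v)⟫_ℂ - ⟪u, v⟫_ℂ = _
      rw [ContinuousLinearMap.adjoint_inner_right]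
    rw [Finset.sum_congr rfl (fun h _ => this h), Finset.sum_sub_distrib]
    simp [nn]
  rw [h1]
  refine (norm_sum_le _ _).trans ?_
  calc ∑ h : Heis, ‖⟪u, (star (φ h⁻¹) * φ h⁻¹ - 1) v⟫_ℂ‖
      ≤ ∑ _h : Heis, 5 * δ * (‖u‖ * ‖v‖) := by
        apply Finset.sum_le_sum
        intro h _
        refine (norm_inner_le_norm _ _).trans ?_
        have h2 : ‖(star (φ h⁻¹) * φ h⁻¹ - 1) v‖ ≤ 5 * δ * ‖v‖ :=
          (ContinuousLinearMap.le_opNorm _ _).trans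
            (mul_le_mul_of_nonneg_right (star_mul_le' hδ hδ1 hmul hstar hone _) (norm_nonneg _))
        calc ‖u‖ * ‖(star (φ h⁻¹) * φ h⁻¹ - 1) v‖ ≤ ‖u‖ * (5 * δ * ‖v‖) := by gcongr
          _ = 5 * δ * (‖u‖ * ‖v‖) := by ring
    _ = nn * (5 * δ * (‖u‖ * ‖v‖)) := by simp [nn]

end approx

section final

variable {E : Type u} [NormedAddCommGroup E] [InnerProductSpace ℂ E] [CompleteSpace E]
  {δ : ℝ} {φ : Heis → (E →L[ℂ] E)}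

omit [CompleteSpace E] in
lemma lam_T (hδ : 0 ≤ δ) (hmul : ∀ h h', ‖φ h * φ h' - φ (h * h')‖ ≤ δ) (g : Heis) (v : E) :
    ‖lam g (T φ v) - T φ (φ g v)‖ ≤ Real.sqrt nn * (δ * ‖v‖) := by
  apply norm_le_of_forall _ _ (by positivity)
  intro h
  have h1 : (lam g (T φ v) - T φ (φ g v)) h = -((φ h⁻¹ * φ g - φ (h⁻¹ * g)) v) := by
    rw [PiLp.sub_apply, lam_apply, T_apply, T_apply]
    simp [mul_inv_rev]
  rw [h1, norm_neg]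
  exact (ContinuousLinearMap.le_opNorm _ _).trans
    (mul_le_mul_of_nonneg_right (hmul _ _) (norm_nonneg _))

/-- the average over a family of elements -/
noncomputable def av (φ : Heis → (E →L[ℂ] E)) (s : Fp → Heis) (v : E) : E :=
  v - (pp : ℂ)⁻¹ • ∑ k : Fp, φ (s k) v

/-- the average over a family of elements, for an exact representation -/
noncomputable def avL {E' : Type u} [NormedAddCommGroup E'] [InnerProductSpace ℂ E']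
    (ρ : Heis →* (E' ≃ₗᵢ[ℂ] E')) (s : Fp → Heis) (F : E') : E' :=
  F - (pp : ℂ)⁻¹ • ∑ k : Fp, ρ (s k) F

lemma avL_angle (hang : S_ANGLE.{u}) {E' : Type u} [NormedAddCommGroup E']
    [InnerProductSpace ℂ E'] (ρ : Heis →* (E' ≃ₗᵢ[ℂ] E')) (F : E') :
    -(1 / 6 : ℝ) * (‖avL ρ (fun k => ⟨k, 0, 0⟩) F‖ ^ 2 +
      ‖avL ρ (fun k => ⟨0, k, 0⟩) F‖ ^ 2) ≤
      2 * (⟪avL ρ (fun k => ⟨k, 0, 0⟩) F, avL ρ (fun k => ⟨0, k, 0⟩) F⟫_ℂ).re :=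
  hang E' ρ F

/-- abstract orbit data: a linear map into an exact representation -/
structure Orb {E' : Type u} [NormedAddCommGroup E'] [InnerProductSpace ℂ E']
    (ρ : Heis →* (E' ≃ₗᵢ[ℂ] E')) (φ : Heis → (E →L[ℂ] E)) (δ s n : ℝ)
    (S : E →ₗ[ℂ] E') : Prop where
  bd : ∀ v, ‖S v‖ ≤ s * (3 * ‖v‖)
  inn : ∀ u v, ‖⟪S u, S v⟫_ℂ - n * ⟪u, v⟫_ℂ‖ ≤ n * (5 * δ * (‖u‖ * ‖v‖))
  eqv : ∀ g v, ‖ρ g (S v) - S (φ g v)‖ ≤ s * (δ * ‖v‖)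

section orb

variable {E' : Type u} [NormedAddCommGroup E'] [InnerProductSpace ℂ E']
    {ρ : Heis →* (E' ≃ₗᵢ[ℂ] E')} {s n : ℝ} {S : E →ₗ[ℂ] E'}

omit [CompleteSpace E] in
lemma avL_T (hO : Orb ρ φ δ s n S) (w : Fp → Heis) (v : E) :
    ‖avL ρ w (S v) - S (av φ w v)‖ ≤ s * (δ * ‖v‖) := by
  have h1 : avL ρ w (S v) - S (av φ w v) =
      -((pp : ℂ)⁻¹ • ∑ k : Fp, (ρ (w k) (S v) - S (φ (w k) v))) := by
    unfold avL av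
    rw [map_sub, map_smul, map_sum, Finset.sum_sub_distrib, smul_sub]
    abel
  rw [h1, norm_neg, norm_smul]
  have h2 : ‖∑ k : Fp, (ρ (w k) (S v) - S (φ (w k) v))‖ ≤
      (pp : ℝ) * (s * (δ * ‖v‖)) := by
    refine (norm_sum_le _ _).trans ?_
    calc ∑ k : Fp, ‖ρ (w k) (S v) - S (φ (w k) v)‖
        ≤ ∑ _k : Fp, s * (δ * ‖v‖) :=
          Finset.sum_le_sum fun k _ => hO.eqv _ _
      _ = (pp : ℝ) * (s * (δ * ‖v‖)) := by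
          rw [Finset.sum_const, Finset.card_univ, ZMod.card, nsmul_eq_mul]
  have hp : (0 : ℝ) < pp := by norm_num [pp]
  calc ‖(pp : ℂ)⁻¹‖ * ‖∑ k : Fp, (ρ (w k) (S v) - S (φ (w k) v))‖
      ≤ ‖(pp : ℂ)⁻¹‖ * ((pp : ℝ) * (s * (δ * ‖v‖))) := by gcongr
    _ = s * (δ * ‖v‖) := by
        rw [norm_inv, Complex.norm_natCast, ← mul_assoc, inv_mul_cancel₀ hp.ne', one_mul]

omit [CompleteSpace E] in
lemma orb_inn (hO : Orb ρ φ δ s n S) (hδ : 0 ≤ δ) (hn : 0 < n) (v u w : E)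
    (hu : ‖u‖ ≤ 4 * ‖v‖) (hw : ‖w‖ ≤ 4 * ‖v‖) :
    ‖⟪S u, S w⟫_ℂ - n * ⟪u, w⟫_ℂ‖ ≤ n * (80 * δ * ‖v‖ ^ 2) := by
  refine (hO.inn u w).trans ?_
  have h1 : ‖u‖ * ‖w‖ ≤ (4 * ‖v‖) * (4 * ‖v‖) :=
    mul_le_mul hu hw (norm_nonneg _) (by positivity)
  calc n * (5 * δ * (‖u‖ * ‖w‖)) ≤ n * (5 * δ * ((4 * ‖v‖) * (4 * ‖v‖))) := by gcongr
    _ = n * (80 * δ * ‖v‖ ^ 2) := by ring

omit [CompleteSpace E] in
lemma orb_re (hO : Orb ρ φ δ s n S) (hδ : 0 ≤ δ) (hn : 0 < n) (v u w : E)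
    (hu : ‖u‖ ≤ 4 * ‖v‖) (hw : ‖w‖ ≤ 4 * ‖v‖) :
    (⟪S u, S w⟫_ℂ).re ≤ n * (⟪u, w⟫_ℂ).re + n * (80 * δ * ‖v‖ ^ 2) := by
  have h1 := (Complex.re_le_norm _).trans (orb_inn hO hδ hn v u w hu hw)
  rw [Complex.sub_re, Complex.re_ofReal_mul] at h1
  linarith

omit [CompleteSpace E] in
lemma orb_sq (hO : Orb ρ φ δ s n S) (hδ : 0 ≤ δ) (hn : 0 < n) (v u : E)
    (hu : ‖u‖ ≤ 4 * ‖v‖) : ‖S u‖ ^ 2 ≤ n * ‖u‖ ^ 2 + n * (80 * δ * ‖v‖ ^ 2) := by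
  have h1 := orb_re hO hδ hn v u u hu hu
  have e1 : (⟪S u, S u⟫_ℂ).re = ‖S u‖ ^ 2 := by
    rw [inner_self_eq_norm_sq_to_K]
    norm_cast
  have e2 : (⟪u, u⟫_ℂ).re = ‖u‖ ^ 2 := by
    rw [inner_self_eq_norm_sq_to_K]
    norm_cast
  rwa [e1, e2] at h1

omit [CompleteSpace E] in
lemma orb_norm (hO : Orb ρ φ δ s n S) (hs : 0 < s) (v u : E)
    (hu : ‖u‖ ≤ 4 * ‖v‖) : ‖S u‖ ≤ s * (12 * ‖v‖) := by
  refine (hO.bd u).trans ?_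
  have : 3 * ‖u‖ ≤ 12 * ‖v‖ := by linarith
  gcongr

end orb

lemma norm_av (hδ : 0 ≤ δ) (hδ1 : δ ≤ 1)
    (hmul : ∀ h h', ‖φ h * φ h' - φ (h * h')‖ ≤ δ)
    (hstar : ∀ h, ‖star (φ h) - φ h⁻¹‖ ≤ δ)
    (hone : ‖φ 1 - 1‖ ≤ δ) (s : Fp → Heis) (v : E) : ‖av φ s v‖ ≤ 4 * ‖v‖ := by
  unfold av
  have h2 : ‖∑ k : Fp, φ (s k) v‖ ≤ (pp : ℝ) * (3 * ‖v‖) := by
    refine (norm_sum_le _ _).trans ?_
    calc ∑ k : Fp, ‖φ (s k) v‖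
        ≤ ∑ _k : Fp, 3 * ‖v‖ :=
          Finset.sum_le_sum fun k _ => (ContinuousLinearMap.le_opNorm _ _).trans
            (mul_le_mul_of_nonneg_right (norm_le hδ hδ1 hmul hstar hone _) (norm_nonneg _))
      _ = (pp : ℝ) * (3 * ‖v‖) := by
          rw [Finset.sum_const, Finset.card_univ, ZMod.card, nsmul_eq_mul]
  have hp : (0 : ℝ) < pp := by norm_num [pp]
  calc ‖v - (pp : ℂ)⁻¹ • ∑ k : Fp, φ (s k) v‖
      ≤ ‖v‖ + ‖(pp : ℂ)⁻¹‖ * ‖∑ k : Fp, φ (s k) v‖ := by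
        rw [← norm_smul]
        exact norm_sub_le _ _
    _ ≤ ‖v‖ + ‖(pp : ℂ)⁻¹‖ * ((pp : ℝ) * (3 * ‖v‖)) := by gcongr
    _ = 4 * ‖v‖ := by
        rw [norm_inv, Complex.norm_natCast, ← mul_assoc, inv_mul_cancel₀ hp.ne', one_mul]
        ring

/-- the final numerical computation -/
lemma key_arith {E' : Type u} [NormedAddCommGroup E'] [InnerProductSpace ℂ E']
    {E : Type u} [NormedAddCommGroup E] [InnerProductSpace ℂ E]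
    (A B A' B' : E') (a b : E) (n s δ x : ℝ) (hs : 0 < s) (hsn : s * s = n)
    (hδ : 0 ≤ δ) (hδ1 : δ ≤ 1) (hx : 0 ≤ x)
    (h0 : -(1 / 6 : ℝ) * (‖A‖ ^ 2 + ‖B‖ ^ 2) ≤ 2 * (⟪A, B⟫_ℂ).re)
    (hA : ‖A - A'‖ ≤ s * (δ * x)) (hB : ‖B - B'‖ ≤ s * (δ * x))
    (hA' : ‖A'‖ ≤ s * (12 * x)) (hB' : ‖B'‖ ≤ s * (12 * x))
    (hAA : ‖A'‖ ^ 2 ≤ n * ‖a‖ ^ 2 + n * (80 * δ * x ^ 2))
    (hBB : ‖B'‖ ^ 2 ≤ n * ‖b‖ ^ 2 + n * (80 * δ * x ^ 2))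
    (hAB : (⟪A', B'⟫_ℂ).re ≤ n * (⟪a, b⟫_ℂ).re + n * (80 * δ * x ^ 2)) :
    -(1 / 6 : ℝ) * (‖a‖ ^ 2 + ‖b‖ ^ 2) - 245 * δ * x ^ 2 ≤ 2 * (⟪a, b⟫_ℂ).re := by
  have hn : 0 < n := by nlinarith
  have hδx : δ * x ≤ x := by nlinarith
  have nA : ‖A‖ ≤ s * (13 * x) := by
    have : ‖A‖ ≤ ‖A - A'‖ + ‖A'‖ := by
      simpa using norm_add_le (A - A') A'
    nlinarith
  have nB : ‖B‖ ≤ s * (13 * x) := by
    have : ‖B‖ ≤ ‖B - B'‖ + ‖B'‖ := by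
      simpa using norm_add_le (B - B') B'
    nlinarith
  have sq : ∀ (Y Y' : E'), ‖Y - Y'‖ ≤ s * (δ * x) → ‖Y'‖ ≤ s * (12 * x) → ‖Y‖ ≤ s * (13 * x) →
      ‖Y‖ ^ 2 ≤ ‖Y'‖ ^ 2 + n * (25 * δ * x ^ 2) := by
    intro Y Y' h1 h2 h3
    have h4 : ‖Y‖ - ‖Y'‖ ≤ s * (δ * x) := (norm_sub_norm_le Y Y').trans h1
    have h5 : (‖Y‖ - ‖Y'‖) * (‖Y‖ + ‖Y'‖) ≤ (s * (δ * x)) * (s * (13 * x) + s * (12 * x)) := by
      calc (‖Y‖ - ‖Y'‖) * (‖Y‖ + ‖Y'‖) ≤ (s * (δ * x)) * (‖Y‖ + ‖Y'‖) :=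
            mul_le_mul_of_nonneg_right h4 (by positivity)
        _ ≤ _ := mul_le_mul_of_nonneg_left (by linarith) (by positivity)
    have h6 : (s * (δ * x)) * (s * (13 * x) + s * (12 * x)) = n * (25 * δ * x ^ 2) := by
      rw [← hsn]; ring
    nlinarith
  have sA := sq A A' hA hA' nA
  have sB := sq B B' hB hB' nB
  have e1 : (⟪A, B⟫_ℂ).re = (⟪A', B'⟫_ℂ).re + (⟪A - A', B⟫_ℂ).re + (⟪A', B - B'⟫_ℂ).re := by
    rw [← Complex.add_re, ← Complex.add_re, inner_sub_left, inner_sub_right]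
    congr 1
    ring
  have e2 : (⟪A - A', B⟫_ℂ).re ≤ (s * (δ * x)) * (s * (13 * x)) :=
    (Complex.re_le_norm _).trans ((norm_inner_le_norm _ _).trans
      (mul_le_mul hA nB (norm_nonneg _) (by positivity)))
  have e3 : (⟪A', B - B'⟫_ℂ).re ≤ (s * (12 * x)) * (s * (δ * x)) :=
    (Complex.re_le_norm _).trans ((norm_inner_le_norm _ _).trans
      (mul_le_mul hA' hB (norm_nonneg _) (by positivity)))
  have e4 : (s * (δ * x)) * (s * (13 * x)) + (s * (12 * x)) * (s * (δ * x)) =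
      n * (25 * δ * x ^ 2) := by
    rw [← hsn]; ring
  have fin : n * (-(1 / 6 : ℝ) * (‖a‖ ^ 2 + ‖b‖ ^ 2) - 245 * δ * x ^ 2) ≤
      n * (2 * (⟪a, b⟫_ℂ).re) := by
    nlinarith
  exact le_of_mul_le_mul_left fin hn

lemma main_orb {E' : Type u} [NormedAddCommGroup E'] [InnerProductSpace ℂ E']
    {ρ : Heis →* (E' ≃ₗᵢ[ℂ] E')} {s n : ℝ} {S : E →ₗ[ℂ] E'} (hO : Orb ρ φ δ s n S)
    (hs : 0 < s) (hsn : s * s = n)
    (hang : S_ANGLE.{u}) (hδ : 0 ≤ δ) (hδ1 : δ ≤ 1)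
    (hmul : ∀ h h', ‖φ h * φ h' - φ (h * h')‖ ≤ δ)
    (hstar : ∀ h, ‖star (φ h) - φ h⁻¹‖ ≤ δ)
    (hone : ‖φ 1 - 1‖ ≤ δ) (v : E) :
    -(1 / 6 : ℝ) * (‖av φ (fun k => ⟨k, 0, 0⟩) v‖ ^ 2 + ‖av φ (fun k => ⟨0, k, 0⟩) v‖ ^ 2)
      - 245 * δ * ‖v‖ ^ 2
      ≤ 2 * (⟪av φ (fun k => ⟨k, 0, 0⟩) v, av φ (fun k => ⟨0, k, 0⟩) v⟫_ℂ).re := by
  have hn : 0 < n := by nlinarith
  have hx := norm_nonneg v
  have ha := norm_av hδ hδ1 hmul hstar hone (fun k => ⟨k, 0, 0⟩) v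
  have hb := norm_av hδ hδ1 hmul hstar hone (fun k => ⟨0, k, 0⟩) v
  exact key_arith (avL ρ (fun k => ⟨k, 0, 0⟩) (S v)) (avL ρ (fun k => ⟨0, k, 0⟩) (S v))
    (S (av φ (fun k => ⟨k, 0, 0⟩) v)) (S (av φ (fun k => ⟨0, k, 0⟩) v))
    _ _ n s δ ‖v‖ hs hsn hδ hδ1 hx
    (avL_angle hang ρ (S v))
    (avL_T hO _ v) (avL_T hO _ v) (orb_norm hO hs v _ ha) (orb_norm hO hs v _ hb)
    (orb_sq hO hδ hn v _ ha) (orb_sq hO hδ hn v _ hb)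
    (orb_re hO hδ hn v _ _ ha hb)

lemma orb (hδ : 0 ≤ δ) (hδ1 : δ ≤ 1)
    (hmul : ∀ h h', ‖φ h * φ h' - φ (h * h')‖ ≤ δ)
    (hstar : ∀ h, ‖star (φ h) - φ h⁻¹‖ ≤ δ)
    (hone : ‖φ 1 - 1‖ ≤ δ) : Orb (lam (E := E)) φ δ (Real.sqrt nn) nn (T φ) where
  bd := norm_T_le hδ hδ1 hmul hstar hone
  inn := inner_T hδ hδ1 hmul hstar hone
  eqv := lam_T hδ hmul

end final

/-- the approximate angle inequality -/
theorem aangle (h : S_ANGLE.{u}) : S_AANGLE.{u} := by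
  refine ⟨245, by norm_num, ?_⟩
  intro E _ _ _ δ hδ hδ1 φ hmul hstar hone v
  exact main_orb (orb hδ hδ1 hmul hstar hone) (Real.sqrt_pos.2 nn_pos)
    (Real.mul_self_sqrt nn_pos.le) h hδ hδ1 hmul hstar hone v

end Vale.Agent.P083.AAngle
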