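import Mathlib

/-!
# P083: the norm ultrapower of a C*-algebra

`ℕ →ᵇ B` (bounded functions on the discrete space `ℕ`) is the C*-algebra `ℓ^∞(ℕ, B)` of
norm-bounded sequences; `Ultrapower ω B` is its quotient by the sequences whose norms tend to `0`
along the ultrafilter `ω`.
-/

open Filter Topology BoundedContinuousFunction

namespace Vale.Agent.P083

universe u

/-- Two bounded sequences are identified if the norms of their differences tend to `0` along `ω`;
i.e. congruence modulo the ideal `I_ω(B)` of `ℓ^∞(ℕ, B) = (ℕ →ᵇ B)`. -/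
def ultraCon (ω : Ultrafilter ℕ) (B : Type u) [CStarAlgebra B] : RingCon (ℕ →ᵇ B) where
  r a b := Tendsto (fun n => ‖a n - b n‖) ω (𝓝 0)
  iseqv := by
    refine ⟨fun a => by simp, fun {a b} h => ?_, fun {a b c} h1 h2 => ?_⟩
    · simpa only [norm_sub_rev] using h
    · refine squeeze_zero (fun n => norm_nonneg _) (fun n => ?_) (by simpa using h1.add h2)
      simpa using norm_sub_le_norm_sub_add_norm_sub (a n) (b n) (c n)
  add' := by
    intro a b c d h1 h2
    refine squeeze_zero (fun n => norm_nonneg _) (fun n => ?_) (by simpa using h1.add h2)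
    have : (a + c) n - (b + d) n = (a n - b n) + (c n - d n) := by
      simp only [BoundedContinuousFunction.coe_add, Pi.add_apply]; abel
    rw [this]
    exact norm_add_le _ _
  mul' := by
    intro a b c d h1 h2
    have h3 : Tendsto (fun n => ‖a n - b n‖ * ‖c‖ + ‖b‖ * ‖c n - d n‖) ω (𝓝 0) := by
      simpa using (h1.mul_const ‖c‖).add (h2.const_mul ‖b‖)
    refine squeeze_zero (fun n => norm_nonneg _) (fun n => ?_) h3
    have : (a * c) n - (b * d) n = (a n - b n) * c n + b n * (c n - d n) := by
      simp only [BoundedContinuousFunction.coe_mul, Pi.mul_apply]; noncomm_ring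
    rw [this]
    refine (norm_add_le _ _).trans (add_le_add ?_ ?_)
    · refine (norm_mul_le _ _).trans (mul_le_mul_of_nonneg_left ?_ (norm_nonneg _))
      exact c.norm_coe_le_norm n
    · refine (norm_mul_le _ _).trans (mul_le_mul_of_nonneg_right ?_ (norm_nonneg _))
      exact b.norm_coe_le_norm n

/-- The norm ultrapower `B^ω = ℓ^∞(ℕ, B) / I_ω(B)` (with the quotient ring and algebra structures
of Mathlib). -/
abbrev Ultrapower (ω : Ultrafilter ℕ) (B : Type u) [CStarAlgebra B] : Type u :=
  (ultraCon ω B).Quotient

lemma ultraCon_star (ω : Ultrafilter ℕ) {B : Type u} [CStarAlgebra B] (a b : ℕ →ᵇ B)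
    (h : ultraCon ω B a b) : ultraCon ω B (star a) (star b) := by
  change Tendsto _ _ _ at h
  change Tendsto _ _ _
  convert h using 2 with n
  rw [← norm_star]
  simp

/-- the involution of the ultrapower, induced by the pointwise involution -/
noncomputable instance ultraStar (ω : Ultrafilter ℕ) (B : Type u) [CStarAlgebra B] :
    Star (Ultrapower ω B) where
  star := Quotient.map' star (ultraCon_star ω)

end Vale.Agent.P083
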