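import Vale.Agent.P083.UltraDef
import Vale.Agent.P083.UltraDef2

open Filter Topology BoundedContinuousFunction

namespace Vale.Agent.P083.Adapt

open Vale.Agent.P083

universe u

variable (ω : Ultrafilter ℕ) {B : Type u} [CStarAlgebra B]

/-- a bounded function as a bounded sequence -/
def emb (f : ℕ →ᵇ B) : BddSeq B := ⟨f, ⟨‖f‖, fun n => f.norm_coe_le_norm n⟩⟩

noncomputable def toNU : Ultrapower ω B →⋆ₐ[ℂ] NormUltrapower ω B where
  toFun x := Quotient.liftOn' (s₁ := (ultraCon ω B).toSetoid) x
    (fun f => NormUltrapower.mk ω (emb f))
    (fun _ _ h => (NormUltrapower.mk_eq_mk ω).2 h)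
  map_one' := rfl
  map_mul' x y := by
    induction x using Quotient.inductionOn'
    induction y using Quotient.inductionOn'
    rfl
  map_zero' := rfl
  map_add' x y := by
    induction x using Quotient.inductionOn'
    induction y using Quotient.inductionOn'
    rfl
  commutes' r := rfl
  map_star' x := by
    induction x using Quotient.inductionOn'
    rfl

lemma toNU_injective : Function.Injective (toNU ω (B := B)) := by
  intro x y h
  induction x using Quotient.inductionOn'
  induction y using Quotient.inductionOn'
  exact Quotient.sound' ((NormUltrapower.mk_eq_mk ω).1 h)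

end Vale.Agent.P083.Adapt
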