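import Vale.Agent.P083.Words

/-!
P083, module ALG: the separable unital C*-algebra with the exact relations, realised on
`ℓ²(⊔_N V N)`.
-/

namespace Vale.Agent.P083.Alg

open scoped BigOperators InnerProductSpace
open Function

/-- the disjoint union of all levels -/
abbrev Y : Type := Σ N : ℕ, V N

/-- the Hilbert space -/
abbrev H : Type := lp (fun _ : Y => ℂ) 2

/-- basis vectors -/
noncomputable def d (y : Y) : H := lp.single 2 y (1 : ℂ)

theorem inner_d (y : Y) (f : H) : ⟪d y, f⟫_ℂ = f y := by
  unfold d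
  rw [lp.inner_single_left]
  simp

theorem orthonormal_d : Orthonormal ℂ d := by
  constructor
  · intro y
    unfold d
    rw [lp.norm_single (by norm_num)]
    simp
  · intro y z hyz
    show ⟪d y, d z⟫_ℂ = 0
    rw [inner_d]
    unfold d
    rw [lp.single_apply_ne _ _ _ hyz]

theorem ext_d {F : Type*} [AddCommMonoid F] [Module ℂ F] [TopologicalSpace F] [T2Space F]
    {A B : H →L[ℂ] F} (h : ∀ y, A (d y) = B (d y)) : A = B := by
  refine lp.ext_continuousLinearMap (by norm_num) fun y => ?_
  refine ContinuousLinearMap.ext_ring ?_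
  exact h y

/-- the isometry of `ℓ²(Y)` induced by an injective map -/
noncomputable def T (f : Y → Y) (hf : Injective f) : H →L[ℂ] H :=
  ((orthonormal_d.comp f hf).orthogonalFamily.linearIsometry).toContinuousLinearMap

theorem T_d (f : Y → Y) (hf : Injective f) (y : Y) : T f hf (d y) = d (f y) := by
  unfold T
  have h := (orthonormal_d.comp f hf).orthogonalFamily.linearIsometry_apply_single
    (i := y) (1 : ℂ)
  refine Eq.trans h ?_
  simp [LinearIsometry.toSpanSingleton_apply]

theorem T_mul (f g : Y → Y) (hf : Injective f) (hg : Injective g) :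
    T f hf * T g hg = T (f ∘ g) (hf.comp hg) := by
  apply ext_d
  intro y
  rw [mul_apply_eq_comp, T_d, T_d, T_d]
  rfl

theorem T_congr {f g : Y → Y} (hf : Injective f) (hg : Injective g) (h : f = g) :
    T f hf = T g hg := by
  subst h; rfl

theorem T_id : T id injective_id = 1 := by
  apply ext_d
  intro y
  rw [T_d]; rfl

theorem T_star_mul (f : Y → Y) (hf : Injective f) : star (T f hf) * T f hf = 1 :=
  LinearIsometry.adjoint_comp_self _

theorem T_star (f g : Y → Y) (hf : Injective f) (hg : Injective g) (h : f ∘ g = id) :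
    star (T f hf) = T g hg := by
  have h1 : T f hf * T g hg = 1 := by
    rw [T_mul, ← T_id]
    exact T_congr _ _ h
  calc star (T f hf) = star (T f hf) * (T f hf * T g hg) := by rw [h1, mul_one]
    _ = (star (T f hf) * T f hf) * T g hg := by rw [mul_assoc]
    _ = T g hg := by rw [T_star_mul, one_mul]

theorem T_star_mul_zero (f g : Y → Y) (hf : Injective f) (hg : Injective g)
    (h : ∀ y z, f y ≠ g z) : star (T f hf) * T g hg = 0 := by
  apply ext_d
  intro z
  rw [mul_apply_eq_comp, T_d, zero_apply]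
  have key : (innerSL ℂ (d (g z))) ∘L (T f hf) = 0 := by
    apply ext_d
    intro y
    rw [ContinuousLinearMap.comp_apply, T_d, innerSL_apply_apply, zero_apply]
    exact orthonormal_d.2 (fun hh => h y z hh.symm)
  apply ext_inner_right ℂ
  intro w
  rw [inner_zero_left, ContinuousLinearMap.star_eq_adjoint,
    ContinuousLinearMap.adjoint_inner_left]
  have := congrArg (fun A => A w) key
  simpa using this

/-- the action of a family of permutations on `Y` -/
def act (γ : G) : Y → Y := fun y => ⟨y.1, γ y.1 y.2⟩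

theorem act_inj (γ : G) : Injective (act γ) := by
  rintro ⟨n, v⟩ ⟨m, w⟩ h
  obtain ⟨h1, h2⟩ := Sigma.mk.inj_iff.1 h
  have h1' : n = m := h1
  subst h1'
  have h3 := (γ n).injective (eq_of_heq h2)
  have h4 : v = w := h3
  rw [h4]

theorem act_mul (γ γ' : G) : act (γ * γ') = act γ ∘ act γ' := rfl

theorem act_one : act 1 = id := rfl

/-- prepending a letter on `Y` -/
def pre (b : X) : Y → Y := fun y => ⟨y.1 + 1, cons b y.2⟩

theorem cons_inj' {N : ℕ} {b c : X} {v w : V N} (h : cons b v = cons c w) : b = c ∧ v = w := by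
  unfold cons at h
  rw [Prod.ext_iff, Prod.ext_iff] at h
  obtain ⟨h1, h2, h3⟩ := h
  have h1' := (Fin.cons_inj (α := fun _ => Fp)).1 h1
  have h2' := (Fin.cons_inj (α := fun _ => Fp)).1 h2
  have h3' := (Fin.cons_inj (α := fun _ => Fp)).1 h3
  exact ⟨Prod.ext h1'.1 (Prod.ext h2'.1 h3'.1), Prod.ext h1'.2 (Prod.ext h2'.2 h3'.2)⟩

theorem pre_eq {b c : X} {y z : Y} (h : pre b y = pre c z) : b = c ∧ y = z := by
  obtain ⟨n, v⟩ := y
  obtain ⟨m, w⟩ := z
  obtain ⟨h1, h2⟩ := Sigma.mk.inj_iff.1 h
  have h1' : n = m := Nat.succ_injective h1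
  subst h1'
  have h3 := cons_inj' (eq_of_heq h2)
  refine ⟨h3.1, ?_⟩
  have h4 : v = w := h3.2
  rw [h4]

theorem pre_inj (b : X) : Injective (pre b) := fun _ _ h => (pre_eq h).2

/-- the unitary of a family of permutations -/
noncomputable def U0 (γ : G) : H →L[ℂ] H := T (act γ) (act_inj γ)

/-- the isometry of a letter -/
noncomputable def S0 (b : X) : H →L[ℂ] H := T (pre b) (pre_inj b)

/-- the point of level zero -/
def o : Y := ⟨0, 0⟩

/-- the rank one projection on the point of level zero -/
noncomputable def q0 : H →L[ℂ] H := (innerSL ℂ (d o)).smulRight (d o)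

theorem U0_mul (γ γ' : G) : U0 γ * U0 γ' = U0 (γ * γ') := by
  unfold U0
  rw [T_mul]
  rfl

theorem U0_one : U0 1 = 1 := by
  unfold U0
  rw [← T_id]
  exact T_congr _ _ act_one

theorem U0_star (γ : G) : star (U0 γ) = U0 γ⁻¹ := by
  apply T_star
  rw [← act_mul, mul_inv_cancel]
  rfl

theorem U0_pow (γ : G) (n : ℕ) : U0 γ ^ n = U0 (γ ^ n) := by
  induction n with
  | zero => rw [pow_zero, pow_zero, U0_one]
  | succ n ih => rw [pow_succ, pow_succ, ih, U0_mul]

theorem U0_q0 (γ : G) : U0 γ * q0 = q0 := by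
  have h : U0 γ (d o) = d o := by
    unfold U0
    rw [T_d]
    congr 1
    unfold act o
    congr 1
    exact Subsingleton.elim _ _
  ext1 v
  rw [mul_apply_eq_comp]
  unfold q0
  rw [ContinuousLinearMap.smulRight_apply, map_smul, h]

theorem q0_ne : q0 ≠ 0 := by
  intro h
  have h1 := congrArg (fun A => A (d o)) h
  simp only [q0, ContinuousLinearMap.smulRight_apply, zero_apply] at h1
  rw [innerSL_apply_apply] at h1
  have h2 : ⟪d o, d o⟫_ℂ = 1 := by
    rw [inner_self_eq_norm_sq_to_K, orthonormal_d.1 o]; simp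
  rw [h2, one_smul] at h1
  have h3 := orthonormal_d.1 o
  rw [h1, norm_zero] at h3
  exact zero_ne_one h3

/-- the finite index type of the group elements used -/
abbrev GI : Type := Gen × Gen × Heis ⊕ Gen

/-- the group elements used -/
def gi : GI → G
  | .inl t => hs t.1 t.2.1 t.2.2
  | .inr a => g a

instance : Finite Heis := Finite.of_equiv _ Heis.equivProd.symm

/-- the generating set -/
def gens : Set (H →L[ℂ] H) :=
  Set.range (fun i : GI => U0 (gi i)) ∪ Set.range S0 ∪ {q0}

theorem gens_countable : gens.Countable :=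
  ((Set.countable_range _).union (Set.countable_range _)).union (Set.countable_singleton _)

/-- the C*-algebra -/
noncomputable def A : StarSubalgebra ℂ (H →L[ℂ] H) :=
  (StarAlgebra.adjoin ℂ gens).topologicalClosure

theorem countable_closure {M : Type*} [Monoid M] {s : Set M} (hs : s.Countable) :
    (Submonoid.closure s : Set M).Countable := by
  have : Countable s := hs.to_subtype
  rw [Submonoid.closure_eq_mrange]
  have : Countable (FreeMonoid s) := inferInstanceAs (Countable (List s))
  exact Set.countable_range _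

theorem sep : TopologicalSpace.SeparableSpace A := by
  have h1 : TopologicalSpace.IsSeparable (StarAlgebra.adjoin ℂ gens : Set (H →L[ℂ] H)) := by
    have e : (StarAlgebra.adjoin ℂ gens : Set (H →L[ℂ] H))
        = (Submodule.span ℂ (Submonoid.closure (gens ∪ star gens) : Set (H →L[ℂ] H)) :
            Set (H →L[ℂ] H)) := by
      rw [← Algebra.adjoin_eq_span]
      rfl
    rw [e]
    apply TopologicalSpace.IsSeparable.span
    apply Set.Countable.isSeparable
    apply countable_closure
    refine gens_countable.union ?_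
    rw [← Set.image_star]
    exact gens_countable.image _
  have h2 : TopologicalSpace.IsSeparable (A : Set (H →L[ℂ] H)) := by
    unfold A
    rw [StarSubalgebra.topologicalClosure_coe]
    exact h1.closure
  exact h2.separableSpace

theorem mem_A {x : H →L[ℂ] H} (hx : x ∈ gens) : x ∈ A :=
  StarSubalgebra.le_topologicalClosure _ (StarAlgebra.subset_adjoin ℂ gens hx)

theorem U0_mem {γ : G} (h : γ ∈ Set.range gi) : U0 γ ∈ A := by
  obtain ⟨i, rfl⟩ := h
  exact mem_A (Or.inl (Or.inl ⟨i, rfl⟩))

open Classical in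
/-- the unitaries in the algebra -/
noncomputable def UA (γ : G) : A := if h : γ ∈ Set.range gi then ⟨U0 γ, U0_mem h⟩ else 0

theorem UA_coe {γ : G} (h : γ ∈ Set.range gi) : (UA γ : H →L[ℂ] H) = U0 γ := by
  unfold UA
  rw [dif_pos h]

theorem hs_mem (a b : Gen) (h : Heis) : hs a b h ∈ Set.range gi := ⟨.inl (a, b, h), rfl⟩

theorem g_mem (a : Gen) : g a ∈ Set.range gi := ⟨.inr a, rfl⟩

instance : IsClosed (A : Set (H →L[ℂ] H)) := StarSubalgebra.isClosed_topologicalClosure _

theorem alg (hHS : S_HS) (hREC : S_REC) : S_ALG := by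
  refine ⟨A, inferInstance, sep, UA, fun b => ⟨S0 b, mem_A (Or.inl (Or.inr ⟨b, rfl⟩))⟩,
    ⟨q0, mem_A (Or.inr rfl)⟩, ?_, ?_, ?_, ?_, ?_, ?_, ?_, ?_, ?_, ?_, ?_⟩
  · intro a b hab h h'
    apply Subtype.ext
    show (UA (hs a b h) : H →L[ℂ] H) * (UA (hs a b h') : H →L[ℂ] H) = _
    rw [UA_coe (hs_mem a b h), UA_coe (hs_mem a b h'), UA_coe (hs_mem a b (h * h')), U0_mul,
      hHS a b hab]
  · intro a b hab h
    apply Subtype.ext
    show star (UA (hs a b h) : H →L[ℂ] H) = _
    rw [UA_coe (hs_mem a b h), UA_coe (hs_mem a b h⁻¹), U0_star]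
    congr 1
    have h1 : hs a b h * hs a b h⁻¹ = 1 := by
      rw [← hHS a b hab, mul_inv_cancel, Words.hs_one]
    exact inv_eq_of_mul_eq_one_right h1
  · apply Subtype.ext
    have h1 : (1 : G) ∈ Set.range gi := by
      rw [← Words.hs_one .x .y]; exact hs_mem _ _ _
    show (UA 1 : H →L[ℂ] H) = 1
    rw [UA_coe h1, U0_one]
  · intro b
    apply Subtype.ext
    exact T_star_mul _ (pre_inj b)
  · intro b c hbc
    apply Subtype.ext
    exact T_star_mul_zero _ _ (pre_inj b) (pre_inj c) (fun y z h => hbc (pre_eq h).1)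
  · intro b
    apply Subtype.ext
    show (UA (g .x) : H →L[ℂ] H) * S0 b = S0 _ * (UA (g .x) : H →L[ℂ] H)
    rw [UA_coe (g_mem _)]
    unfold U0 S0
    rw [T_mul, T_mul]
    apply T_congr
    funext y
    exact congrArg (Sigma.mk (y.1 + 1)) (hREC y.1 b y.2).1
  · intro b
    apply Subtype.ext
    show (UA (g .y) : H →L[ℂ] H) * S0 b = S0 _ * (UA (g .y) : H →L[ℂ] H)
    rw [UA_coe (g_mem _)]
    unfold U0 S0
    rw [T_mul, T_mul]
    apply T_congr
    funext y
    exact congrArg (Sigma.mk (y.1 + 1)) (hREC y.1 b y.2).2.1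
  · intro b
    apply Subtype.ext
    show (UA (g .z) : H →L[ℂ] H) * S0 b
      = S0 b * (UA (g .w) : H →L[ℂ] H) ^ b.1.val * (UA (g .z) : H →L[ℂ] H)
    rw [UA_coe (g_mem _), UA_coe (g_mem _), U0_pow]
    unfold U0 S0
    rw [T_mul, T_mul, T_mul]
    apply T_congr
    funext y
    exact congrArg (Sigma.mk (y.1 + 1)) (hREC y.1 b y.2).2.2.1
  · intro b
    apply Subtype.ext
    show (UA (g .w) : H →L[ℂ] H) * S0 b = S0 _
    rw [UA_coe (g_mem _)]
    unfold U0 S0
    rw [T_mul]
    apply T_congr
    funext y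
    exact congrArg (Sigma.mk (y.1 + 1)) (hREC y.1 b y.2).2.2.2
  · intro h
    exact q0_ne (congrArg Subtype.val h)
  · intro a
    apply Subtype.ext
    show (UA (g a) : H →L[ℂ] H) * q0 = q0
    rw [UA_coe (g_mem _), U0_q0]

end Vale.Agent.P083.Alg
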