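import Vale.Agent.P083.Defs

/-!
# P083: the exact angle inequality for the Heisenberg group (ANGLE)
-/

open scoped BigOperators ComplexConjugate InnerProductSpace

namespace Vale.Agent.P083.Angle

universe u

/-- the real inequality -/
lemma real_ineq {n A r : ℝ} (hn : 0 ≤ n) (hA : 0 ≤ A) (h1 : A ^ 2 ≤ (A + r) * n)
    (h2 : |r| ≤ 1 / 6 * A) :
    0 ≤ (2 * n - 2 * A + r) + 1 / 6 * (2 * n - A) := by
  have h3 := abs_le.1 h2
  rcases hn.eq_or_lt with h0 | h0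
  · have hA0 : A ^ 2 ≤ 0 := by rw [← h0] at h1; simpa using h1
    have hA1 : A = 0 := by nlinarith
    rw [hA1] at h3
    rw [← h0, hA1]
    linarith [h3.1]
  · have h4 : A ≤ (1 + 1 / 6) * n := by
      by_contra h
      push Not at h
      have hApos : 0 < A := by nlinarith
      have h5 : A ^ 2 ≤ (1 + 1 / 6) * A * n := by nlinarith [h3.2]
      nlinarith
    have h6 : 0 ≤ (A - 2 * n) * (A - (1 + 1 / 6) * n) := by
      apply mul_nonneg_of_nonpos_of_nonpos <;> linarith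
    have h7 : 0 ≤ ((2 * n - 2 * A + r) + 1 / 6 * (2 * n - A)) * n := by nlinarith
    exact nonneg_of_mul_nonneg_left h7 h0

variable {E : Type u} [NormedAddCommGroup E] [InnerProductSpace ℂ E]

section proj

variable {P Q C : E →ₗ[ℂ] E}

/-- for orthogonal projections -/
lemma proj_inner (hs : ∀ u v, ⟪P u, v⟫_ℂ = ⟪u, P v⟫_ℂ) (hp : ∀ v, P (P v) = P v) (v : E) :
    ⟪P v, v⟫_ℂ = ((‖P v‖ ^ 2 : ℝ) : ℂ) := by
  have h : ⟪P v, v⟫_ℂ = ⟪P v, P v⟫_ℂ := by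
    conv_lhs => rw [← hp v, hs]
  rw [h, inner_self_eq_norm_sq_to_K]
  push_cast
  rfl

/-- abstract form of the angle inequality -/
lemma abs_angle (hsP : ∀ u v, ⟪P u, v⟫_ℂ = ⟪u, P v⟫_ℂ) (hsQ : ∀ u v, ⟪Q u, v⟫_ℂ = ⟪u, Q v⟫_ℂ)
    (hsC : ∀ u v, ⟪C u, v⟫_ℂ = ⟪u, C v⟫_ℂ)
    (hP : ∀ v, P (P v) = P v) (hQ : ∀ v, Q (Q v) = Q v) (hC : ∀ v, C (C v) = C v)
    (hCP : ∀ v, C (P v) = P (C v)) (hCQ : ∀ v, C (Q v) = Q (C v))
    (hPQ : ∀ v, P (Q (C v)) = Q (P (C v)))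
    (hPQP : ∀ v, P (Q (P v)) = ((37 : ℂ)⁻¹) • (P v - C (P v)) + C (Q (P v))) (v : E) :
    -(1 / 6 : ℝ) * (‖v - P v‖ ^ 2 + ‖v - Q v‖ ^ 2) ≤ 2 * (⟪v - P v, v - Q v⟫_ℂ).re := by
  set v0 := C v with hv0
  set v1 := v - C v with hv1
  have hsum : v = v0 + v1 := by rw [hv0, hv1]; abel
  have hCv0 : C v0 = v0 := hC v
  have hCv1 : C v1 = 0 := by rw [hv1, map_sub, hC, sub_self]
  -- orthogonality of the two parts
  have horth : ∀ x y : E, C x = x → C y = 0 → ⟪x, y⟫_ℂ = 0 := by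
    intro x y hx hy
    rw [← hx, hsC, hy, inner_zero_right]
  have horth' : ∀ x y : E, C x = x → C y = 0 → ⟪y, x⟫_ℂ = 0 := by
    intro x y hx hy
    rw [← inner_conj_symm, horth x y hx hy, map_zero]
  have a0 : C (v0 - P v0) = v0 - P v0 := by rw [map_sub, hCP, hCv0]
  have b0 : C (v0 - Q v0) = v0 - Q v0 := by rw [map_sub, hCQ, hCv0]
  have a1 : C (v1 - P v1) = 0 := by rw [map_sub, hCP, hCv1, map_zero, sub_zero]
  have b1 : C (v1 - Q v1) = 0 := by rw [map_sub, hCQ, hCv1, map_zero, sub_zero]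
  have eP : v - P v = (v0 - P v0) + (v1 - P v1) := by
    conv_lhs => rw [hsum]
    rw [map_add]; abel
  have eQ : v - Q v = (v0 - Q v0) + (v1 - Q v1) := by
    conv_lhs => rw [hsum]
    rw [map_add]; abel
  have nsq : ∀ x : E, ‖x‖ ^ 2 = (⟪x, x⟫_ℂ).re := by
    intro x
    rw [inner_self_eq_norm_sq_to_K]
    have : (((‖x‖ : ℝ) : ℂ) ^ 2).re = ‖x‖ ^ 2 := by
      rw [← Complex.ofReal_pow, Complex.ofReal_re]
    exact this.symm
  have nP : ‖v - P v‖ ^ 2 = ‖v0 - P v0‖ ^ 2 + ‖v1 - P v1‖ ^ 2 := by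
    rw [nsq, nsq (v0 - P v0), nsq (v1 - P v1), eP, inner_add_left, inner_add_right,
      inner_add_right, horth _ _ a0 a1, horth' _ _ a0 a1]
    simp
  have nQ : ‖v - Q v‖ ^ 2 = ‖v0 - Q v0‖ ^ 2 + ‖v1 - Q v1‖ ^ 2 := by
    rw [nsq, nsq (v0 - Q v0), nsq (v1 - Q v1), eQ, inner_add_left, inner_add_right,
      inner_add_right, horth _ _ b0 b1, horth' _ _ b0 b1]
    simp
  have iPQ : (⟪v - P v, v - Q v⟫_ℂ).re
      = (⟪v0 - P v0, v0 - Q v0⟫_ℂ).re + (⟪v1 - P v1, v1 - Q v1⟫_ℂ).re := by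
    rw [eP, eQ, inner_add_left, inner_add_right, inner_add_right, horth _ _ a0 b1,
      horth' _ _ b0 a1, add_zero, zero_add, Complex.add_re]
  -- the part on the range of C
  have h0 : 0 ≤ (⟪v0 - P v0, v0 - Q v0⟫_ℂ).re := by
    set A0 : E := v0 - P v0 with hA0
    have hcomm : P (Q v0) = Q (P v0) := hPQ v
    -- `⟪A v0, B v0⟫ = ‖B A v0‖²`
    have e1 : ⟪A0, v0 - Q v0⟫_ℂ = ⟪A0 - Q A0, A0 - Q A0⟫_ℂ := by
      have hPA : P A0 = 0 := by rw [hA0, map_sub, hP, sub_self]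
      have e2 : A0 - Q A0 = (v0 - Q v0) - P (v0 - Q v0) := by
        rw [hA0, map_sub, map_sub, hcomm]; abel
      have e3 : ⟪A0 - Q A0, A0 - Q A0⟫_ℂ = ⟪A0, A0 - Q A0⟫_ℂ := by
        rw [inner_sub_left]
        have : ⟪Q A0, A0 - Q A0⟫_ℂ = 0 := by
          rw [hsQ, map_sub, hQ, sub_self, inner_zero_right]
        rw [this, sub_zero]
      have : ⟪A0, P (v0 - Q v0)⟫_ℂ = 0 := by
        rw [← hsP, hPA, inner_zero_left]
      rw [e3, e2, inner_sub_right A0 (v0 - Q v0) (P (v0 - Q v0)), this, sub_zero]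
    rw [e1, ← nsq]
    positivity
  -- the part on the kernel of C
  set a := P v1 with ha
  set b := Q v1 with hb
  have hCa : C a = 0 := by rw [ha, hCP, hCv1, map_zero]
  have hQa : ‖Q a‖ ^ 2 = (37 : ℝ)⁻¹ * ‖a‖ ^ 2 := by
    have e1 : ((‖Q a‖ ^ 2 : ℝ) : ℂ) = ⟪Q a, a⟫_ℂ := (proj_inner hsQ hQ a).symm
    have e2 : ⟪Q a, a⟫_ℂ = ⟪P (Q (P v1)), v1⟫_ℂ := by
      rw [ha, hsP]
    have e3 : P (Q (P v1)) = ((37 : ℂ)⁻¹) • P v1 := by
      rw [hPQP v1]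
      have : C (P v1) = 0 := hCa
      rw [this, sub_zero, hCQ, this, map_zero, add_zero]
    have e4 : ⟪P v1, v1⟫_ℂ = ((‖a‖ ^ 2 : ℝ) : ℂ) := proj_inner hsP hP v1
    have e5 : ((‖Q a‖ ^ 2 : ℝ) : ℂ) = (((37 : ℝ)⁻¹ * ‖a‖ ^ 2 : ℝ) : ℂ) := by
      have e6 : (starRingEnd ℂ) ((37 : ℂ)⁻¹) = (37 : ℂ)⁻¹ := by rw [map_inv₀, map_ofNat]
      rw [e1, e2, e3, inner_smul_left, e4, e6]
      push_cast
      ring
    exact_mod_cast e5
  have hab : ‖⟪a, b⟫_ℂ‖ ≤ 1 / 6 * (‖a‖ * ‖b‖) := by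
    have e1 : ⟪a, b⟫_ℂ = ⟪Q a, b⟫_ℂ := by
      rw [hsQ, hb, hQ]
    have e2 : ‖Q a‖ ≤ 1 / 6 * ‖a‖ := by
      have : ‖Q a‖ ^ 2 ≤ (1 / 6 * ‖a‖) ^ 2 := by
        rw [hQa]
        nlinarith [sq_nonneg ‖a‖]
      exact le_of_sq_le_sq this (by positivity)
    rw [e1]
    refine (norm_inner_le_norm _ _).trans ?_
    have := mul_le_mul_of_nonneg_right e2 (norm_nonneg b)
    linarith
  have i1 : (⟪a, v1⟫_ℂ).re = ‖a‖ ^ 2 := by
    rw [ha, proj_inner hsP hP v1, Complex.ofReal_re]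
  have i2 : (⟪b, v1⟫_ℂ).re = ‖b‖ ^ 2 := by
    rw [hb, proj_inner hsQ hQ v1, Complex.ofReal_re]
  have symm_re : ∀ x y : E, (⟪x, y⟫_ℂ).re = (⟪y, x⟫_ℂ).re := fun x y =>
    inner_re_symm (𝕜 := ℂ) x y
  clear_value a b v1 v0
  have m1 : ‖v1 - a‖ ^ 2 = ‖v1‖ ^ 2 - ‖a‖ ^ 2 := by
    rw [nsq, nsq v1, nsq a, inner_sub_left, inner_sub_right, inner_sub_right]
    have : (⟪v1, a⟫_ℂ).re = (⟪a, a⟫_ℂ).re := by rw [symm_re, i1, nsq]
    have h2 : (⟪a, v1⟫_ℂ).re = (⟪a, a⟫_ℂ).re := by rw [i1, nsq]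
    simp only [Complex.sub_re]
    linarith
  have m2 : ‖v1 - b‖ ^ 2 = ‖v1‖ ^ 2 - ‖b‖ ^ 2 := by
    rw [nsq, nsq v1, nsq b, inner_sub_left, inner_sub_right, inner_sub_right]
    have : (⟪v1, b⟫_ℂ).re = (⟪b, b⟫_ℂ).re := by rw [symm_re, i2, nsq]
    have h2 : (⟪b, v1⟫_ℂ).re = (⟪b, b⟫_ℂ).re := by rw [i2, nsq]
    simp only [Complex.sub_re]
    linarith
  have m3 : 2 * (⟪v1 - a, v1 - b⟫_ℂ).re
      = 2 * ‖v1‖ ^ 2 - 2 * (‖a‖ ^ 2 + ‖b‖ ^ 2) + 2 * (⟪a, b⟫_ℂ).re := by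
    rw [inner_sub_left, inner_sub_right, inner_sub_right, nsq v1]
    have h1 : (⟪v1, b⟫_ℂ).re = ‖b‖ ^ 2 := by rw [symm_re, i2]
    simp only [Complex.sub_re]
    linarith
  have m4 : (‖a‖ ^ 2 + ‖b‖ ^ 2) ^ 2
      ≤ (‖a‖ ^ 2 + ‖b‖ ^ 2 + 2 * (⟪a, b⟫_ℂ).re) * ‖v1‖ ^ 2 := by
    have e1 : ‖a‖ ^ 2 + ‖b‖ ^ 2 = (⟪a + b, v1⟫_ℂ).re := by
      rw [inner_add_left, Complex.add_re, i1, i2]
    have e2 : ‖a + b‖ ^ 2 = ‖a‖ ^ 2 + ‖b‖ ^ 2 + 2 * (⟪a, b⟫_ℂ).re := by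
      rw [nsq, nsq a, nsq b, inner_add_left, inner_add_right, inner_add_right]
      have : (⟪b, a⟫_ℂ).re = (⟪a, b⟫_ℂ).re := symm_re _ _
      simp only [Complex.add_re]
      linarith
    rw [← e2]
    have e3 : |(⟪a + b, v1⟫_ℂ).re| ≤ ‖a + b‖ * ‖v1‖ :=
      (Complex.abs_re_le_norm _).trans (norm_inner_le_norm _ _)
    rw [e1, ← sq_abs, ← mul_pow]
    exact pow_le_pow_left₀ (abs_nonneg _) e3 2
  have m5 : |2 * (⟪a, b⟫_ℂ).re| ≤ 1 / 6 * (‖a‖ ^ 2 + ‖b‖ ^ 2) := by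
    have e1 : |(⟪a, b⟫_ℂ).re| ≤ 1 / 6 * (‖a‖ * ‖b‖) := (Complex.abs_re_le_norm _).trans hab
    rw [abs_mul, abs_two]
    nlinarith [sq_nonneg (‖a‖ - ‖b‖)]
  have m6 := real_ineq (n := ‖v1‖ ^ 2) (A := ‖a‖ ^ 2 + ‖b‖ ^ 2) (r := 2 * (⟪a, b⟫_ℂ).re)
    (by positivity) (by positivity) m4 m5
  rw [nP, nQ, iPQ]
  have p0 : 0 ≤ ‖v0 - P v0‖ ^ 2 := by positivity
  have q0 : 0 ≤ ‖v0 - Q v0‖ ^ 2 := by positivity
  linarith

end proj

/-! ## The averages -/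

variable (ρ : Heis →* (E ≃ₗᵢ[ℂ] E))

/-- average over a one-parameter family -/
noncomputable def av (s : Fp → Heis) : E →ₗ[ℂ] E :=
  (pp : ℂ)⁻¹ • ∑ k : Fp, ((ρ (s k)).toLinearEquiv : E →ₗ[ℂ] E)

lemma av_apply (s : Fp → Heis) (v : E) : av ρ s v = (pp : ℂ)⁻¹ • ∑ k : Fp, ρ (s k) v := by
  unfold av
  simp [LinearMap.smul_apply, LinearMap.sum_apply]

lemma rho_mul (h h' : Heis) (v : E) : ρ (h * h') v = ρ h (ρ h' v) := by
  rw [map_mul]; rfl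

lemma rho_one (v : E) : ρ 1 v = v := by
  rw [map_one]; rfl

lemma rho_inner (h : Heis) (u v : E) : ⟪ρ h u, v⟫_ℂ = ⟪u, ρ h⁻¹ v⟫_ℂ := by
  have e : v = ρ h (ρ h⁻¹ v) := by
    rw [← rho_mul, mul_inv_cancel, rho_one]
  conv_lhs => rw [e]
  exact LinearIsometryEquiv.inner_map_map _ _ _

lemma pp_ne : (pp : ℂ) ≠ 0 := by norm_num [pp]

lemma pp_smul_inv (v : E) : (pp : ℂ)⁻¹ • ((pp : ℂ) • v) = v := by
  rw [smul_smul, inv_mul_cancel₀ pp_ne, one_smul]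

/-- one-parameter subgroups -/
def IsSub (s : Fp → Heis) : Prop := (∀ k l, s k * s l = s (k + l)) ∧ ∀ k, (s k)⁻¹ = s (-k)

lemma av_shift {s : Fp → Heis} (hs : IsSub s) (k : Fp) (v : E) :
    ρ (s k) (av ρ s v) = av ρ s v := by
  rw [av_apply, map_smul, map_sum]
  congr 1
  have : ∀ l, ρ (s k) (ρ (s l) v) = ρ (s (k + l)) v := by
    intro l
    rw [← rho_mul, hs.1]
  simp_rw [this]
  exact Equiv.sum_comp (Equiv.addLeft k) (fun l => ρ (s l) v)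

lemma av_shift' {s : Fp → Heis} (hs : IsSub s) (k : Fp) (v : E) :
    av ρ s (ρ (s k) v) = av ρ s v := by
  rw [av_apply, av_apply]
  congr 1
  have : ∀ l, ρ (s l) (ρ (s k) v) = ρ (s (l + k)) v := by
    intro l
    rw [← rho_mul, hs.1]
  simp_rw [this]
  exact Equiv.sum_comp (Equiv.addRight k) (fun l => ρ (s l) v)

lemma av_idem {s : Fp → Heis} (hs : IsSub s) (v : E) : av ρ s (av ρ s v) = av ρ s v := by
  conv_lhs => rw [av_apply]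
  simp_rw [av_shift ρ hs]
  rw [Finset.sum_const, Finset.card_univ, ZMod.card, ← Nat.cast_smul_eq_nsmul ℂ, pp_smul_inv]

lemma av_symm {s : Fp → Heis} (hs : IsSub s) (u v : E) :
    ⟪av ρ s u, v⟫_ℂ = ⟪u, av ρ s v⟫_ℂ := by
  rw [av_apply, av_apply, inner_smul_left, inner_smul_right, sum_inner, inner_sum]
  congr 1
  · simp
  · simp_rw [rho_inner, hs.2]
    exact Equiv.sum_comp (Equiv.neg Fp) (fun l => ⟪u, ρ (s l) v⟫_ℂ)

/-- the three subgroups -/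
def sx (k : Fp) : Heis := ⟨k, 0, 0⟩
/-- second -/
def sy (k : Fp) : Heis := ⟨0, k, 0⟩
/-- centre -/
def sz (k : Fp) : Heis := ⟨0, 0, k⟩

lemma sub_x : IsSub sx := by
  constructor
  · intro k l; ext <;> simp [sx]
  · intro k; ext <;> simp [sx]

lemma sub_y : IsSub sy := by
  constructor
  · intro k l; ext <;> simp [sy]
  · intro k; ext <;> simp [sy]

lemma sub_z : IsSub sz := by
  constructor
  · intro k l; ext <;> simp [sz]
  · intro k; ext <;> simp [sz]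

lemma comm_z (k : Fp) (h : Heis) : sz k * h = h * sz k := by
  ext <;> simp [sz, add_comm]

lemma xy_comm (k j : Fp) : sx k * sy j = sz (j * k) * (sy j * sx k) := by
  ext <;> simp [sx, sy, sz]

lemma C_comm (h : Heis) (v : E) : av ρ sz (ρ h v) = ρ h (av ρ sz v) := by
  rw [av_apply, av_apply, map_smul, map_sum]
  congr 1
  apply Finset.sum_congr rfl
  intro k _
  rw [← rho_mul, ← rho_mul, comm_z]

lemma C_comm_av (s : Fp → Heis) (v : E) : av ρ sz (av ρ s v) = av ρ s (av ρ sz v) := by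
  rw [av_apply ρ s, map_smul, map_sum, av_apply ρ s]
  simp_rw [C_comm]

lemma PQC (v : E) : av ρ sx (av ρ sy (av ρ sz v)) = av ρ sy (av ρ sx (av ρ sz v)) := by
  have e1 : ∀ w : E, av ρ sx (av ρ sy w)
      = (pp : ℂ)⁻¹ • ((pp : ℂ)⁻¹ • ∑ k : Fp, ∑ j : Fp, ρ (sx k * sy j) w) := by
    intro w
    rw [av_apply ρ sx]
    congr 1
    rw [Finset.smul_sum]
    apply Finset.sum_congr rfl
    intro k _
    rw [av_apply, map_smul, map_sum]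
    congr 1
    apply Finset.sum_congr rfl
    intro j _
    rw [rho_mul]
  have e2 : ∀ w : E, av ρ sy (av ρ sx w)
      = (pp : ℂ)⁻¹ • ((pp : ℂ)⁻¹ • ∑ j : Fp, ∑ k : Fp, ρ (sy j * sx k) w) := by
    intro w
    rw [av_apply ρ sy]
    congr 1
    rw [Finset.smul_sum]
    apply Finset.sum_congr rfl
    intro k _
    rw [av_apply, map_smul, map_sum]
    congr 1
    apply Finset.sum_congr rfl
    intro j _
    rw [rho_mul]
  rw [e1, e2, Finset.sum_comm]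
  congr 2
  apply Finset.sum_congr rfl
  intro j _
  apply Finset.sum_congr rfl
  intro k _
  rw [xy_comm, comm_z, rho_mul, av_shift ρ sub_z]

lemma PQP (v : E) : av ρ sx (av ρ sy (av ρ sx v))
    = ((37 : ℂ)⁻¹) • (av ρ sx v - av ρ sz (av ρ sx v)) + av ρ sz (av ρ sy (av ρ sx v)) := by
  set w := av ρ sx v with hw
  have hXw : ∀ k, ρ (sx k) w = w := fun k => av_shift ρ sub_x k v
  have key : ∀ j : Fp, j ≠ 0 → av ρ sx (ρ (sy j) w) = av ρ sz (ρ (sy j) w) := by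
    intro j hj
    rw [av_apply, av_apply]
    congr 1
    have e1 : ∀ k, ρ (sx k) (ρ (sy j) w) = ρ (sz (j * k)) (ρ (sy j) w) := by
      intro k
      rw [← rho_mul, xy_comm, rho_mul, rho_mul, hXw]
    simp_rw [e1]
    exact Equiv.sum_comp (Equiv.mulLeft₀ j hj) (fun l => ρ (sz l) (ρ (sy j) w))
  have key0 : av ρ sx (ρ (sy 0) w) = w := by
    have : sy 0 = (1 : Heis) := rfl
    rw [this, rho_one, hw, av_idem ρ sub_x]
  have e1 : av ρ sx (av ρ sy w) = (pp : ℂ)⁻¹ • ∑ j : Fp, av ρ sx (ρ (sy j) w) := by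
    rw [av_apply ρ sy, map_smul, map_sum]
  have e2 : av ρ sz (av ρ sy w) = (pp : ℂ)⁻¹ • ∑ j : Fp, av ρ sz (ρ (sy j) w) := by
    rw [av_apply ρ sy, map_smul, map_sum]
  rw [e1, e2, ← Finset.add_sum_erase _ _ (Finset.mem_univ (0 : Fp)),
    ← Finset.add_sum_erase (Finset.univ) (fun j => av ρ sz (ρ (sy j) w))
      (Finset.mem_univ (0 : Fp)), key0]
  have e3 : ∑ j ∈ Finset.univ.erase (0 : Fp), av ρ sx (ρ (sy j) w)
      = ∑ j ∈ Finset.univ.erase (0 : Fp), av ρ sz (ρ (sy j) w) := by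
    apply Finset.sum_congr rfl
    intro j hj
    exact key j (Finset.mem_erase.1 hj).1
  rw [e3]
  have e4 : ρ (sy 0) w = w := by
    have : sy 0 = (1 : Heis) := rfl
    rw [this, rho_one]
  rw [e4]
  have e5 : (pp : ℂ) = 37 := by norm_num [pp]
  rw [e5, smul_add, smul_add, smul_sub]
  abel

/-- ANGLE -/
theorem angle : S_ANGLE.{u} := by
  intro E _ _ ρ v
  have h := abs_angle (av_symm ρ sub_x) (av_symm ρ sub_y) (av_symm ρ sub_z) (av_idem ρ sub_x)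
    (av_idem ρ sub_y) (av_idem ρ sub_z) (C_comm_av ρ sx) (C_comm_av ρ sy) (PQC ρ) (PQP ρ) v
  rw [av_apply, av_apply] at h
  exact h

end Vale.Agent.P083.Angle
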