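import Vale.Agent.P083.Defs

open scoped BigOperators ComplexConjugate InnerProductSpace

namespace Vale.Agent.P083.Asm

open Vale.Agent.P083

universe u

theorem induct (hC : S_CORR.{u}) (hSt : S_STEP.{u}) (hB : S_BASE.{u}) : S_INDUCT.{u} := by
  obtain ⟨C1, e0, hC1, he0, hC⟩ := hC
  obtain ⟨C2, hC2, hSt⟩ := hSt
  obtain ⟨C3, hC3, hB⟩ := hB
  intro η hη
  obtain ⟨δ, hδ0, hδ1, hδ2, hδ3, hδ4⟩ : ∃ δ : ℝ, 0 < δ ∧ δ ≤ 1 / 100 ∧ δ ≤ η / C1 ∧
      δ ≤ e0 / (C2 * (C1 + 1)) ∧ δ ≤ e0 / C3 := by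
    refine ⟨min (min (1 / 100) (η / C1)) (min (e0 / (C2 * (C1 + 1))) (e0 / C3)), ?_, ?_, ?_, ?_, ?_⟩
    · have : 0 < C2 * (C1 + 1) := by positivity
      refine lt_min (lt_min (by norm_num) (div_pos hη hC1)) (lt_min (div_pos he0 this)
        (div_pos he0 hC3))
    · exact (min_le_left _ _).trans (min_le_left _ _)
    · exact (min_le_left _ _).trans (min_le_right _ _)
    · exact (min_le_right _ _).trans (min_le_left _ _)
    · exact (min_le_right _ _).trans (min_le_right _ _)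
  have hδle : δ ≤ 1 := by linarith
  have hsq : δ ^ 2 ≤ δ := by nlinarith
  have h2 : C1 * δ ≤ η := by
    rw [le_div_iff₀ hC1] at hδ2; linarith
  have h3 : C2 * (C1 * δ + δ ^ 2) ≤ e0 := by
    have : 0 < C2 * (C1 + 1) := by positivity
    rw [le_div_iff₀ this] at hδ3
    have : C2 * (C1 * δ + δ ^ 2) ≤ C2 * (C1 * δ + δ) :=
      mul_le_mul_of_nonneg_left (by linarith) hC2.le
    nlinarith
  have h4 : C3 * δ ^ 2 ≤ e0 := by
    rw [le_div_iff₀ hC3] at hδ4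
    nlinarith
  refine ⟨δ, hδ0, ?_⟩
  intro K _ _ _ D N
  have key : ∀ N : ℕ, ∃ F : V (N + 1) → K, IsNew F ∧ ∑ v, ‖F v‖ ^ 2 = 1 ∧
      ∀ a : Gen, ∑ v, ‖D.U (g a) (F ((g a (N + 1)).symm v)) - F v‖ ^ 2 ≤ C1 * δ := by
    intro N
    induction N with
    | zero =>
      obtain ⟨F, hF1, hF2, hF3⟩ := hB K δ hδ0.le hδ1 D
      exact hC K δ hδ0 hδle D 0 F hF1 hF2 (fun a => (hF3 a).trans h4)
    | succ N ih =>
      obtain ⟨F, hF1, hF2, hF3⟩ := ih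
      obtain ⟨F', h1', h2', h3'⟩ := hSt K δ hδ0.le hδ1 D N F (C1 * δ) (by positivity) hF1 hF2 hF3
      exact hC K δ hδ0 hδle D (N + 1) F' h1' h2' (fun a => (h3' a).trans h3)
  obtain ⟨F, h1, h2', h3'⟩ := key N
  exact ⟨F, h1, h2', fun a => (h3' a).trans h2⟩

lemma kernel_pyth {ι : Type*} [Fintype ι] (Y Z : ι → ι → ℂ)
    (h : ∑ v, ∑ v', conj (Y v v' - Z v v') * Z v v' = 0) :
    ∑ v, ∑ v', ‖Y v v'‖ ^ 2 = ∑ v, ∑ v', ‖Y v v' - Z v v'‖ ^ 2 + ∑ v, ∑ v', ‖Z v v'‖ ^ 2 := by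
  have h1 : ∀ v v', ‖Y v v'‖ ^ 2 = ‖Y v v' - Z v v'‖ ^ 2 + ‖Z v v'‖ ^ 2
      + 2 * (conj (Y v v' - Z v v') * Z v v').re := by
    intro v v'
    have : Y v v' = (Y v v' - Z v v') + Z v v' := by ring
    conv_lhs => rw [this]
    rw [← Complex.normSq_eq_norm_sq, ← Complex.normSq_eq_norm_sq, ← Complex.normSq_eq_norm_sq,
      Complex.normSq_add]
    congr 1
    simp [Complex.mul_re]
    ring
  have h2 : ∑ v, ∑ v', (conj (Y v v' - Z v v') * Z v v').re = 0 := by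
    have := congrArg Complex.re h
    simpa only [Complex.re_sum, Complex.zero_re] using this
  simp only [h1, Finset.sum_add_distrib, ← Finset.mul_sum, h2, mul_zero, add_zero]

lemma kernel_inner {ι : Type*} [Fintype ι] (Y Z : ι → ι → ℂ)
    (h : ∑ v, ∑ v', conj (Y v v' - Z v v') * Z v v' = 0) :
    ∑ v, ∑ v', conj (Y v v') * Z v v' = ((∑ v, ∑ v', ‖Z v v'‖ ^ 2 : ℝ) : ℂ) := by
  have h1 : ∑ v, ∑ v', conj (Y v v') * Z v v' = ∑ v, ∑ v', conj (Y v v' - Z v v') * Z v v'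
      + ∑ v, ∑ v', conj (Z v v') * Z v v' := by
    rw [← Finset.sum_add_distrib]
    refine Finset.sum_congr rfl fun v _ => ?_
    rw [← Finset.sum_add_distrib]
    refine Finset.sum_congr rfl fun v' _ => ?_
    rw [map_sub]; ring
  rw [h1, h, zero_add]
  push_cast
  refine Finset.sum_congr rfl fun v _ => Finset.sum_congr rfl fun v' _ => ?_
  rw [mul_comm, Complex.mul_conj, Complex.normSq_eq_norm_sq]
  push_cast; rfl

theorem contra (hNuc : S_NUC.{u}) (hScal : S_SCAL.{u}) (hSvd : S_SVD) (hE : S_EGAP)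
    (hF : S_FOUR) : S_CONTRA.{u} := by
  obtain ⟨C, hC, hE⟩ := hE
  obtain ⟨ε, hε0, hε1, hε2⟩ : ∃ ε : ℝ, 0 < ε ∧ ε ≤ 1 / 100 ∧ ε ≤ 1 / (200 * C) := by
    refine ⟨min (1 / 100) (1 / (200 * C)), lt_min (by norm_num) (by positivity),
      min_le_left _ _, min_le_right _ _⟩
  have hCε : C * (100 * ε) ≤ 1 / 2 := by
    rw [le_div_iff₀ (by positivity)] at hε2; linarith
  refine ⟨ε ^ 2, by positivity, ?_⟩
  intro K _ _ _ t ht A hA hAn hall
  have hK : Nontrivial K := by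
    obtain ⟨F, _, hF1, _⟩ := hall 0
    by_contra hK
    rw [not_nontrivial_iff_subsingleton] at hK
    have : ∀ v, ‖F v‖ ^ 2 = 0 := fun v => by
      rw [Subsingleton.elim (F v) 0]; simp
    simp [this] at hF1
  obtain ⟨Q, hQ1, hQ2, W, x, hW, hx, hWx⟩ := hNuc K t ht A hA ε hε0
  have hx' : ∀ a (f : Q → ℂ), ∑ q, ‖(x a).mulVec f q‖ ^ 2 ≤ (1 + ε) ^ 2 * ∑ q, ‖f q‖ ^ 2 := by
    intro a f
    refine (hx a f).trans (mul_le_mul_of_nonneg_right ?_ (by positivity))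
    have h1 : ‖A a‖ ≤ 1 + ε := (hAn a).trans (by nlinarith)
    exact pow_le_pow_left₀ (norm_nonneg _) h1 2
  obtain ⟨N, hN⟩ : ∃ N : ℕ, 2 * (Fintype.card Q : ℝ) < N + 1 := by
    obtain ⟨N, hN⟩ := exists_nat_gt (2 * (Fintype.card Q : ℝ))
    exact ⟨N, by linarith⟩
  obtain ⟨F, hF1, hF2, hF3⟩ := hall (N + 1)
  obtain ⟨H, hH1, hH2, hH3⟩ := hScal K A ε hε0 Q W x hW hx' hWx (N + 1) F hF1 hF2 hF3
  obtain ⟨Y, hY1, hY2, hY3, hY4⟩ := hSvd Q x ε hε0 hε1 hx' (N + 1) H hH1 hH2 hH3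
  obtain ⟨Z, hZ1, hZ2, hZ3, hZ4⟩ := hE (N + 1) Y hY1 (100 * ε) (by positivity) hY3
  have hfour := hF N Z hZ1 hZ2
  set z : ℝ := ∑ v, ∑ v', ‖Z v v'‖ ^ 2 with hz
  have hz0 : 0 ≤ z := by positivity
  have hzhalf : 1 / 2 ≤ z := by
    have := kernel_pyth Y Z hZ4
    rw [hY2] at this
    linarith
  have hNpos : (0 : ℝ) < N + 1 := by positivity
  have hκ := hY4 Z (Real.sqrt (z / (N + 1))) (Real.sqrt_nonneg _) (by
    intro f
    rw [Real.sq_sqrt (by positivity)]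
    exact hfour f)
  rw [kernel_inner Y Z hZ4, Complex.norm_real, Real.norm_of_nonneg hz0,
    ← Real.sqrt_mul (by positivity)] at hκ
  have hsq : z ^ 2 ≤ Fintype.card Q * (z / (N + 1)) := by
    have h1 := Real.sq_sqrt (show (0:ℝ) ≤ Fintype.card Q * (z / (N + 1)) by positivity)
    rw [← h1]
    exact pow_le_pow_left₀ hz0 hκ 2
  have h5 : z ^ 2 * (N + 1) ≤ Fintype.card Q * z := by
    have : (Fintype.card Q : ℝ) * (z / (N + 1)) * (N + 1) = Fintype.card Q * z := by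
      field_simp
    nlinarith
  have hzpos : 0 < z := by linarith
  have h6 : z * (N + 1) ≤ Fintype.card Q := by
    have : z * (z * (N + 1)) ≤ z * Fintype.card Q := by nlinarith
    exact le_of_mul_le_mul_left this hzpos
  nlinarith

end Vale.Agent.P083.Asm
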