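import Vale.Agent.P083.Defs

/-!
# P083, module CORR, part 2: averages of approximate representations of `Fp`
-/

open scoped BigOperators ComplexConjugate InnerProductSpace

namespace Vale.Agent.P083.Corr

universe u

variable {E : Type u} [NormedAddCommGroup E] [InnerProductSpace ℂ E] [CompleteSpace E]

/-- approximate unitary representation of `Fp` -/
structure ARep (p : Fp → (E →L[ℂ] E)) (δ : ℝ) : Prop where
  mul : ∀ k l, ‖p k * p l - p (k + l)‖ ≤ δ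
  st : ∀ k, ‖star (p k) - p (-k)‖ ≤ δ
  one : ‖p 0 - 1‖ ≤ δ

variable {p : Fp → (E →L[ℂ] E)} {δ : ℝ}

omit [CompleteSpace E] in
lemma norm_one_le' : ‖(1 : E →L[ℂ] E)‖ ≤ 1 := ContinuousLinearMap.norm_id_le

lemma ARep.norm_le (h : ARep p δ) (hδ1 : δ ≤ 1) (k : Fp) : ‖p k‖ ≤ 3 := by
  have h1 : ‖p k‖ * ‖p k‖ = ‖star (p k) * p k‖ := by
    rw [CStarRing.norm_star_mul_self]
  have h2 : star (p k) * p k = (star (p k) - p (-k)) * p k + (p (-k) * p k - p (-k + k))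
      + (p 0 - 1) + 1 := by
    rw [neg_add_cancel, sub_mul]
    abel
  have h3 : ‖star (p k) * p k‖ ≤ δ * ‖p k‖ + δ + δ + 1 := by
    rw [h2]
    refine (norm_add_le _ _).trans (add_le_add ?_ norm_one_le')
    refine (norm_add_le _ _).trans (add_le_add ?_ h.one)
    refine (norm_add_le _ _).trans (add_le_add ?_ (h.mul _ _))
    refine (norm_mul_le _ _).trans (mul_le_mul_of_nonneg_right (h.st k) (norm_nonneg _))
  rw [← h1] at h3
  have h4 : δ * ‖p k‖ ≤ ‖p k‖ := by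
    have := mul_le_mul_of_nonneg_right hδ1 (norm_nonneg (p k))
    linarith
  by_contra h5
  push Not at h5
  nlinarith

/-- the average -/
noncomputable def av (p : Fp → (E →L[ℂ] E)) : E →L[ℂ] E := (pp : ℂ)⁻¹ • ∑ k : Fp, p k

lemma pp_card : Fintype.card Fp = pp := ZMod.card pp

lemma pp_pos : (0 : ℝ) < (pp : ℝ) := by norm_num [pp]

/-- averaging estimates -/
lemma norm_avg_le {M : Type*} [SeminormedAddCommGroup M] [NormedSpace ℂ M] (f : Fp → M) (c : ℝ)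
    (hf : ∀ k, ‖f k‖ ≤ c) : ‖(pp : ℂ)⁻¹ • ∑ k : Fp, f k‖ ≤ c := by
  rw [norm_smul, norm_inv, Complex.norm_natCast]
  have h1 : ‖∑ k : Fp, f k‖ ≤ pp * c := by
    refine (norm_sum_le _ _).trans ?_
    refine (Finset.sum_le_card_nsmul _ _ c fun k _ => hf k).trans ?_
    rw [Finset.card_univ, pp_card, nsmul_eq_mul]
  calc (pp : ℝ)⁻¹ * ‖∑ k : Fp, f k‖ ≤ (pp : ℝ)⁻¹ * (pp * c) :=
        mul_le_mul_of_nonneg_left h1 (inv_nonneg.2 pp_pos.le)
    _ = c := by rw [← mul_assoc, inv_mul_cancel₀ pp_pos.ne', one_mul]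

lemma avg_const {M : Type*} [AddCommGroup M] [Module ℂ M] (x : M) :
    (pp : ℂ)⁻¹ • ∑ _k : Fp, x = x := by
  rw [Finset.sum_const, Finset.card_univ, pp_card, ← Nat.cast_smul_eq_nsmul ℂ, smul_smul,
    inv_mul_cancel₀, one_smul]
  exact_mod_cast pp_pos.ne'

lemma norm_av_le (h : ARep p δ) (hδ1 : δ ≤ 1) : ‖av p‖ ≤ 3 :=
  norm_avg_le _ _ (h.norm_le hδ1)

lemma star_av_sub (h : ARep p δ) : ‖star (av p) - av p‖ ≤ δ := by
  have h1 : star (av p) - av p = (pp : ℂ)⁻¹ • ∑ k : Fp, (star (p k) - p (-k)) := by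
    unfold av
    rw [star_smul, star_sum, Finset.sum_sub_distrib, smul_sub]
    congr 1
    · simp
    · congr 1
      exact (Equiv.sum_comp (Equiv.neg Fp) p).symm
  rw [h1]
  exact norm_avg_le _ _ h.st

lemma mul_av_sub (h : ARep p δ) (l : Fp) : ‖p l * av p - av p‖ ≤ δ := by
  have h1 : p l * av p - av p = (pp : ℂ)⁻¹ • ∑ k : Fp, (p l * p k - p (l + k)) := by
    unfold av
    rw [mul_smul_comm, Finset.mul_sum, Finset.sum_sub_distrib, smul_sub]
    congr 2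
    exact (Equiv.sum_comp (Equiv.addLeft l) p).symm
  rw [h1]
  exact norm_avg_le _ _ (h.mul l)

lemma av_mul_av_sub (h : ARep p δ) : ‖av p * av p - av p‖ ≤ δ := by
  have h1 : av p * av p - av p = (pp : ℂ)⁻¹ • ∑ l : Fp, (p l * av p - av p) := by
    have e0 : av p = (pp : ℂ)⁻¹ • ∑ k : Fp, p k := by rw [av]
    have e : av p * av p = (pp : ℂ)⁻¹ • ∑ l : Fp, p l * av p := by
      calc av p * av p = ((pp : ℂ)⁻¹ • ∑ k : Fp, p k) * av p := by rw [← e0]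
        _ = _ := by rw [smul_mul_assoc, Finset.sum_mul]
    rw [Finset.sum_sub_distrib, smul_sub, avg_const, ← e]
  rw [h1]
  exact norm_avg_le _ _ (mul_av_sub h)

lemma norm_Q_le (h : ARep p δ) (hδ1 : δ ≤ 1) : ‖1 - av p‖ ≤ 4 := by
  refine (norm_sub_le _ _).trans ?_
  have := norm_av_le h hδ1
  have := norm_one_le' (E := E)
  linarith

lemma QQ_sub (h : ARep p δ) (hδ : 0 ≤ δ) (hδ1 : δ ≤ 1) :
    ‖star (1 - av p) * (1 - av p) - (1 - av p)‖ ≤ 5 * δ := by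
  have h1 : star (1 - av p) * (1 - av p) - (1 - av p)
      = (star (av p) - av p) * av p + (av p * av p - av p) - (star (av p) - av p) := by
    rw [star_sub, star_one]
    noncomm_ring
  rw [h1]
  refine (norm_sub_le _ _).trans ?_
  have h2 : ‖(star (av p) - av p) * av p + (av p * av p - av p)‖ ≤ δ * 3 + δ := by
    refine (norm_add_le _ _).trans (add_le_add ?_ (av_mul_av_sub h))
    refine (norm_mul_le _ _).trans ?_
    exact mul_le_mul (star_av_sub h) (norm_av_le h hδ1) (norm_nonneg _) hδ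
  have h3 := star_av_sub h
  linarith

lemma p_one_sub_le (h : ARep p δ) (hδ1 : δ ≤ 1) (F : E) :
    ‖p 1 F - F‖ ≤ 4 * ‖(1 - av p) F‖ + δ * ‖F‖ := by
  have h1 : p 1 F - F = p 1 ((1 - av p) F) + (p 1 * av p - av p) F - (1 - av p) F := by
    simp only [sub_apply, mul_apply_eq_comp, map_sub]
    show _ = p 1 F - p 1 (av p F) + (p 1 (av p F) - av p F) - (F - av p F)
    abel
  rw [h1]
  refine (norm_sub_le _ _).trans ?_
  have h2 : ‖p 1 ((1 - av p) F)‖ ≤ 3 * ‖(1 - av p) F‖ := (p 1).le_of_opNorm_le (h.norm_le hδ1 1) _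
  have h3 : ‖(p 1 * av p - av p) F‖ ≤ δ * ‖F‖ :=
    (p 1 * av p - av p).le_of_opNorm_le (mul_av_sub h 1) F
  have h4 := norm_add_le (p 1 ((1 - av p) F)) ((p 1 * av p - av p) F)
  linarith

lemma p_nat_sub (h : ARep p δ) (hδ1 : δ ≤ 1) (F : E) (n : ℕ) :
    ‖p (n : Fp) F - F‖ ≤ δ * ‖F‖ + n * (δ * ‖F‖ + 3 * ‖p 1 F - F‖) := by
  induction n with
  | zero =>
    have : p ((0 : ℕ) : Fp) F - F = (p 0 - 1) F := by
      rw [Nat.cast_zero, sub_apply]; rfl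
    rw [this]
    simpa using (p 0 - 1).le_of_opNorm_le h.one F
  | succ n ih =>
    have h1 : p ((n + 1 : ℕ) : Fp) F - F = -((p (n : Fp) * p 1 - p ((n : Fp) + 1)) F)
        + p (n : Fp) (p 1 F - F) + (p (n : Fp) F - F) := by
      rw [Nat.cast_succ, map_sub, sub_apply, mul_apply_eq_comp]
      show _ = -(p (n : Fp) (p 1 F) - _) + _ + _
      abel
    rw [h1]
    refine (norm_add_le _ _).trans ?_
    have h2 : ‖-((p (n : Fp) * p 1 - p ((n : Fp) + 1)) F)‖ ≤ δ * ‖F‖ := by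
      rw [norm_neg]
      exact (p (n : Fp) * p 1 - p ((n : Fp) + 1)).le_of_opNorm_le (h.mul _ _) F
    have h3 : ‖p (n : Fp) (p 1 F - F)‖ ≤ 3 * ‖p 1 F - F‖ :=
      (p (n : Fp)).le_of_opNorm_le (h.norm_le hδ1 _) _
    have h4 := norm_add_le (-((p (n : Fp) * p 1 - p ((n : Fp) + 1)) F)) (p (n : Fp) (p 1 F - F))
    have h5 : ((n + 1 : ℕ) : ℝ) = n + 1 := Nat.cast_succ n
    rw [h5]
    linarith

lemma Q_apply (p : Fp → (E →L[ℂ] E)) (F : E) :
    (1 - av p) F = F - (pp : ℂ)⁻¹ • ∑ k : Fp, p k F := by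
  have e1 : (av p) F = (pp : ℂ)⁻¹ • ∑ k : Fp, p k F := by
    unfold av
    rw [smul_apply, sum_apply]
  calc (1 - av p) F = F - av p F := rfl
    _ = _ := by rw [e1]

lemma Q_apply' (φ : Heis → (E →L[ℂ] E)) (p : Fp → (E →L[ℂ] E)) (F : E)
    (f : Fp → Heis) (hp : ∀ k, φ (f k) = p k) :
    F - (pp : ℂ)⁻¹ • ∑ k : Fp, φ (f k) F = (1 - av p) F := by
  rw [Q_apply]
  have e : ∑ k : Fp, φ (f k) F = ∑ k : Fp, p k F :=
    Finset.sum_congr rfl fun k _ => by rw [hp]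
  rw [e]

lemma star_Q_mul_apply (p : Fp → (E →L[ℂ] E)) (F : E) :
    (star (1 - av p) * (1 - av p)) F = (1 - av p) F - star (av p) ((1 - av p) F) := by
  rw [mul_apply_eq_comp, star_sub, star_one]
  rfl

lemma Q_le (h : ARep p δ) (hδ : 0 ≤ δ) (hδ1 : δ ≤ 1) (F : E) :
    ‖(1 - av p) F‖ ≤ 37 * (δ * ‖F‖) + 108 * ‖p 1 F - F‖ := by
  have h1 : (1 - av p) F = (pp : ℂ)⁻¹ • ∑ k : Fp, (-(p k F - F)) := by
    have e1 : (av p) F = (pp : ℂ)⁻¹ • ∑ k : Fp, p k F := by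
      unfold av
      rw [smul_apply, sum_apply]
    calc (1 - av p) F = F - av p F := rfl
      _ = (pp : ℂ)⁻¹ • ∑ _k : Fp, F - (pp : ℂ)⁻¹ • ∑ k : Fp, p k F := by rw [avg_const, e1]
      _ = (pp : ℂ)⁻¹ • ∑ k : Fp, (F - p k F) := by rw [← smul_sub, ← Finset.sum_sub_distrib]
      _ = _ := by simp only [neg_sub]
  rw [h1]
  apply norm_avg_le
  intro k
  rw [norm_neg]
  have h2 := p_nat_sub h hδ1 F k.val
  rw [ZMod.natCast_zmod_val] at h2
  have h3 : (k.val : ℝ) ≤ 36 := by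
    have : k.val < 37 := ZMod.val_lt k
    have h4 : k.val ≤ 36 := by omega
    exact_mod_cast h4
  have h4 : 0 ≤ δ * ‖F‖ + 3 * ‖p 1 F - F‖ := by positivity
  have h5 : (k.val : ℝ) * (δ * ‖F‖ + 3 * ‖p 1 F - F‖) ≤ 36 * (δ * ‖F‖ + 3 * ‖p 1 F - F‖) :=
    mul_le_mul_of_nonneg_right h3 h4
  linarith

end Vale.Agent.P083.Corr
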