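import Vale.Agent.P083.CorrGap
import Vale.Agent.P083.CorrAvg

/-!
# P083, module CORR: almost invariant vectors can be corrected
-/

open scoped BigOperators ComplexConjugate InnerProductSpace

namespace Vale.Agent.P083.Corr

universe u

section op

variable {K : Type u} [NormedAddCommGroup K] [InnerProductSpace ℂ K]
variable {ι : Type} [Fintype ι]

/-- `(Op u σ F)(v) = u (F (σ⁻¹ v))` -/
noncomputable def Op (u : K →L[ℂ] K) (σ : Equiv.Perm ι) :
    PiLp 2 (fun _ : ι => K) →L[ℂ] PiLp 2 (fun _ : ι => K) :=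
  LinearMap.mkContinuous
    { toFun := fun F => WithLp.toLp 2 (fun v => u (F (σ.symm v)))
      map_add' := fun F G => by ext v; simp
      map_smul' := fun c F => by ext v; simp } ‖u‖ (fun F => by
        rw [← sq_le_sq₀ (norm_nonneg _) (by positivity), mul_pow, PiLp.norm_sq_eq_of_L2,
          PiLp.norm_sq_eq_of_L2, Finset.mul_sum]
        rw [← Equiv.sum_comp σ.symm (fun v => ‖u‖ ^ 2 * ‖F v‖ ^ 2)]
        refine Finset.sum_le_sum fun v _ => ?_
        rw [← mul_pow]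
        exact pow_le_pow_left₀ (norm_nonneg _) (u.le_opNorm _) 2)

@[simp] lemma Op_apply (u : K →L[ℂ] K) (σ : Equiv.Perm ι) (F : PiLp 2 (fun _ : ι => K)) (v : ι) :
    Op u σ F v = u (F (σ.symm v)) := rfl

lemma norm_Op_le (u : K →L[ℂ] K) (σ : Equiv.Perm ι) : ‖Op u σ‖ ≤ ‖u‖ :=
  LinearMap.mkContinuous_norm_le _ (norm_nonneg _) _

lemma Op_mul (u u' : K →L[ℂ] K) (σ σ' : Equiv.Perm ι) :
    Op u σ * Op u' σ' = Op (u * u') (σ * σ') := by
  ext F v
  simp only [mul_apply_eq_comp, Op_apply]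
  rfl

lemma Op_sub (u u' : K →L[ℂ] K) (σ : Equiv.Perm ι) :
    Op u σ - Op u' σ = Op (u - u') σ := by
  ext F v
  simp

lemma Op_one : Op (1 : K →L[ℂ] K) (1 : Equiv.Perm ι) = 1 := by
  ext F v
  rfl

variable [CompleteSpace K]

lemma star_Op (u : K →L[ℂ] K) (σ : Equiv.Perm ι) : star (Op u σ) = Op (star u) σ⁻¹ := by
  symm
  rw [ContinuousLinearMap.star_eq_adjoint (Op u σ), ContinuousLinearMap.eq_adjoint_iff]
  intro F G
  rw [PiLp.inner_apply, PiLp.inner_apply]
  rw [← Equiv.sum_comp σ (fun v => ⟪F v, (Op u σ G) v⟫_ℂ)]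
  refine Finset.sum_congr rfl fun v _ => ?_
  rw [Op_apply, Op_apply, ContinuousLinearMap.star_eq_adjoint,
    ContinuousLinearMap.adjoint_inner_left, Equiv.symm_apply_apply]
  rfl

end op

variable {K : Type u} [NormedAddCommGroup K] [InnerProductSpace ℂ K] [CompleteSpace K]

section phi

variable {δ : ℝ} (D : AD K δ) (N : ℕ)

/-- the approximate representations of the Heisenberg group -/
noncomputable def ph (a b : Gen) (h : Heis) :
    PiLp 2 (fun _ : V (N + 1) => K) →L[ℂ] PiLp 2 (fun _ : V (N + 1) => K) :=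
  Op (D.U (hs a b h)) (hs a b h (N + 1))

/-- the approximate representations of `Fp` -/
noncomputable def pf (a : Gen) (k : Fp) :
    PiLp 2 (fun _ : V (N + 1) => K) →L[ℂ] PiLp 2 (fun _ : V (N + 1) => K) :=
  Op (D.U (g a ^ k.val)) ((g a ^ k.val) (N + 1))

lemma hs_left (a b : Gen) (k : Fp) : hs a b ⟨k, 0, 0⟩ = g a ^ k.val := by
  unfold hs
  simp only [ZMod.val_zero, pow_zero, mul_one]

lemma hs_right (a b : Gen) (k : Fp) : hs a b ⟨0, k, 0⟩ = g b ^ k.val := by
  unfold hs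
  simp only [ZMod.val_zero, pow_zero, mul_one, one_mul]

lemma ph_left (a b : Gen) (k : Fp) : ph D N a b ⟨k, 0, 0⟩ = pf D N a k := by
  unfold ph pf
  rw [hs_left]

lemma ph_right (a b : Gen) (k : Fp) : ph D N a b ⟨0, k, 0⟩ = pf D N b k := by
  unfold ph pf
  rw [hs_right]

lemma hs_one (a b : Gen) : hs a b 1 = 1 := by
  unfold hs
  simp only [Heis.one_i, Heis.one_j, Heis.one_k, ZMod.val_zero, pow_zero, mul_one]

lemma hs_inv (hH : S_HS) {a b : Gen} (hab : a ≠ b) (h : Heis) : hs a b h⁻¹ = (hs a b h)⁻¹ := by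
  rw [eq_inv_iff_mul_eq_one, ← hH a b hab, inv_mul_cancel, hs_one]

lemma ph_mul (hH : S_HS) {a b : Gen} (hab : a ≠ b) (h h' : Heis) :
    ‖ph D N a b h * ph D N a b h' - ph D N a b (h * h')‖ ≤ δ := by
  unfold ph
  rw [Op_mul]
  have e : hs a b (h * h') (N + 1) = hs a b h (N + 1) * hs a b h' (N + 1) := by
    rw [hH a b hab]; rfl
  rw [e, Op_sub]
  exact (norm_Op_le _ _).trans (D.U_mul a b hab h h')

lemma ph_star (hH : S_HS) {a b : Gen} (hab : a ≠ b) (h : Heis) :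
    ‖star (ph D N a b h) - ph D N a b h⁻¹‖ ≤ δ := by
  unfold ph
  rw [star_Op]
  have e : hs a b h⁻¹ (N + 1) = (hs a b h (N + 1))⁻¹ := by
    rw [hs_inv hH hab]; rfl
  rw [e, Op_sub]
  exact (norm_Op_le _ _).trans (D.U_star a b hab h)

lemma ph_one (a b : Gen) : ‖ph D N a b 1 - 1‖ ≤ δ := by
  unfold ph
  rw [hs_one]
  have e : (1 : G) (N + 1) = 1 := rfl
  rw [e, ← Op_one, Op_sub]
  exact (norm_Op_le _ _).trans D.U_one

lemma exists_ne' (a : Gen) : ∃ b, a ≠ b := by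
  cases a
  · exact ⟨.y, by simp⟩
  · exact ⟨.x, by simp⟩
  · exact ⟨.x, by simp⟩
  · exact ⟨.x, by simp⟩

lemma arep (hH : S_HS) (a : Gen) : ARep (pf D N a) δ := by
  obtain ⟨b, hab⟩ := exists_ne' a
  refine ⟨fun k l => ?_, fun k => ?_, ?_⟩
  · have h := ph_mul D N hH hab ⟨k, 0, 0⟩ ⟨l, 0, 0⟩
    have e : (⟨k, 0, 0⟩ : Heis) * ⟨l, 0, 0⟩ = ⟨k + l, 0, 0⟩ := by ext <;> simp
    rwa [e, ph_left, ph_left, ph_left] at h
  · have h := ph_star D N hH hab ⟨k, 0, 0⟩
    have e : (⟨k, 0, 0⟩ : Heis)⁻¹ = ⟨-k, 0, 0⟩ := by ext <;> simp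
    rwa [e, ph_left, ph_left] at h
  · have h := ph_one D N a b
    have e : (1 : Heis) = ⟨0, 0, 0⟩ := rfl
    rwa [e, ph_left] at h

end phi

/-- the submodule of new functions -/
def NN (K : Type u) [NormedAddCommGroup K] [InnerProductSpace ℂ K] (N : ℕ) :
    Submodule ℂ (PiLp 2 (fun _ : V (N + 1) => K)) where
  carrier := {F | IsNew (N := N) (fun v => F v)}
  add_mem' := by
    intro F F' h h' v
    have h1 := h v
    have h2 := h' v
    simp only [PiLp.add_apply, Finset.sum_add_distrib]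
    rw [h1, h2, add_zero]
  zero_mem' := by
    intro v
    simp
  smul_mem' := by
    intro c F h v
    have h1 := h v
    simp only [PiLp.smul_apply, ← Finset.smul_sum]
    rw [h1, smul_zero]

lemma mem_NN {N : ℕ} {F : PiLp 2 (fun _ : V (N + 1) => K)} :
    F ∈ NN K N ↔ IsNew (N := N) (fun v => F v) := Iff.rfl

lemma Op_mem {N : ℕ} (u : K →L[ℂ] K) (σ : Equiv.Perm (V (N + 1)))
    (hσ : ∀ F : V (N + 1) → K, IsNew F → IsNew (fun v => F (σ.symm v)))
    (F : PiLp 2 (fun _ : V (N + 1) => K)) (hF : F ∈ NN K N) : Op u σ F ∈ NN K N := by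
  intro v
  have h := hσ _ hF v
  simp only [Op_apply]
  rw [← map_sum, h, map_zero]

lemma new_pow (hN : S_NEW.{u}) {N : ℕ} (a : Gen) (n : ℕ) (F : V (N + 1) → K) (hF : IsNew F) :
    IsNew (fun v => F (((g a ^ n) (N + 1)).symm v)) := by
  induction n generalizing F with
  | zero => rw [pow_zero]; exact hF
  | succ n ih =>
    have e : ∀ v, ((g a ^ (n + 1)) (N + 1)).symm v
        = (g a (N + 1)).symm (((g a ^ n) (N + 1)).symm v) := by
      intro v
      rw [pow_succ]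
      rfl
    simp only [e]
    exact ih _ (hN N K F hF a).1

lemma new_pow_inv (hN : S_NEW.{u}) {N : ℕ} (a : Gen) (n : ℕ) (F : V (N + 1) → K) (hF : IsNew F) :
    IsNew (fun v => F ((((g a ^ n) (N + 1))⁻¹).symm v)) := by
  induction n generalizing F with
  | zero => rw [pow_zero]; exact hF
  | succ n ih =>
    have e : ∀ v, (((g a ^ (n + 1)) (N + 1))⁻¹).symm v
        = (((g a ^ n) (N + 1))⁻¹).symm ((g a (N + 1)) v) := by
      intro v
      rw [pow_succ]
      rfl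
    simp only [e]
    exact (hN N K _ (ih F hF) a).2

theorem corr (hA : S_AANGLE.{u}) (hH : S_HS) (hN : S_NEW.{u}) : S_CORR.{u} := by
  obtain ⟨C1, hC1, hA⟩ := hA
  set C3 : ℝ := 8 / 3 * (6 * C1 + 791) + 1 with hC3
  have hC3p : 0 < C3 := by positivity
  refine ⟨32 * C3 + 2 + 444, (1 / 1296) ^ 2, by positivity, by positivity, ?_⟩
  intro K _ _ _ δ hδ hδ1 D N F hF hFn hFe
  by_cases hδ2 : 1 / 444 < δ
  · refine ⟨F, hF, hFn, fun a => (hFe a).trans ?_⟩
    have h1 : (1 : ℝ) ≤ 444 * δ := by linarith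
    have h2 : 0 ≤ (32 * C3 + 2) * δ := by positivity
    nlinarith
  push Not at hδ2
  set F0 : PiLp 2 (fun _ : V (N + 1) => K) := WithLp.toLp 2 F with hF0
  have hF0v : ∀ v, F0 v = F v := fun v => rfl
  have hF0N : F0 ∈ NN K N := hF
  have hF0n : ‖F0‖ = 1 := by
    have h1 : ‖F0‖ ^ 2 = 1 := by
      rw [PiLp.norm_sq_eq_of_L2]
      exact hFn
    nlinarith [norm_nonneg F0]
  have hp1 : ∀ (a : Gen) (F : PiLp 2 (fun _ : V (N + 1) => K)) (v : V (N + 1)),
      (pf D N a 1 F) v = D.U (g a) (F ((g a (N + 1)).symm v)) := by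
    intro a F v
    unfold pf
    have e : (1 : Fp).val = 1 := rfl
    rw [Op_apply, e, pow_one]
  have hp1n : ∀ (a : Gen) (F : PiLp 2 (fun _ : V (N + 1) => K)),
      ‖pf D N a 1 F - F‖ ^ 2 = ∑ v, ‖D.U (g a) (F ((g a (N + 1)).symm v)) - F v‖ ^ 2 := by
    intro a F
    rw [PiLp.norm_sq_eq_of_L2]
    refine Finset.sum_congr rfl fun v _ => ?_
    rw [PiLp.sub_apply, hp1]
  set Q : Gen → (PiLp 2 (fun _ : V (N + 1) => K) →L[ℂ] PiLp 2 (fun _ : V (N + 1) => K)) :=
    fun a => 1 - av (pf D N a) with hQ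
  have hen : ∑ a, ‖Q a F0‖ ^ 2 ≤ 1 / 8 := by
    have h1 : ∀ a, ‖Q a F0‖ ^ 2 ≤ 1 / 36 := by
      intro a
      have h2 := Q_le (arep D N hH a) hδ.le hδ1 F0
      have h3 : ‖pf D N a 1 F0 - F0‖ ≤ 1 / 1296 := by
        have h4 : ‖pf D N a 1 F0 - F0‖ ^ 2 ≤ (1 / 1296) ^ 2 := by
          rw [hp1n]
          exact hFe a
        exact (sq_le_sq₀ (norm_nonneg _) (by norm_num)).1 h4
      rw [hF0n] at h2
      have h5 : ‖Q a F0‖ ≤ 1 / 6 := by
        refine h2.trans ?_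
        linarith
      nlinarith [norm_nonneg (Q a F0)]
    rw [gen_sum]
    linarith [h1 .x, h1 .y, h1 .z, h1 .w]
  obtain ⟨F', hF'N, hF'n, hF'e⟩ := gap (NN K N) Q δ C1 hδ hδ1 hC1.le
    (fun a => norm_Q_le (arep D N hH a) hδ1) (fun a => QQ_sub (arep D N hH a) hδ.le hδ1)
    (by
      intro a F hF
      have hmem : ∀ F ∈ NN K N, av (pf D N a) F ∈ NN K N := by
        intro F hF
        unfold av
        rw [smul_apply, sum_apply]
        refine Submodule.smul_mem _ _ (Submodule.sum_mem _ fun k _ => ?_)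
        exact Op_mem _ _ (fun F hF => new_pow hN a _ F hF) F hF
      have hmem' : ∀ F ∈ NN K N, star (av (pf D N a)) F ∈ NN K N := by
        intro F hF
        unfold av
        rw [star_smul, star_sum, smul_apply, sum_apply]
        refine Submodule.smul_mem _ _ (Submodule.sum_mem _ fun k _ => ?_)
        unfold pf
        rw [star_Op]
        exact Op_mem _ _ (fun F hF => new_pow_inv hN a _ F hF) F hF
      have h1 : (star (Q a) * Q a) F = Q a F - star (av (pf D N a)) (Q a F) :=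
        star_Q_mul_apply (pf D N a) F
      have h2 : Q a F ∈ NN K N := Submodule.sub_mem _ hF (hmem F hF)
      rw [h1]
      exact Submodule.sub_mem _ h2 (hmem' _ h2))
    (by
      intro a b hab F
      have h := hA (PiLp 2 (fun _ : V (N + 1) => K)) δ hδ.le hδ1 (ph D N a b)
        (ph_mul D N hH hab) (ph_star D N hH hab) (ph_one D N a b) F
      rw [Q_apply' (ph D N a b) (pf D N a) F (fun k => ⟨k, 0, 0⟩) (ph_left D N a b),
        Q_apply' (ph D N a b) (pf D N b) F (fun k => ⟨0, k, 0⟩) (ph_right D N a b)] at h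
      exact h)
    F0 hF0N hF0n hen
  refine ⟨fun v => F' v, hF'N, ?_, fun a => ?_⟩
  · have := PiLp.norm_sq_eq_of_L2 _ F'
    rw [hF'n] at this
    rw [← this]
    norm_num
  · rw [← hp1n a F']
    have h1 := p_one_sub_le (arep D N hH a) hδ1 F'
    rw [hF'n, mul_one] at h1
    have h2 : ‖Q a F'‖ ^ 2 ≤ C3 * δ := by
      refine le_trans ?_ hF'e
      exact Finset.single_le_sum (f := fun a => ‖Q a F'‖ ^ 2) (fun _ _ => sq_nonneg _)
        (Finset.mem_univ a)
    have h3 : ‖pf D N a 1 F' - F'‖ ^ 2 ≤ (4 * ‖Q a F'‖ + δ) ^ 2 :=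
      pow_le_pow_left₀ (norm_nonneg _) h1 2
    have h4 : (4 * ‖Q a F'‖ + δ) ^ 2 ≤ 32 * ‖Q a F'‖ ^ 2 + 2 * δ ^ 2 := by
      nlinarith [sq_nonneg (4 * ‖Q a F'‖ - δ)]
    have h5 : δ ^ 2 ≤ δ := by nlinarith
    nlinarith

end Vale.Agent.P083.Corr
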