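import Vale.Agent.P083.Defs

/-!
# P083, module CORR, part 1: the abstract robust gap lemma
-/

open scoped BigOperators ComplexConjugate InnerProductSpace

namespace Vale.Agent.P083.Corr

universe u

variable {E : Type u} [NormedAddCommGroup E] [InnerProductSpace ℂ E]

lemma gen_sum {M : Type*} [AddCommMonoid M] (f : Gen → M) :
    ∑ a, f a = f .x + (f .y + (f .z + f .w)) := by
  have : (Finset.univ : Finset Gen) = {.x, .y, .z, .w} := rfl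
  rw [this, Finset.sum_insert (by simp), Finset.sum_insert (by simp), Finset.sum_insert (by simp),
    Finset.sum_singleton]

lemma norm_sub_sq_re (a b : E) : ‖a - b‖ ^ 2 = ‖a‖ ^ 2 - 2 * (⟪a, b⟫_ℂ).re + ‖b‖ ^ 2 := by
  have := @norm_sub_sq ℂ E _ _ _ a b
  simpa using this

lemma norm_add_sq_re (a b : E) : ‖a + b‖ ^ 2 = ‖a‖ ^ 2 + 2 * (⟪a, b⟫_ℂ).re + ‖b‖ ^ 2 := by
  have := @norm_add_sq ℂ E _ _ _ a b
  simpa using this

lemma norm_four (a b c d : E) : ‖a + (b + (c + d))‖ ^ 2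
    = ‖a‖ ^ 2 + ‖b‖ ^ 2 + ‖c‖ ^ 2 + ‖d‖ ^ 2 + (2 * (⟪a, b⟫_ℂ).re + 2 * (⟪a, c⟫_ℂ).re
      + 2 * (⟪a, d⟫_ℂ).re + 2 * (⟪b, c⟫_ℂ).re + 2 * (⟪b, d⟫_ℂ).re + 2 * (⟪c, d⟫_ℂ).re) := by
  rw [norm_add_sq_re, norm_add_sq_re b, norm_add_sq_re c]
  simp only [inner_add_right, Complex.add_re]
  ring

/-- abstract robust gap -/
theorem gap [CompleteSpace E] (𝒩 : Submodule ℂ E) (Q : Gen → (E →L[ℂ] E)) (δ C1 : ℝ)
    (hδ : 0 < δ) (hδ1 : δ ≤ 1) (hC1 : 0 ≤ C1)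
    (hQ : ∀ a, ‖Q a‖ ≤ 4) (hQQ : ∀ a, ‖star (Q a) * Q a - Q a‖ ≤ 5 * δ)
    (hN : ∀ a, ∀ F ∈ 𝒩, (star (Q a) * Q a) F ∈ 𝒩)
    (hang : ∀ a b, a ≠ b → ∀ F : E, -(1 / 6 : ℝ) * (‖Q a F‖ ^ 2 + ‖Q b F‖ ^ 2) - C1 * δ * ‖F‖ ^ 2
      ≤ 2 * (⟪Q a F, Q b F⟫_ℂ).re)
    (F0 : E) (hF0 : F0 ∈ 𝒩) (hF0n : ‖F0‖ = 1) (hF0e : ∑ a, ‖Q a F0‖ ^ 2 ≤ 1 / 8) :
    ∃ F ∈ 𝒩, ‖F‖ = 1 ∧ ∑ a, ‖Q a F‖ ^ 2 ≤ (8 / 3 * (6 * C1 + 791) + 1) * δ := by
  set En : E → ℝ := fun F => ∑ a, ‖Q a F‖ ^ 2 with hEn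
  set S : Set ℝ := {e | ∃ F ∈ 𝒩, ‖F‖ = 1 ∧ En F = e} with hS
  have hSne : S.Nonempty := ⟨En F0, F0, hF0, hF0n, rfl⟩
  have hSb : BddBelow S := ⟨0, by
    rintro e ⟨F, _, _, rfl⟩
    exact Finset.sum_nonneg fun a _ => sq_nonneg _⟩
  set m := sInf S with hm
  have hm0 : 0 ≤ m := by
    apply le_csInf hSne
    rintro e ⟨F, _, _, rfl⟩
    exact Finset.sum_nonneg fun a _ => sq_nonneg _
  have hm1 : m ≤ 1 / 8 := (csInf_le hSb ⟨F0, hF0, hF0n, rfl⟩).trans hF0e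
  have hlow : ∀ F ∈ 𝒩, m * ‖F‖ ^ 2 ≤ En F := by
    intro F hF
    by_cases h0 : F = 0
    · simp [h0, hEn]
    · have hn : ‖F‖ ≠ 0 := norm_ne_zero_iff.2 h0
      set F1 : E := ((‖F‖⁻¹ : ℝ) : ℂ) • F with hF1
      have h1 : F1 ∈ 𝒩 := 𝒩.smul_mem _ hF
      have h2 : ‖F1‖ = 1 := by
        rw [hF1, norm_smul, Complex.norm_real, norm_inv, norm_norm, inv_mul_cancel₀ hn]
      have h3 : m ≤ En F1 := csInf_le hSb ⟨F1, h1, h2, rfl⟩
      have h4 : En F1 = ‖F‖⁻¹ ^ 2 * En F := by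
        simp only [hEn]
        rw [Finset.mul_sum]
        refine Finset.sum_congr rfl fun a _ => ?_
        rw [hF1, map_smul, norm_smul, Complex.norm_real, norm_inv, norm_norm, mul_pow]
      rw [h4] at h3
      have h5 : m * ‖F‖ ^ 2 ≤ (‖F‖⁻¹ ^ 2 * En F) * ‖F‖ ^ 2 :=
        mul_le_mul_of_nonneg_right h3 (sq_nonneg _)
      have h6 : (‖F‖⁻¹ ^ 2 * En F) * ‖F‖ ^ 2 = En F := by
        field_simp
      linarith
  obtain ⟨e, ⟨F, hFN, hFn, rfl⟩, hFe⟩ := exists_lt_of_csInf_lt hSne (show sInf S < m + δ ^ 2 by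
    rw [← hm]; have := sq_pos_of_pos hδ; linarith)
  refine ⟨F, hFN, hFn, ?_⟩
  -- the vector G
  set DF : E := ∑ a, (star (Q a) * Q a) F with hDF
  set G : E := DF - (m : ℂ) • F with hG
  have hDFN : DF ∈ 𝒩 := Submodule.sum_mem _ fun a _ => hN a F hFN
  have hGN : G ∈ 𝒩 := Submodule.sub_mem _ hDFN (Submodule.smul_mem _ _ hFN)
  have hinner : ∀ H : E, ∑ a, (⟪Q a F, Q a H⟫_ℂ).re = (⟪DF, H⟫_ℂ).re := by
    intro H
    rw [hDF, sum_inner, Complex.re_sum]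
    refine Finset.sum_congr rfl fun a _ => ?_
    congr 1
    rw [mul_apply_eq_comp, ContinuousLinearMap.star_eq_adjoint,
      ContinuousLinearMap.adjoint_inner_left]
  have hGG : ‖G‖ ^ 2 = (⟪DF, G⟫_ℂ).re - m * (⟪F, G⟫_ℂ).re := by
    have h1 : ((⟪G, G⟫_ℂ).re : ℝ) = ‖G‖ ^ 2 := by
      have := inner_self_eq_norm_sq (𝕜 := ℂ) G
      simpa using this
    have h2 : ⟪G, G⟫_ℂ = ⟪DF, G⟫_ℂ - (m : ℂ) * ⟪F, G⟫_ℂ := by
      calc ⟪G, G⟫_ℂ = ⟪DF - (m : ℂ) • F, G⟫_ℂ := by rw [← hG]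
        _ = ⟪DF, G⟫_ℂ - (m : ℂ) * ⟪F, G⟫_ℂ := by
          rw [inner_sub_left, inner_smul_left, Complex.conj_ofReal]
    rw [← h1, h2]
    simp
  have hGs : ‖G‖ ^ 2 ≤ 64 * δ ^ 2 := by
    set t : ℝ := 1 / 64 with ht
    have h1 := hlow (F - (t : ℂ) • G) (Submodule.sub_mem _ hFN (Submodule.smul_mem _ _ hGN))
    have h2 : En (F - (t : ℂ) • G) = En F - 2 * t * (⟪DF, G⟫_ℂ).re + t ^ 2 * En G := by
      rw [← hinner G]
      simp only [hEn]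
      rw [Finset.mul_sum, Finset.mul_sum, ← Finset.sum_sub_distrib, ← Finset.sum_add_distrib]
      refine Finset.sum_congr rfl fun a _ => ?_
      rw [map_sub, map_smul, norm_sub_sq_re, inner_smul_right, norm_smul, Complex.norm_real]
      simp only [Complex.mul_re, Complex.ofReal_re, Complex.ofReal_im, zero_mul, sub_zero]
      rw [mul_pow, Real.norm_eq_abs, sq_abs]
      ring
    have h3 : ‖F - (t : ℂ) • G‖ ^ 2 = 1 - 2 * t * (⟪F, G⟫_ℂ).re + t ^ 2 * ‖G‖ ^ 2 := by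
      rw [norm_sub_sq_re, inner_smul_right, norm_smul, Complex.norm_real, hFn]
      simp only [Complex.mul_re, Complex.ofReal_re, Complex.ofReal_im, zero_mul, sub_zero]
      rw [mul_pow, Real.norm_eq_abs, sq_abs]
      ring
    have h4 : En G ≤ 64 * ‖G‖ ^ 2 := by
      simp only [hEn]
      rw [gen_sum]
      have h5 : ∀ a, ‖Q a G‖ ^ 2 ≤ 16 * ‖G‖ ^ 2 := by
        intro a
        have := (Q a).le_of_opNorm_le (hQ a) G
        nlinarith [norm_nonneg (Q a G), norm_nonneg G]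
      linarith [h5 .x, h5 .y, h5 .z, h5 .w]
    rw [h2, h3] at h1
    have h6 : 0 ≤ m * ‖G‖ ^ 2 := by positivity
    rw [ht] at h1
    nlinarith
  have hGn : ‖G‖ ≤ 8 * δ := by
    apply abs_le_of_sq_le_sq' _ (by positivity) |>.2
    nlinarith
  have hDFn : ‖DF‖ ≤ m + 8 * δ := by
    have h1 : DF = G + (m : ℂ) • F := by rw [hG]; abel
    rw [h1]
    refine (norm_add_le _ _).trans ?_
    rw [norm_smul, Complex.norm_real, hFn, Real.norm_eq_abs, abs_of_nonneg hm0]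
    linarith
  have hsum : ‖∑ a, Q a F‖ ≤ m + 28 * δ := by
    have h1 : ∑ a, Q a F = DF - ∑ a, (star (Q a) * Q a - Q a) F := by
      rw [hDF, ← Finset.sum_sub_distrib]
      refine Finset.sum_congr rfl fun a _ => ?_
      rw [sub_apply]
      abel
    have h2 : ‖∑ a, (star (Q a) * Q a - Q a) F‖ ≤ 20 * δ := by
      refine (norm_sum_le _ _).trans ?_
      rw [gen_sum]
      have h3 : ∀ a, ‖(star (Q a) * Q a - Q a) F‖ ≤ 5 * δ := by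
        intro a
        have := (star (Q a) * Q a - Q a).le_of_opNorm_le (hQQ a) F
        rwa [hFn, mul_one] at this
      linarith [h3 .x, h3 .y, h3 .z, h3 .w]
    rw [h1]
    refine (norm_sub_le _ _).trans ?_
    linarith
  have hbig : En F / 2 - 6 * C1 * δ ≤ ‖∑ a, Q a F‖ ^ 2 := by
    rw [gen_sum (fun a => Q a F), norm_four]
    have e : En F = ‖Q .x F‖ ^ 2 + (‖Q .y F‖ ^ 2 + (‖Q .z F‖ ^ 2 + ‖Q .w F‖ ^ 2)) := by
      simp only [hEn]; rw [gen_sum]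
    have a1 := hang .x .y (by simp) F
    have a2 := hang .x .z (by simp) F
    have a3 := hang .x .w (by simp) F
    have a4 := hang .y .z (by simp) F
    have a5 := hang .y .w (by simp) F
    have a6 := hang .z .w (by simp) F
    rw [hFn] at a1 a2 a3 a4 a5 a6
    rw [e]
    linarith
  have hEF : m ≤ En F := by have := hlow F hFN; rw [hFn] at this; linarith
  have hfin : m / 2 - 6 * C1 * δ ≤ (m + 28 * δ) ^ 2 := by
    have h1 : ‖∑ a, Q a F‖ ^ 2 ≤ (m + 28 * δ) ^ 2 := by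
      apply pow_le_pow_left₀ (norm_nonneg _) hsum
    linarith
  have hmm : m ≤ 8 / 3 * (6 * C1 + 791) * δ := by
    have h1 : m * m ≤ m * (1 / 8) := mul_le_mul_of_nonneg_left hm1 hm0
    have h2 : m * δ ≤ 1 / 8 * δ := mul_le_mul_of_nonneg_right hm1 hδ.le
    have h3 : δ * δ ≤ δ * 1 := mul_le_mul_of_nonneg_left hδ1 hδ.le
    nlinarith
  have h7 : δ ^ 2 ≤ δ := by nlinarith
  show En F ≤ _
  linarith

end Vale.Agent.P083.Corr
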