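import Mathlib

/-!
# P083: Kirchberg's embedding problem — common definitions

`pp = 37`.  `M N = F_p[t]/(t^N)` (coefficient functions), `V N = (F_p[t]/t^N)^3`.
Generators `x : v₁ += v₂`, `y : v₂ += v₃`, `z : v₃ += t v₁`, `w : v₃ += 1`.
-/

open scoped BigOperators ComplexConjugate InnerProductSpace

namespace Vale.Agent.P083

/-- The prime used in the construction. -/
def pp : ℕ := 37

instance pp_prime : Fact (Nat.Prime pp) := ⟨by norm_num [pp]⟩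

instance pp_neZero : NeZero pp := ⟨by norm_num [pp]⟩

/-- the field with `pp` elements -/
abbrev Fp : Type := ZMod pp

/-- `M N = F_p[t]/(t^N)` as an additive group: `m i` is the coefficient of `t^i` -/
abbrev M (N : ℕ) : Type := Fin N → Fp

/-- `V N = (F_p[t]/t^N)^3` -/
abbrev V (N : ℕ) : Type := M N × M N × M N

/-- letters: `F_p^3` -/
abbrev X : Type := Fp × Fp × Fp

/-- multiplication by `t` on `F_p[t]/(t^N)` -/
def sh : (N : ℕ) → M N →+ M N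
  | 0 => 0
  | n + 1 =>
    { toFun := fun m => Fin.cons 0 (fun i : Fin n => m i.castSucc)
      map_zero' := by
        ext i; refine Fin.cases ?_ (fun i => ?_) i <;> simp
      map_add' := fun a b => by
        ext i; refine Fin.cases ?_ (fun i => ?_) i <;> simp }

/-- the constant `1` of `F_p[t]/(t^N)` -/
def eps : (N : ℕ) → M N
  | 0 => 0
  | _ + 1 => Pi.single 0 1

/-- prepend a letter: `b + t v` -/
def cons {N : ℕ} (b : X) (v : V N) : V (N + 1) :=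
  (Fin.cons b.1 v.1, Fin.cons b.2.1 v.2.1, Fin.cons b.2.2 v.2.2)

/-- the element `t^N c` of `V (N+1)` -/
def lst (N : ℕ) (c : X) : V (N + 1) :=
  (Pi.single (Fin.last N) c.1, Pi.single (Fin.last N) c.2.1, Pi.single (Fin.last N) c.2.2)

/-- elementary maps: `v₁ += r v₂` for an additive endomorphism `r` -/
def e12 {N : ℕ} (r : M N →+ M N) : Equiv.Perm (V N) where
  toFun v := (v.1 + r v.2.1, v.2.1, v.2.2)
  invFun v := (v.1 - r v.2.1, v.2.1, v.2.2)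
  left_inv v := by simp
  right_inv v := by simp

/-- `v₂ += r v₃` -/
def e23 {N : ℕ} (r : M N →+ M N) : Equiv.Perm (V N) where
  toFun v := (v.1, v.2.1 + r v.2.2, v.2.2)
  invFun v := (v.1, v.2.1 - r v.2.2, v.2.2)
  left_inv v := by simp
  right_inv v := by simp

/-- `v₃ += r v₁` -/
def e31 {N : ℕ} (r : M N →+ M N) : Equiv.Perm (V N) where
  toFun v := (v.1, v.2.1, v.2.2 + r v.1)
  invFun v := (v.1, v.2.1, v.2.2 - r v.1)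
  left_inv v := by simp
  right_inv v := by simp

/-- translations -/
def tr {N : ℕ} (u : V N) : Equiv.Perm (V N) where
  toFun v := v + u
  invFun v := v - u
  left_inv v := by simp
  right_inv v := by simp

/-- the four generators -/
inductive Gen | x | y | z | w
  deriving DecidableEq

instance : Fintype Gen := ⟨{.x, .y, .z, .w}, fun a => by cases a <;> simp⟩

/-- the big group: families of permutations of the `V N` -/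
abbrev G : Type := (N : ℕ) → Equiv.Perm (V N)

/-- the generators as families of permutations -/
def g : Gen → G
  | .x => fun N => e12 (AddMonoidHom.id (M N))
  | .y => fun N => e23 (AddMonoidHom.id (M N))
  | .z => fun N => e31 (sh N)
  | .w => fun N => tr (0, 0, eps N)

/-- The Heisenberg group over `F_p`; `(i,j,k)` stands for `a^i b^j c^k` with `c = a b a⁻¹ b⁻¹`. -/
@[ext] structure Heis where
  i : Fp
  j : Fp
  k : Fp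
  deriving DecidableEq

namespace Heis

/-- as a product type -/
def equivProd : Heis ≃ Fp × Fp × Fp where
  toFun h := (h.i, h.j, h.k)
  invFun t := ⟨t.1, t.2.1, t.2.2⟩
  left_inv _ := rfl
  right_inv _ := rfl

instance : Fintype Heis := Fintype.ofEquiv _ equivProd.symm

instance : Mul Heis := ⟨fun a b => ⟨a.i + b.i, a.j + b.j, a.k + b.k - a.j * b.i⟩⟩
instance : One Heis := ⟨⟨0, 0, 0⟩⟩
instance : Inv Heis := ⟨fun a => ⟨-a.i, -a.j, -a.k - a.j * a.i⟩⟩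

@[simp] lemma mul_i (a b : Heis) : (a * b).i = a.i + b.i := rfl
@[simp] lemma mul_j (a b : Heis) : (a * b).j = a.j + b.j := rfl
@[simp] lemma mul_k (a b : Heis) : (a * b).k = a.k + b.k - a.j * b.i := rfl
@[simp] lemma one_i : (1 : Heis).i = 0 := rfl
@[simp] lemma one_j : (1 : Heis).j = 0 := rfl
@[simp] lemma one_k : (1 : Heis).k = 0 := rfl
@[simp] lemma inv_i (a : Heis) : (a⁻¹).i = -a.i := rfl
@[simp] lemma inv_j (a : Heis) : (a⁻¹).j = -a.j := rfl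
@[simp] lemma inv_k (a : Heis) : (a⁻¹).k = -a.k - a.j * a.i := rfl

instance : Group Heis :=
  Group.ofLeftAxioms
    (fun a b c => by ext <;> simp <;> ring)
    (fun a => by ext <;> simp)
    (fun a => by ext <;> simp <;> ring)

end Heis

/-- the map `Heis → G`, `(i,j,k) ↦ a^i b^j [a,b]^k`, attached to a pair of generators
(a homomorphism, see `S_HS`) -/
def hs (a b : Gen) (h : Heis) : G :=
  (g a) ^ h.i.val * (g b) ^ h.j.val * (g a * g b * (g a)⁻¹ * (g b)⁻¹) ^ h.k.val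

/-- New functions on `V (N+1)`: the sum over the last letter vanishes -/
def IsNew {N : ℕ} {E : Type*} [AddCommGroup E] (F : V (N + 1) → E) : Prop :=
  ∀ v, ∑ c : X, F (v + lst N c) = 0

universe u

/-- Approximate data: operators on a Hilbert space satisfying the relations up to `δ`. -/
structure AD (K : Type u) [NormedAddCommGroup K] [InnerProductSpace ℂ K] [CompleteSpace K]
    (δ : ℝ) where
  U : G → (K →L[ℂ] K)
  S : X → (K →L[ℂ] K)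
  ξ : K
  U_mul : ∀ a b : Gen, a ≠ b → ∀ h h' : Heis,
    ‖U (hs a b h) * U (hs a b h') - U (hs a b (h * h'))‖ ≤ δ
  U_star : ∀ a b : Gen, a ≠ b → ∀ h : Heis, ‖star (U (hs a b h)) - U (hs a b h⁻¹)‖ ≤ δ
  U_one : ‖U 1 - 1‖ ≤ δ
  S_iso : ∀ b, ‖star (S b) * S b - 1‖ ≤ δ
  rel_x : ∀ b : X, ‖U (g .x) * S b - S (b.1 + b.2.1, b.2.1, b.2.2) * U (g .x)‖ ≤ δ
  rel_y : ∀ b : X, ‖U (g .y) * S b - S (b.1, b.2.1 + b.2.2, b.2.2) * U (g .y)‖ ≤ δ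
  rel_z : ∀ b : X, ‖U (g .z) * S b - S b * (U (g .w)) ^ (b.1.val) * U (g .z)‖ ≤ δ
  rel_w : ∀ b : X, ‖U (g .w) * S b - S (b.1, b.2.1, b.2.2 + 1)‖ ≤ δ
  ξ_norm : ‖ξ‖ = 1
  ξ_inv : ∀ a : Gen, ‖U (g a) ξ - ξ‖ ≤ δ
  ξ_orth : ∀ b c : X, b ≠ c → ‖⟪S b ξ, S c ξ⟫_ℂ‖ ≤ δ

/-! ## Statements of the modules -/

/-- WORDS-1: for distinct generators `hs a b` is multiplicative. -/
def S_HS : Prop := ∀ a b : Gen, a ≠ b → ∀ h h' : Heis, hs a b (h * h') = hs a b h * hs a b h'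

/-- WORDS-2: recursion of the action under prepending a letter -/
def S_REC : Prop := ∀ (N : ℕ) (b : X) (v : V N),
  g .x (N + 1) (cons b v) = cons (b.1 + b.2.1, b.2.1, b.2.2) (g .x N v) ∧
  g .y (N + 1) (cons b v) = cons (b.1, b.2.1 + b.2.2, b.2.2) (g .y N v) ∧
  g .z (N + 1) (cons b v) = cons b (((g .w N) ^ (b.1.val)) (g .z N v)) ∧
  g .w (N + 1) (cons b v) = cons (b.1, b.2.1, b.2.2 + 1) v

/-- WORDS-3: new functions are preserved by the action of the generators -/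
def S_NEW : Prop := ∀ (N : ℕ) (E : Type u) [AddCommGroup E] (F : V (N + 1) → E), IsNew F →
  ∀ a : Gen, IsNew (fun v => F ((g a (N + 1)).symm v)) ∧ IsNew (fun v => F (g a (N + 1) v))

/-- ANGLE: the exact angle inequality for the Heisenberg group (`1/√37 < 1/6`). -/
def S_ANGLE : Prop := ∀ (E : Type u) [NormedAddCommGroup E] [InnerProductSpace ℂ E]
  (ρ : Heis →* (E ≃ₗᵢ[ℂ] E)) (v : E),
  -(1 / 6 : ℝ) *
      (‖v - (pp : ℂ)⁻¹ • ∑ k : Fp, ρ ⟨k, 0, 0⟩ v‖ ^ 2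
        + ‖v - (pp : ℂ)⁻¹ • ∑ k : Fp, ρ ⟨0, k, 0⟩ v‖ ^ 2)
    ≤ 2 * (⟪v - (pp : ℂ)⁻¹ • ∑ k : Fp, ρ ⟨k, 0, 0⟩ v,
        v - (pp : ℂ)⁻¹ • ∑ k : Fp, ρ ⟨0, k, 0⟩ v⟫_ℂ).re

/-- APPROX ANGLE: the angle inequality for approximate representations of `Heis`. -/
def S_AANGLE : Prop := ∃ C : ℝ, 0 < C ∧
  ∀ (E : Type u) [NormedAddCommGroup E] [InnerProductSpace ℂ E] [CompleteSpace E]
    (δ : ℝ) (_ : 0 ≤ δ) (_ : δ ≤ 1) (φ : Heis → (E →L[ℂ] E))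
    (_ : ∀ h h', ‖φ h * φ h' - φ (h * h')‖ ≤ δ)
    (_ : ∀ h, ‖star (φ h) - φ h⁻¹‖ ≤ δ)
    (_ : ‖φ 1 - 1‖ ≤ δ) (v : E),
  -(1 / 6 : ℝ) *
      (‖v - (pp : ℂ)⁻¹ • ∑ k : Fp, φ ⟨k, 0, 0⟩ v‖ ^ 2
        + ‖v - (pp : ℂ)⁻¹ • ∑ k : Fp, φ ⟨0, k, 0⟩ v‖ ^ 2)
      - C * δ * ‖v‖ ^ 2
    ≤ 2 * (⟪v - (pp : ℂ)⁻¹ • ∑ k : Fp, φ ⟨k, 0, 0⟩ v,
        v - (pp : ℂ)⁻¹ • ∑ k : Fp, φ ⟨0, k, 0⟩ v⟫_ℂ).re

/-- INDUCT: all levels carry almost invariant new unit vectors, with a uniform error. -/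
def S_INDUCT : Prop := ∀ η : ℝ, 0 < η → ∃ δ : ℝ, 0 < δ ∧
  ∀ (K : Type u) [NormedAddCommGroup K] [InnerProductSpace ℂ K] [CompleteSpace K]
    (D : AD K δ) (N : ℕ), ∃ F : V (N + 1) → K, IsNew F ∧ ∑ v, ‖F v‖ ^ 2 = 1 ∧
      ∀ a : Gen, ∑ v, ‖D.U (g a) (F ((g a (N + 1)).symm v)) - F v‖ ^ 2 ≤ η

/-- STEP: prepending a letter moves almost invariant new vectors one level up. -/
def S_STEP : Prop := ∃ C : ℝ, 0 < C ∧
  ∀ (K : Type u) [NormedAddCommGroup K] [InnerProductSpace ℂ K] [CompleteSpace K]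
    (δ : ℝ) (_ : 0 ≤ δ) (_ : δ ≤ 1 / 100) (D : AD K δ) (N : ℕ) (F : V (N + 1) → K) (e : ℝ)
    (_ : 0 ≤ e) (_ : IsNew F) (_ : ∑ v, ‖F v‖ ^ 2 = 1)
    (_ : ∀ a : Gen, ∑ v, ‖D.U (g a) (F ((g a (N + 1)).symm v)) - F v‖ ^ 2 ≤ e),
    ∃ F' : V (N + 2) → K, IsNew (N := N + 1) F' ∧ ∑ v, ‖F' v‖ ^ 2 = 1 ∧
      ∀ a : Gen, ∑ v, ‖D.U (g a) (F' ((g a (N + 2)).symm v)) - F' v‖ ^ 2 ≤ C * (e + δ ^ 2)

/-- BASE: the first level. -/
def S_BASE : Prop := ∃ C : ℝ, 0 < C ∧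
  ∀ (K : Type u) [NormedAddCommGroup K] [InnerProductSpace ℂ K] [CompleteSpace K]
    (δ : ℝ) (_ : 0 ≤ δ) (_ : δ ≤ 1 / 100) (D : AD K δ),
    ∃ F : V 1 → K, IsNew (N := 0) F ∧ ∑ v, ‖F v‖ ^ 2 = 1 ∧
      ∀ a : Gen, ∑ v, ‖D.U (g a) (F ((g a 1).symm v)) - F v‖ ^ 2 ≤ C * δ ^ 2

/-- CORR: almost invariant vectors can be corrected (robust spectral gap): the error only
depends on `δ`. -/
def S_CORR : Prop := ∃ C e0 : ℝ, 0 < C ∧ 0 < e0 ∧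
  ∀ (K : Type u) [NormedAddCommGroup K] [InnerProductSpace ℂ K] [CompleteSpace K]
    (δ : ℝ) (_ : 0 < δ) (_ : δ ≤ 1) (D : AD K δ) (N : ℕ) (F : V (N + 1) → K)
    (_ : IsNew F) (_ : ∑ v, ‖F v‖ ^ 2 = 1)
    (_ : ∀ a : Gen, ∑ v, ‖D.U (g a) (F ((g a (N + 1)).symm v)) - F v‖ ^ 2 ≤ e0),
    ∃ F' : V (N + 1) → K, IsNew F' ∧ ∑ v, ‖F' v‖ ^ 2 = 1 ∧
      ∀ a : Gen, ∑ v, ‖D.U (g a) (F' ((g a (N + 1)).symm v)) - F' v‖ ^ 2 ≤ C * δ

/-- ALG: the separable unital C*-algebra with the exact relations. -/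
def S_ALG : Prop := ∃ (A : Type) (_ : CStarAlgebra A) (_ : TopologicalSpace.SeparableSpace A)
  (U : G → A) (S : X → A) (q : A),
  (∀ a b : Gen, a ≠ b → ∀ h h' : Heis, U (hs a b h) * U (hs a b h') = U (hs a b (h * h'))) ∧
  (∀ a b : Gen, a ≠ b → ∀ h : Heis, star (U (hs a b h)) = U (hs a b h⁻¹)) ∧
  U 1 = 1 ∧
  (∀ b, star (S b) * S b = 1) ∧
  (∀ b c, b ≠ c → star (S b) * S c = 0) ∧
  (∀ b : X, U (g .x) * S b = S (b.1 + b.2.1, b.2.1, b.2.2) * U (g .x)) ∧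
  (∀ b : X, U (g .y) * S b = S (b.1, b.2.1 + b.2.2, b.2.2) * U (g .y)) ∧
  (∀ b : X, U (g .z) * S b = S b * (U (g .w)) ^ (b.1.val) * U (g .z)) ∧
  (∀ b : X, U (g .w) * S b = S (b.1, b.2.1, b.2.2 + 1)) ∧
  q ≠ 0 ∧ (∀ a : Gen, U (g a) * q = q)

/-- A Cuntz pair of isometries. -/
structure IsCuntz {K : Type u} [NormedAddCommGroup K] [InnerProductSpace ℂ K] [CompleteSpace K]
    (t : Fin 2 → (K →L[ℂ] K)) : Prop where
  iso : ∀ i, star (t i) * t i = 1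
  sum : t 0 * star (t 0) + t 1 * star (t 1) = 1

/-- The C*-algebra generated by `t 0, t 1` (a copy of the Cuntz algebra `O₂`). -/
noncomputable def cuntzAlg {K : Type u} [NormedAddCommGroup K] [InnerProductSpace ℂ K] [CompleteSpace K]
    (t : Fin 2 → (K →L[ℂ] K)) : StarSubalgebra ℂ (K →L[ℂ] K) :=
  (StarAlgebra.adjoin ℂ (Set.range t)).topologicalClosure

/-- NUC: finite-dimensional approximation for the Cuntz algebra.  `W q` are operators on `K`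
(namely `R^{-1/2} t_q^*`, `q` a word with length in a window), `x a` are matrices over the finite
index type `Q`, contractive up to `‖A a‖`. -/
def S_NUC : Prop := ∀ (K : Type u) [NormedAddCommGroup K] [InnerProductSpace ℂ K] [CompleteSpace K]
  [Nontrivial K] (t : Fin 2 → (K →L[ℂ] K)) (_ : IsCuntz t) (A : Gen → (K →L[ℂ] K))
  (_ : ∀ a, A a ∈ cuntzAlg t) (ε : ℝ) (_ : 0 < ε),
  ∃ (Q : Type) (_ : Fintype Q) (_ : DecidableEq Q) (W : Q → (K →L[ℂ] K))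
    (x : Gen → Matrix Q Q ℂ),
    (∀ h : K, ∑ q, ‖W q h‖ ^ 2 = ‖h‖ ^ 2) ∧
    (∀ a (f : Q → ℂ), ∑ q, ‖(x a).mulVec f q‖ ^ 2 ≤ (‖A a‖) ^ 2 * ∑ q, ‖f q‖ ^ 2) ∧
    (∀ a (h : K), ∑ q, ‖W q (A a h) - ∑ q', x a q q' • W q' h‖ ^ 2 ≤ ε ^ 2 * ‖h‖ ^ 2)

/-- SCAL: from `K`-valued almost invariant functions to `ℂ^Q`-valued ones. -/
def S_SCAL : Prop := ∀ (K : Type u) [NormedAddCommGroup K] [InnerProductSpace ℂ K]
  [CompleteSpace K] (A : Gen → (K →L[ℂ] K)) (ε : ℝ) (_ : 0 < ε)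
  (Q : Type) [Fintype Q] [DecidableEq Q] (W : Q → (K →L[ℂ] K)) (x : Gen → Matrix Q Q ℂ)
  (_ : ∀ h : K, ∑ q, ‖W q h‖ ^ 2 = ‖h‖ ^ 2)
  (_ : ∀ a (f : Q → ℂ), ∑ q, ‖(x a).mulVec f q‖ ^ 2 ≤ (1 + ε) ^ 2 * ∑ q, ‖f q‖ ^ 2)
  (_ : ∀ a (h : K), ∑ q, ‖W q (A a h) - ∑ q', x a q q' • W q' h‖ ^ 2 ≤ ε ^ 2 * ‖h‖ ^ 2)
  (N : ℕ) (F : V (N + 1) → K) (_ : IsNew F) (_ : ∑ v, ‖F v‖ ^ 2 = 1)
  (_ : ∀ a : Gen, ∑ v, ‖A a (F ((g a (N + 1)).symm v)) - F v‖ ^ 2 ≤ ε ^ 2),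
  ∃ H : V (N + 1) → Q → ℂ, IsNew H ∧ ∑ v, ∑ q, ‖H v q‖ ^ 2 = 1 ∧
    ∀ a : Gen, ∑ v, ∑ q, ‖(x a).mulVec (H ((g a (N + 1)).symm v)) q - H v q‖ ^ 2 ≤ (8 * ε) ^ 2

/-- SVD: the modulus of the operator `δ_v ↦ H v` has a kernel `Y` on `V × V` of
Hilbert–Schmidt norm one, almost invariant, new in both variables, and with small
pairing against kernels of small operator norm (rank at most `card Q`). -/
def S_SVD : Prop := ∀ (Q : Type) [Fintype Q] [DecidableEq Q] (x : Gen → Matrix Q Q ℂ)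
  (ε : ℝ) (_ : 0 < ε) (_ : ε ≤ 1 / 100)
  (_ : ∀ a (f : Q → ℂ), ∑ q, ‖(x a).mulVec f q‖ ^ 2 ≤ (1 + ε) ^ 2 * ∑ q, ‖f q‖ ^ 2)
  (N : ℕ) (H : V (N + 1) → Q → ℂ) (_ : IsNew H) (_ : ∑ v, ∑ q, ‖H v q‖ ^ 2 = 1)
  (_ : ∀ a : Gen, ∑ v, ∑ q, ‖(x a).mulVec (H ((g a (N + 1)).symm v)) q - H v q‖ ^ 2
    ≤ (8 * ε) ^ 2),
  ∃ Y : V (N + 1) → V (N + 1) → ℂ,
    (∀ v, IsNew (Y v)) ∧ ∑ v, ∑ v', ‖Y v v'‖ ^ 2 = 1 ∧
    (∀ a : Gen, ∑ v, ∑ v', ‖Y ((g a (N + 1)).symm v) ((g a (N + 1)).symm v') - Y v v'‖ ^ 2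
      ≤ 100 * ε) ∧
    (∀ (Z : V (N + 1) → V (N + 1) → ℂ) (κ : ℝ), 0 ≤ κ →
      (∀ f : V (N + 1) → ℂ, ∑ v, ‖∑ v', Z v v' * f v'‖ ^ 2 ≤ κ ^ 2 * ∑ v, ‖f v‖ ^ 2) →
      ‖∑ v, ∑ v', conj (Y v v') * Z v v'‖ ≤ Real.sqrt (Fintype.card Q) * κ)

/-- EGAP: almost invariant kernels are close to invariant ones (exact spectral gap). -/
def S_EGAP : Prop := ∃ C : ℝ, 0 < C ∧ ∀ (N : ℕ) (Y : V (N + 1) → V (N + 1) → ℂ)
  (_ : ∀ v, IsNew (Y v)) (η : ℝ) (_ : 0 ≤ η)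
  (_ : ∀ a : Gen, ∑ v, ∑ v', ‖Y ((g a (N + 1)).symm v) ((g a (N + 1)).symm v') - Y v v'‖ ^ 2
      ≤ η),
  ∃ Z : V (N + 1) → V (N + 1) → ℂ,
    (∀ v, IsNew (Z v)) ∧
    (∀ (a : Gen) v v', Z (g a (N + 1) v) (g a (N + 1) v') = Z v v') ∧
    (∑ v, ∑ v', ‖Y v v' - Z v v'‖ ^ 2 ≤ C * η) ∧
    (∑ v, ∑ v', conj (Y v v' - Z v v') * Z v v' = 0)

/-- FOUR: invariant kernels, new in the second variable, have small operator norm. -/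
def S_FOUR : Prop := ∀ (N : ℕ) (Z : V (N + 2) → V (N + 2) → ℂ)
  (_ : ∀ v, IsNew (N := N + 1) (Z v))
  (_ : ∀ (a : Gen) v v', Z (g a (N + 2) v) (g a (N + 2) v') = Z v v')
  (f : V (N + 2) → ℂ),
  ∑ v, ‖∑ v', Z v v' * f v'‖ ^ 2 ≤ (∑ v, ∑ v', ‖Z v v'‖ ^ 2) / (N + 1) * ∑ v, ‖f v‖ ^ 2

/-- CONTRA: elements of a Cuntz algebra cannot have almost invariant new vectors at all levels. -/
def S_CONTRA : Prop := ∃ η : ℝ, 0 < η ∧
  ∀ (K : Type u) [NormedAddCommGroup K] [InnerProductSpace ℂ K] [CompleteSpace K]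
    (t : Fin 2 → (K →L[ℂ] K)) (_ : IsCuntz t) (A : Gen → (K →L[ℂ] K))
    (_ : ∀ a, A a ∈ cuntzAlg t) (_ : ∀ a, ‖A a‖ ≤ 1 + η)
    (_ : ∀ N : ℕ, ∃ F : V (N + 1) → K, IsNew F ∧ ∑ v, ‖F v‖ ^ 2 = 1 ∧
      ∀ a : Gen, ∑ v, ‖A a (F ((g a (N + 1)).symm v)) - F v‖ ^ 2 ≤ η), False

end Vale.Agent.P083
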