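import Vale.Agent.P083.EgapAbs

/-!
# P083, EGAP: the exact spectral gap
-/

open scoped BigOperators ComplexConjugate InnerProductSpace

namespace Vale.Agent.P083.Egap

variable {N : ℕ}

/-- kernels as a Hilbert space -/
abbrev EE (N : ℕ) : Type := EuclideanSpace ℂ (V (N + 1) × V (N + 1))

/-- permutations act on kernels -/
noncomputable def pr (h : Equiv.Perm (V (N + 1))) : EE N ≃ₗᵢ[ℂ] EE N :=
  LinearIsometryEquiv.piLpCongrLeft 2 ℂ ℂ (Equiv.prodCongr h h)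

theorem pr_apply (h : Equiv.Perm (V (N + 1))) (F : EE N) (v v' : V (N + 1)) :
    pr h F (v, v') = F (h.symm v, h.symm v') := rfl

theorem pr_mul (h h' : Equiv.Perm (V (N + 1))) (F : EE N) : pr (h * h') F = pr h (pr h' F) := by
  ext ⟨v, v'⟩
  rfl

theorem pr_one (F : EE N) : pr (1 : Equiv.Perm (V (N + 1))) F = F := by
  ext ⟨v, v'⟩
  rfl

/-- powers of a generator -/
noncomputable def sg (N : ℕ) (a : Gen) (k : Fp) : EE N ≃ₗᵢ[ℂ] EE N := pr ((g a ^ k.val) (N + 1))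

theorem other (a : Gen) : ∃ b, a ≠ b := by
  cases a
  · exact ⟨.y, by decide⟩
  · exact ⟨.x, by decide⟩
  · exact ⟨.x, by decide⟩
  · exact ⟨.x, by decide⟩

theorem hs_left (a b : Gen) (k : Fp) : hs a b ⟨k, 0, 0⟩ = g a ^ k.val := by
  unfold hs
  simp

theorem hs_right (a b : Gen) (k : Fp) : hs a b ⟨0, k, 0⟩ = g b ^ k.val := by
  unfold hs
  simp

theorem hs_one (a b : Gen) : hs a b 1 = 1 := by
  unfold hs
  simp

theorem sg_add (hH : S_HS) (a : Gen) (k l : Fp) (F : EE N) :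
    sg N a (k + l) F = sg N a k (sg N a l F) := by
  obtain ⟨b, hab⟩ := other a
  have h := hH a b hab ⟨k, 0, 0⟩ ⟨l, 0, 0⟩
  have h1 : (⟨k, 0, 0⟩ : Heis) * ⟨l, 0, 0⟩ = ⟨k + l, 0, 0⟩ := by
    ext <;> simp
  rw [h1, hs_left, hs_left, hs_left] at h
  unfold sg
  rw [h, ← pr_mul]
  rfl

/-- the representation of the Heisenberg group attached to a pair of generators -/
noncomputable def rho (hH : S_HS) (N : ℕ) (a b : Gen) (hab : a ≠ b) : Heis →* (EE N ≃ₗᵢ[ℂ] EE N) where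
  toFun h := pr (hs a b h (N + 1))
  map_one' := by
    rw [hs_one]
    ext F
    exact congrArg (fun F' : EE N => F' _) (pr_one F)
  map_mul' h h' := by
    rw [hH a b hab h h']
    ext F
    exact congrArg (fun F' : EE N => F' _) (pr_mul _ _ F)

theorem angle (hA : S_ANGLE.{0}) (hH : S_HS) (a b : Gen) (hab : a ≠ b) (F : EE N) :
    -(1 / 6 : ℝ) * (‖QQ (sg N a) F‖ ^ 2 + ‖QQ (sg N b) F‖ ^ 2)
      ≤ 2 * (⟪QQ (sg N a) F, QQ (sg N b) F⟫_ℂ).re := by
  have h := hA (EE N) (rho hH N a b hab) F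
  have h1 : ∀ k : Fp, rho hH N a b hab ⟨k, 0, 0⟩ = sg N a k := by
    intro k
    change pr (hs a b ⟨k, 0, 0⟩ (N + 1)) = pr ((g a ^ k.val) (N + 1))
    rw [hs_left]
  have h2 : ∀ k : Fp, rho hH N a b hab ⟨0, k, 0⟩ = sg N b k := by
    intro k
    change pr (hs a b ⟨0, k, 0⟩ (N + 1)) = pr ((g b ^ k.val) (N + 1))
    rw [hs_right]
  simp only [h1, h2] at h
  exact h

/-- the sum of the complementary projections -/
noncomputable def DD (N : ℕ) : EE N →ₗ[ℂ] EE N :=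
  QQ (sg N .x) + QQ (sg N .y) + QQ (sg N .z) + QQ (sg N .w)

theorem DD_apply (F : EE N) : DD N F =
    QQ (sg N .x) F + QQ (sg N .y) F + QQ (sg N .z) F + QQ (sg N .w) F := rfl

/-- the energy -/
noncomputable def En (N : ℕ) (F : EE N) : ℝ :=
  ‖QQ (sg N .x) F‖ ^ 2 + ‖QQ (sg N .y) F‖ ^ 2 + ‖QQ (sg N .z) F‖ ^ 2 + ‖QQ (sg N .w) F‖ ^ 2

theorem DD_symm (hH : S_HS) : (DD N).IsSymmetric := by
  unfold DD
  exact (((QQ_symm (sg_add hH .x)).add (QQ_symm (sg_add hH .y))).add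
    (QQ_symm (sg_add hH .z))).add (QQ_symm (sg_add hH .w))

theorem inner_DD (hH : S_HS) (F : EE N) : (⟪DD N F, F⟫_ℂ).re = En N F := by
  rw [DD_apply, inner_add_left, inner_add_left, inner_add_left, norm_QQ (sg_add hH .x),
    norm_QQ (sg_add hH .y), norm_QQ (sg_add hH .z), norm_QQ (sg_add hH .w)]
  simp only [Complex.add_re, Complex.ofReal_re]
  rfl

theorem gap_DD (hA : S_ANGLE.{0}) (hH : S_HS) (F : EE N) :
    (⟪DD N F, F⟫_ℂ).re ≤ 2 * ‖DD N F‖ ^ 2 := by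
  rw [inner_DD hH, DD_apply]
  have hxy := angle hA hH .x .y (by decide) F
  have hxz := angle hA hH .x .z (by decide) F
  have hxw := angle hA hH .x .w (by decide) F
  have hyz := angle hA hH .y .z (by decide) F
  have hyw := angle hA hH .y .w (by decide) F
  have hzw := angle hA hH .z .w (by decide) F
  rw [@norm_add_sq ℂ, @norm_add_sq ℂ, @norm_add_sq ℂ, inner_add_left, inner_add_left,
    inner_add_left]
  unfold En
  simp only [map_add, RCLike.re_to_complex]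
  linarith

/-- new kernels -/
def WW (N : ℕ) : Submodule ℂ (EE N) where
  carrier := {F | ∀ v, IsNew fun v' => F (v, v')}
  zero_mem' := by
    intro v v'
    simp
  add_mem' := by
    intro F F' h h' v v'
    have h1 := h v v'
    have h2 := h' v v'
    simp only [PiLp.add_apply, Finset.sum_add_distrib]
    rw [h1, h2, add_zero]
  smul_mem' := by
    intro c F h v v'
    have h1 := h v v'
    simp only [PiLp.smul_apply, ← Finset.smul_sum]
    rw [h1, smul_zero]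

theorem pr_mem (hN : S_NEW.{0}) (a : Gen) {F : EE N} (h : F ∈ WW N) : pr (g a (N + 1)) F ∈ WW N := by
  intro v
  exact (hN N ℂ (fun v' => F ((g a (N + 1)).symm v, v')) (h _) a).1

theorem pw_mem (hN : S_NEW.{0}) (a : Gen) {F : EE N} (h : F ∈ WW N) (n : ℕ) :
    pr ((g a ^ n) (N + 1)) F ∈ WW N := by
  induction n with
  | zero =>
    rw [pow_zero]
    change pr (1 : Equiv.Perm (V (N + 1))) F ∈ WW N
    rw [pr_one]
    exact h
  | succ n ih =>
    rw [pow_succ']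
    change pr (g a (N + 1) * (g a ^ n) (N + 1)) F ∈ WW N
    rw [pr_mul]
    exact pr_mem hN a ih

theorem QQ_mem (hN : S_NEW.{0}) (a : Gen) {F : EE N} (h : F ∈ WW N) : QQ (sg N a) F ∈ WW N := by
  rw [QQ_apply]
  unfold avg
  apply Submodule.sub_mem _ h
  apply Submodule.smul_mem
  apply Submodule.sum_mem
  intro k _
  exact pw_mem hN a h _

theorem DD_mem (hN : S_NEW.{0}) : ∀ F ∈ WW N, DD N F ∈ WW N := by
  intro F h
  rw [DD_apply]
  exact Submodule.add_mem _ (Submodule.add_mem _ (Submodule.add_mem _ (QQ_mem hN _ h)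
    (QQ_mem hN _ h)) (QQ_mem hN _ h)) (QQ_mem hN _ h)

theorem sg_one (a : Gen) (F : EE N) (v v' : V (N + 1)) :
    sg N a 1 F (v, v') = F ((g a (N + 1)).symm v, (g a (N + 1)).symm v') := by
  unfold sg
  have h : (1 : Fp).val = 1 := by decide
  rw [h, pow_one, pr_apply]

theorem En_le (hH : S_HS) (F : EE N) (η : ℝ) (h : ∀ a : Gen, ‖F - sg N a 1 F‖ ^ 2 ≤ η) :
    En N F ≤ 4 * (pp : ℝ) ^ 2 * η := by
  have h1 : ∀ a : Gen, ‖QQ (sg N a) F‖ ^ 2 ≤ (pp : ℝ) ^ 2 * η := by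
    intro a
    have h2 := norm_QQ_le (sg_add (N := N) hH a) F
    calc ‖QQ (sg N a) F‖ ^ 2 ≤ (pp * ‖F - sg N a 1 F‖) ^ 2 :=
          pow_le_pow_left₀ (norm_nonneg _) h2 2
      _ = (pp : ℝ) ^ 2 * ‖F - sg N a 1 F‖ ^ 2 := by ring
      _ ≤ (pp : ℝ) ^ 2 * η := mul_le_mul_of_nonneg_left (h a) (by positivity)
  unfold En
  linarith [h1 .x, h1 .y, h1 .z, h1 .w]

theorem fixed_of_DD (hH : S_HS) {F : EE N} (h : DD N F = 0) (a : Gen) : sg N a 1 F = F := by
  have h1 := inner_DD hH F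
  rw [h, inner_zero_left, Complex.zero_re] at h1
  unfold En at h1
  have hx := sq_nonneg ‖QQ (sg N .x) F‖
  have hy := sq_nonneg ‖QQ (sg N .y) F‖
  have hz := sq_nonneg ‖QQ (sg N .z) F‖
  have hw := sq_nonneg ‖QQ (sg N .w) F‖
  have h2 : ∀ a : Gen, ‖QQ (sg N a) F‖ ^ 2 = 0 := by
    intro a
    cases a <;> linarith
  have h3 : QQ (sg N a) F = 0 := by
    have := h2 a
    rwa [sq_eq_zero_iff, norm_eq_zero] at this
  exact sig_eq_of_QQ (sg_add hH a) h3 1

theorem exists_z (hA : S_ANGLE.{0}) (hH : S_HS) (hN : S_NEW.{0}) (y : EE N) (hy : y ∈ WW N) :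
    ∃ z : EE N, z ∈ WW N ∧ DD N z = 0 ∧ ⟪y - z, z⟫_ℂ = 0 ∧ ‖y - z‖ ^ 2 ≤ 2 * En N y := by
  obtain ⟨z, hz, hz0, hzo, hzn⟩ := exists_proj_sub (DD N) (WW N) (DD_mem hN) (DD_symm hH)
    (fun v => by
      rw [inner_DD hH]
      unfold En
      positivity) (gap_DD hA hH) y hy
  rw [inner_DD hH] at hzn
  exact ⟨z, hz, hz0, hzo, hzn⟩

theorem norm_sq_eq' (F : EE N) : ‖F‖ ^ 2 = ∑ v, ∑ v', ‖F (v, v')‖ ^ 2 := by
  rw [EuclideanSpace.norm_sq_eq, Fintype.sum_prod_type]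

theorem inner_eq' (F F' : EE N) : ⟪F, F'⟫_ℂ = ∑ v, ∑ v', conj (F (v, v')) * F' (v, v') := by
  rw [PiLp.inner_apply, Fintype.sum_prod_type]
  apply Finset.sum_congr rfl
  intro v _
  apply Finset.sum_congr rfl
  intro v' _
  rw [RCLike.inner_apply, mul_comm]

/-- EGAP -/
theorem egap (hA : S_ANGLE.{0}) (hH : S_HS) (hN : S_NEW.{0}) : S_EGAP := by
  refine ⟨8 * (pp : ℝ) ^ 2, by norm_num [pp], ?_⟩
  intro N Y hY η hη hYa
  obtain ⟨y, hy⟩ : ∃ y : EE N, ∀ v v', y (v, v') = Y v v' :=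
    ⟨WithLp.toLp 2 fun p => Y p.1 p.2, fun v v' => rfl⟩
  have hyW : y ∈ WW N := by
    intro v
    have : (fun v' => y (v, v')) = Y v := by
      funext v'
      exact hy v v'
    rw [this]
    exact hY v
  obtain ⟨z, hzW, hDz, hzo, hzn⟩ := exists_z hA hH hN y hyW
  have h2 : En N y ≤ 4 * (pp : ℝ) ^ 2 * η := by
    apply En_le hH
    intro a
    refine le_trans (le_of_eq ?_) (hYa a)
    rw [norm_sq_eq']
    apply Finset.sum_congr rfl
    intro v _
    apply Finset.sum_congr rfl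
    intro v' _
    rw [PiLp.sub_apply, sg_one, norm_sub_rev, hy, hy]
  refine ⟨fun v v' => z (v, v'), fun v => hzW v, ?_, ?_, ?_⟩
  · intro a v v'
    have h4 := fixed_of_DD hH hDz a
    have h5 := sg_one a z (g a (N + 1) v) (g a (N + 1) v')
    rw [h4, Equiv.symm_apply_apply, Equiv.symm_apply_apply] at h5
    exact h5
  · have h4 : ∑ v, ∑ v', ‖Y v v' - z (v, v')‖ ^ 2 = ‖y - z‖ ^ 2 := by
      rw [norm_sq_eq']
      apply Finset.sum_congr rfl
      intro v _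
      apply Finset.sum_congr rfl
      intro v' _
      rw [PiLp.sub_apply, hy]
    rw [h4]
    linarith
  · rw [inner_eq'] at hzo
    rw [← hzo]
    apply Finset.sum_congr rfl
    intro v _
    apply Finset.sum_congr rfl
    intro v' _
    rw [PiLp.sub_apply, hy]

end Vale.Agent.P083.Egap
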