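import Vale.Agent.P083.Defs

/-!
# P083, EGAP: abstract part
-/

open scoped BigOperators ComplexConjugate InnerProductSpace

namespace Vale.Agent.P083.Egap

section Avg

variable {E : Type*} [NormedAddCommGroup E] [InnerProductSpace ℂ E]

/-- averaging -/
noncomputable def avg (σ : Fp → (E ≃ₗᵢ[ℂ] E)) (v : E) : E := (pp : ℂ)⁻¹ • ∑ k : Fp, σ k v

/-- the complementary map -/
noncomputable def QQ (σ : Fp → (E ≃ₗᵢ[ℂ] E)) : E →ₗ[ℂ] E where
  toFun v := v - avg σ v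
  map_add' u v := by
    unfold avg
    simp only [map_add, Finset.sum_add_distrib, smul_add]
    abel
  map_smul' c v := by
    unfold avg
    simp only [map_smul, ← Finset.smul_sum, RingHom.id_apply, smul_sub]
    rw [smul_comm]

theorem QQ_apply (σ : Fp → (E ≃ₗᵢ[ℂ] E)) (v : E) : QQ σ v = v - avg σ v := rfl

variable {σ : Fp → (E ≃ₗᵢ[ℂ] E)}

theorem pp_ne : (pp : ℂ) ≠ 0 := by norm_num [pp]

theorem sum_shift (hσ : ∀ k l v, σ (k + l) v = σ k (σ l v)) (k : Fp) (v : E) :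
    σ k (avg σ v) = avg σ v := by
  unfold avg
  rw [map_smul, map_sum]
  congr 1
  rw [← Equiv.sum_comp (Equiv.addLeft k) fun l => σ l v]
  apply Finset.sum_congr rfl
  intro l _
  rw [← hσ]
  rfl

theorem card_Fp : Fintype.card Fp = pp := ZMod.card pp

theorem avg_of_fixed {v : E} (h : ∀ k, σ k v = v) : avg σ v = v := by
  unfold avg
  simp only [h]
  rw [Finset.sum_const, Finset.card_univ, card_Fp, ← Nat.cast_smul_eq_nsmul ℂ, smul_smul,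
    inv_mul_cancel₀ pp_ne, one_smul]

theorem avg_avg (hσ : ∀ k l v, σ (k + l) v = σ k (σ l v)) (v : E) :
    avg σ (avg σ v) = avg σ v :=
  avg_of_fixed fun k => sum_shift hσ k v

theorem sig_zero (hσ : ∀ k l v, σ (k + l) v = σ k (σ l v)) (v : E) : σ 0 v = v := by
  have h := hσ 0 0 v
  rw [add_zero] at h
  exact ((σ 0).injective h).symm

theorem inner_sig (hσ : ∀ k l v, σ (k + l) v = σ k (σ l v)) (k : Fp) (u v : E) :
    ⟪σ k u, v⟫_ℂ = ⟪u, σ (-k) v⟫_ℂ := by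
  have h : v = σ k (σ (-k) v) := by
    rw [← hσ, add_neg_cancel, sig_zero hσ]
  conv_lhs => rw [h]
  rw [LinearIsometryEquiv.inner_map_map]

theorem inner_avg (hσ : ∀ k l v, σ (k + l) v = σ k (σ l v)) (u v : E) :
    ⟪avg σ u, v⟫_ℂ = ⟪u, avg σ v⟫_ℂ := by
  unfold avg
  rw [inner_smul_left, inner_smul_right, sum_inner, inner_sum]
  simp only [inner_sig hσ, map_inv₀, map_natCast]
  congr 1
  rw [← Equiv.sum_comp (Equiv.neg Fp)]
  simp only [Equiv.neg_apply, neg_neg]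

theorem QQ_symm (hσ : ∀ k l v, σ (k + l) v = σ k (σ l v)) : (QQ σ).IsSymmetric := by
  intro u v
  rw [QQ_apply, QQ_apply, inner_sub_left, inner_sub_right, inner_avg hσ]

theorem norm_QQ (hσ : ∀ k l v, σ (k + l) v = σ k (σ l v)) (v : E) :
    ⟪QQ σ v, v⟫_ℂ = ((‖QQ σ v‖ ^ 2 : ℝ) : ℂ) := by
  have h1 : ⟪QQ σ v, avg σ v⟫_ℂ = 0 := by
    rw [QQ_apply, inner_sub_left, inner_avg hσ v (avg σ v), avg_avg hσ, sub_self]
  have h2 : ⟪QQ σ v, v⟫_ℂ = ⟪QQ σ v, QQ σ v⟫_ℂ := by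
    conv_rhs => rw [QQ_apply (v := v), inner_sub_right, ← QQ_apply, h1, sub_zero]
  rw [h2, inner_self_eq_norm_sq_to_K]
  norm_cast

theorem sig_eq_of_QQ (hσ : ∀ k l v, σ (k + l) v = σ k (σ l v)) {v : E} (h : QQ σ v = 0) (k : Fp) :
    σ k v = v := by
  rw [QQ_apply, sub_eq_zero] at h
  rw [h]
  exact sum_shift hσ k v

theorem norm_sub_sig (hσ : ∀ k l v, σ (k + l) v = σ k (σ l v)) (v : E) (n : ℕ) :
    ‖v - σ (n : Fp) v‖ ≤ n * ‖v - σ 1 v‖ := by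
  induction n with
  | zero =>
    rw [Nat.cast_zero, sig_zero hσ, sub_self, norm_zero]
    simp
  | succ n ih =>
    have h : v - σ ((n + 1 : ℕ) : Fp) v = (v - σ (n : Fp) v) + σ (n : Fp) (v - σ 1 v) := by
      rw [map_sub, ← hσ, Nat.cast_add, Nat.cast_one]
      abel
    rw [h]
    refine (norm_add_le _ _).trans ?_
    rw [LinearIsometryEquiv.norm_map, Nat.cast_add, Nat.cast_one, add_mul, one_mul]
    exact add_le_add ih le_rfl

theorem norm_QQ_le (hσ : ∀ k l v, σ (k + l) v = σ k (σ l v)) (v : E) :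
    ‖QQ σ v‖ ≤ pp * ‖v - σ 1 v‖ := by
  have h1 : QQ σ v = (pp : ℂ)⁻¹ • ∑ k : Fp, (v - σ k v) := by
    rw [QQ_apply, Finset.sum_sub_distrib, smul_sub, Finset.sum_const, Finset.card_univ, card_Fp,
      ← Nat.cast_smul_eq_nsmul ℂ, smul_smul, inv_mul_cancel₀ pp_ne, one_smul]
    rfl
  have h2 : ∀ k : Fp, ‖v - σ k v‖ ≤ pp * ‖v - σ 1 v‖ := by
    intro k
    have h3 := norm_sub_sig hσ v k.val
    rw [ZMod.natCast_zmod_val] at h3
    refine h3.trans (mul_le_mul_of_nonneg_right ?_ (norm_nonneg _))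
    exact_mod_cast (ZMod.val_lt k).le
  rw [h1, norm_smul, norm_inv]
  have h4 : ‖∑ k : Fp, (v - σ k v)‖ ≤ pp * (pp * ‖v - σ 1 v‖) := by
    refine (norm_sum_le _ _).trans ?_
    refine (Finset.sum_le_card_nsmul _ _ _ fun k _ => h2 k).trans ?_
    rw [Finset.card_univ, card_Fp, nsmul_eq_mul]
  have h5 : ‖(pp : ℂ)‖ = pp := by simp
  rw [h5]
  have h6 : (0 : ℝ) < pp := by norm_num [pp]
  rw [inv_mul_le_iff₀ h6]
  exact h4

end Avg

section Gap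

variable {W : Type*} [NormedAddCommGroup W] [InnerProductSpace ℂ W] [FiniteDimensional ℂ W]

theorem gap (T : W →ₗ[ℂ] W) (hT : T.IsSymmetric) (hpos : ∀ v, 0 ≤ (⟪T v, v⟫_ℂ).re)
    (hgap : ∀ v, (⟪T v, v⟫_ℂ).re ≤ 2 * ‖T v‖ ^ 2) (u : W) (hu : u ∈ (LinearMap.ker T)ᗮ) :
    ‖u‖ ^ 2 ≤ 2 * (⟪T u, u⟫_ℂ).re := by
  set b := hT.eigenvectorBasis rfl with hb
  set l := hT.eigenvalues rfl with hl
  have hTb : ∀ i, T (b i) = (l i : ℂ) • b i := fun i => hT.apply_eigenvectorBasis rfl i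
  have hbn : ∀ i, ‖b i‖ = 1 := fun i => b.orthonormal.1 i
  have hin : ∀ i, (⟪T (b i), b i⟫_ℂ).re = l i := by
    intro i
    rw [hTb, inner_smul_left, inner_self_eq_norm_sq_to_K, hbn]
    simp
  have hno : ∀ i, ‖T (b i)‖ ^ 2 = l i ^ 2 := by
    intro i
    rw [hTb, norm_smul, hbn, mul_one]
    simp
  have hl0 : ∀ i, 0 ≤ l i := fun i => by
    rw [← hin]
    exact hpos _
  have hl1 : ∀ i, l i = 0 ∨ 1 ≤ 2 * l i := by
    intro i
    have h := hgap (b i)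
    rw [hin, hno] at h
    rcases (hl0 i).eq_or_lt with h0 | h0
    · exact Or.inl h0.symm
    · right
      by_contra h1
      push Not at h1
      nlinarith
  have h1 : ‖u‖ ^ 2 = ∑ i, ‖⟪b i, u⟫_ℂ‖ ^ 2 := (b.sum_sq_norm_inner_right u).symm
  have h2 : (⟪T u, u⟫_ℂ).re = ∑ i, l i * ‖⟪b i, u⟫_ℂ‖ ^ 2 := by
    rw [← b.sum_inner_mul_inner (T u) u, Complex.re_sum]
    apply Finset.sum_congr rfl
    intro i _
    rw [hT u (b i), hTb, inner_smul_right, mul_assoc, ← inner_conj_symm u (b i),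
      Complex.conj_mul', ← Complex.ofReal_pow, ← Complex.ofReal_mul, Complex.ofReal_re]
  rw [h1, h2, Finset.mul_sum]
  apply Finset.sum_le_sum
  intro i _
  rcases hl1 i with h0 | h0
  · have : b i ∈ LinearMap.ker T := by
      rw [LinearMap.mem_ker, hTb, h0]
      simp
    rw [Submodule.mem_orthogonal] at hu
    rw [hu _ this, h0]
    simp
  · have := sq_nonneg ‖⟪b i, u⟫_ℂ‖
    nlinarith

theorem exists_proj (T : W →ₗ[ℂ] W) (hT : ∀ u v, ⟪T u, v⟫_ℂ = ⟪u, T v⟫_ℂ)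
    (hpos : ∀ v, 0 ≤ (⟪T v, v⟫_ℂ).re)
    (hgap : ∀ v, (⟪T v, v⟫_ℂ).re ≤ 2 * ‖T v‖ ^ 2) (y : W) :
    ∃ z, T z = 0 ∧ ⟪y - z, z⟫_ℂ = 0 ∧ ‖y - z‖ ^ 2 ≤ 2 * (⟪T y, y⟫_ℂ).re := by
  have hz : (LinearMap.ker T).starProjection y ∈ LinearMap.ker T :=
    Submodule.starProjection_apply_mem (LinearMap.ker T) y
  have hu : y - (LinearMap.ker T).starProjection y ∈ (LinearMap.ker T)ᗮ :=
    Submodule.sub_starProjection_mem_orthogonal y
  generalize (LinearMap.ker T).starProjection y = z at hz hu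
  have hz' : T z = 0 := hz
  refine ⟨z, hz', (Submodule.mem_orthogonal' _ _).1 hu z hz, ?_⟩
  have h := gap T hT hpos hgap (y - z) hu
  have h2 : ⟪T (y - z), y - z⟫_ℂ = ⟪T y, y⟫_ℂ := by
    rw [map_sub, hz', sub_zero, inner_sub_right, hT y z, hz', inner_zero_right, sub_zero]
  rw [h2] at h
  exact h

theorem exists_proj_sub {E : Type*} [NormedAddCommGroup E] [InnerProductSpace ℂ E]
    [FiniteDimensional ℂ E] (T : E →ₗ[ℂ] E) (S : Submodule ℂ E) (hS : ∀ v ∈ S, T v ∈ S)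
    (hT : ∀ u v, ⟪T u, v⟫_ℂ = ⟪u, T v⟫_ℂ) (hpos : ∀ v, 0 ≤ (⟪T v, v⟫_ℂ).re)
    (hgap : ∀ v, (⟪T v, v⟫_ℂ).re ≤ 2 * ‖T v‖ ^ 2) (y : E) (hy : y ∈ S) :
    ∃ z : E, z ∈ S ∧ T z = 0 ∧ ⟪y - z, z⟫_ℂ = 0 ∧ ‖y - z‖ ^ 2 ≤ 2 * (⟪T y, y⟫_ℂ).re := by
  obtain ⟨z, hz, hzo, hzn⟩ := exists_proj (W := S) (T.restrict hS)
    (fun u v => hT u v) (fun v => hpos v) (fun v => hgap v) ⟨y, hy⟩
  exact ⟨z, z.2, congrArg (fun w : S => (w : E)) hz, hzo, hzn⟩

end Gap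

end Vale.Agent.P083.Egap
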