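import Vale.Agent.P083.Defs

/-!
# P083, module FOUR: invariant kernels that are new in the second variable have small
operator norm (via characters of the finite group `V (N+2)`).
-/

open scoped BigOperators ComplexConjugate

namespace Vale.Agent.P083.Four

section fourier

variable {W : Type*} [AddCommGroup W] [Fintype W]

/-- Parseval identity for a finite abelian group. -/
lemma parseval (a : W → ℂ) :
    ∑ ψ : AddChar W ℂ, ‖∑ v, a v * ψ v‖ ^ 2 = Fintype.card W * ∑ v, ‖a v‖ ^ 2 := by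
  classical
  have key : ∀ ψ : AddChar W ℂ, ((‖∑ v, a v * ψ v‖ ^ 2 : ℝ) : ℂ)
      = ∑ v, ∑ v', a v * conj (a v') * ψ (v - v') := by
    intro ψ
    have h1 : ((‖∑ v, a v * ψ v‖ ^ 2 : ℝ) : ℂ)
        = (∑ v, a v * ψ v) * conj (∑ v, a v * ψ v) := by
      rw [Complex.mul_conj, Complex.normSq_eq_norm_sq]
    rw [h1, map_sum, Finset.sum_mul_sum]
    refine Finset.sum_congr rfl fun v _ => Finset.sum_congr rfl fun v' _ => ?_
    rw [map_mul, sub_eq_add_neg, AddChar.map_add_eq_mul, AddChar.map_neg_eq_conj]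
    ring
  have h2 : ((∑ ψ : AddChar W ℂ, ‖∑ v, a v * ψ v‖ ^ 2 : ℝ) : ℂ)
      = ((Fintype.card W * ∑ v, ‖a v‖ ^ 2 : ℝ) : ℂ) := by
    rw [Complex.ofReal_sum]
    simp_rw [key]
    rw [Finset.sum_comm]
    have h3 : ∀ v : W, ∑ ψ : AddChar W ℂ, ∑ v', a v * conj (a v') * ψ (v - v')
        = (Fintype.card W : ℂ) * ((‖a v‖ ^ 2 : ℝ) : ℂ) := by
      intro v
      rw [Finset.sum_comm]
      have h4 : ∀ v' : W, ∑ ψ : AddChar W ℂ, a v * conj (a v') * ψ (v - v')
          = if v = v' then (Fintype.card W : ℂ) * (a v * conj (a v')) else 0 := by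
        intro v'
        rw [← Finset.mul_sum, AddChar.sum_apply_eq_ite]
        by_cases h : v = v'
        · subst h; simp; ring
        · have : v - v' ≠ 0 := sub_ne_zero.mpr h
          simp [h, this]
      simp_rw [h4]
      rw [Finset.sum_ite_eq]
      simp only [Finset.mem_univ, if_true]
      rw [Complex.mul_conj, Complex.normSq_eq_norm_sq]
    simp_rw [h3]
    push_cast
    rw [Finset.mul_sum]
  exact_mod_cast h2

/-- abstract operator norm bound for convolution operators. -/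
lemma conv_bound (Z : W → W → ℂ) (hZ : ∀ u v v', Z (v + u) (v' + u) = Z v v') (κ : ℝ)
    (hκ : ∀ ψ : AddChar W ℂ, ‖∑ v, Z v 0 * ψ v‖ ^ 2 ≤ κ) (f : W → ℂ) :
    ∑ v, ‖∑ v', Z v v' * f v'‖ ^ 2 ≤ κ * ∑ v, ‖f v‖ ^ 2 := by
  classical
  have hZ0 : ∀ v v', Z v v' = Z (v - v') 0 := by
    intro v v'
    have := hZ v' (v - v') 0
    simpa using this
  have key : ∀ ψ : AddChar W ℂ, ∑ v, (∑ v', Z v v' * f v') * ψ v
      = (∑ v, Z v 0 * ψ v) * ∑ v', f v' * ψ v' := by
    intro ψ
    simp_rw [Finset.sum_mul]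
    rw [Finset.sum_comm]
    simp_rw [Finset.mul_sum]
    rw [Finset.sum_comm (f := fun x i => Z x 0 * ψ x * (f i * ψ i))]
    refine Finset.sum_congr rfl fun v' _ => ?_
    rw [← Equiv.sum_comp (Equiv.addRight v')]
    refine Finset.sum_congr rfl fun v _ => ?_
    simp only [Equiv.coe_addRight]
    rw [hZ0, AddChar.map_add_eq_mul]
    simp only [add_sub_cancel_right]
    ring
  have hcard : (0 : ℝ) < Fintype.card W := by exact_mod_cast Fintype.card_pos
  have h1 := parseval (fun v => ∑ v', Z v v' * f v')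
  have h2 := parseval f
  have h3 : ∑ ψ : AddChar W ℂ, ‖∑ v, (∑ v', Z v v' * f v') * ψ v‖ ^ 2
      ≤ κ * ∑ ψ : AddChar W ℂ, ‖∑ v, f v * ψ v‖ ^ 2 := by
    rw [Finset.mul_sum]
    refine Finset.sum_le_sum fun ψ _ => ?_
    rw [key, norm_mul, mul_pow]
    exact mul_le_mul_of_nonneg_right (hκ ψ) (by positivity)
  rw [h1, h2] at h3
  have h4 : (Fintype.card W : ℝ) * ∑ v, ‖∑ v', Z v v' * f v'‖ ^ 2
      ≤ (Fintype.card W : ℝ) * (κ * ∑ v, ‖f v‖ ^ 2) := by
    calc _ ≤ _ := h3
      _ = _ := by ring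
  exact le_of_mul_le_mul_left h4 hcard

/-- Hilbert–Schmidt norm in terms of the multipliers. -/
lemma hs_norm (Z : W → W → ℂ) (hZ : ∀ u v v', Z (v + u) (v' + u) = Z v v') :
    ∑ ψ : AddChar W ℂ, ‖∑ v, Z v 0 * ψ v‖ ^ 2 = ∑ v, ∑ v', ‖Z v v'‖ ^ 2 := by
  rw [parseval (fun v => Z v 0), Finset.sum_comm]
  have h : ∀ v' : W, ∑ v, ‖Z v v'‖ ^ 2 = ∑ v, ‖Z v 0‖ ^ 2 := by
    intro v'
    rw [← Equiv.sum_comp (Equiv.addRight v')]
    refine Finset.sum_congr rfl fun v _ => ?_
    have := hZ v' v 0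
    simp only [Equiv.coe_addRight]
    rw [← this]
    simp
  simp_rw [h]
  simp [Finset.card_univ]

/-- if `ψ` has `m` distinct images under stabilising maps, its multiplier is small. -/
lemma orbit_bound {m : ℕ} (Z : W → W → ℂ) (A : Fin m → W →+ W) (h : Fin m → Equiv.Perm W)
    (hA : ∀ k v, h k v = v + A k v) (hinv : ∀ k v v', Z (h k v) (h k v') = Z v v')
    (ψ : AddChar W ℂ) (u : Fin m → W) (u0 : W) (hu : ∀ k, A k (u k) = u0)
    (hu' : ∀ k l, k < l → A l (u k) = 0) (hψ : ψ u0 ≠ 1) :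
    m * ‖∑ v, Z v 0 * ψ v‖ ^ 2 ≤ ∑ φ : AddChar W ℂ, ‖∑ v, Z v 0 * φ v‖ ^ 2 := by
  classical
  let Ψ : Fin m → AddChar W ℂ := fun k => ψ.compAddMonoidHom (AddMonoidHom.id W + A k)
  have hΨ : ∀ k v, Ψ k v = ψ (h k v) := by
    intro k v
    simp [Ψ, hA]
  have hne : ∀ k l, k < l → Ψ k ≠ Ψ l := by
    intro k l hkl he
    have h1 : Ψ k (u k) = Ψ l (u k) := by rw [he]
    rw [hΨ, hΨ, hA, hA, hu, hu' k l hkl, AddChar.map_add_eq_mul, AddChar.map_add_eq_mul,
      AddChar.map_zero_eq_one] at h1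
    have h2 : ψ (u k) ≠ 0 := by
      intro h0
      have := AddChar.norm_apply ψ (u k)
      rw [h0] at this
      simp at this
    exact hψ (mul_left_cancel₀ h2 h1)
  have hinj : Function.Injective Ψ := by
    intro k l hkl
    rcases lt_trichotomy k l with h1 | h1 | h1
    · exact absurd hkl (hne k l h1)
    · exact h1
    · exact absurd hkl.symm (hne l k h1)
  have hμ : ∀ k, ∑ v, Z v 0 * Ψ k v = ∑ v, Z v 0 * ψ v := by
    intro k
    rw [← Equiv.sum_comp (h k) (fun v => Z v 0 * ψ v)]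
    refine Finset.sum_congr rfl fun v _ => ?_
    have h0 : h k 0 = 0 := by rw [hA]; simp
    have h1 := hinv k v 0
    rw [h0] at h1
    rw [hΨ, h1]
  calc m * ‖∑ v, Z v 0 * ψ v‖ ^ 2 = ∑ k : Fin m, ‖∑ v, Z v 0 * Ψ k v‖ ^ 2 := by
        simp [hμ]
    _ = ∑ φ ∈ Finset.univ.map ⟨Ψ, hinj⟩, ‖∑ v, Z v 0 * φ v‖ ^ 2 := by
        rw [Finset.sum_map]; rfl
    _ ≤ ∑ φ : AddChar W ℂ, ‖∑ v, Z v 0 * φ v‖ ^ 2 :=
        Finset.sum_le_sum_of_subset_of_nonneg (Finset.subset_univ _) (fun _ _ _ => by positivity)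

end fourier

section group

variable {n : ℕ}

/-- `v₁ += r v₃` -/
def e13 (r : M n →+ M n) : Equiv.Perm (V n) where
  toFun v := (v.1 + r v.2.2, v.2.1, v.2.2)
  invFun v := (v.1 - r v.2.2, v.2.1, v.2.2)
  left_inv v := by simp
  right_inv v := by simp

/-- `v₂ += r v₁` -/
def e21 (r : M n →+ M n) : Equiv.Perm (V n) where
  toFun v := (v.1, v.2.1 + r v.1, v.2.2)
  invFun v := (v.1, v.2.1 - r v.1, v.2.2)
  left_inv v := by simp
  right_inv v := by simp

/-- `v₃ += r v₂` -/
def e32 (r : M n →+ M n) : Equiv.Perm (V n) where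
  toFun v := (v.1, v.2.1, v.2.2 + r v.2.1)
  invFun v := (v.1, v.2.1, v.2.2 - r v.2.1)
  left_inv v := by simp
  right_inv v := by simp

lemma e12_apply (r : M n →+ M n) (v : V n) : e12 r v = (v.1 + r v.2.1, v.2.1, v.2.2) := rfl
lemma e23_apply (r : M n →+ M n) (v : V n) : e23 r v = (v.1, v.2.1 + r v.2.2, v.2.2) := rfl
lemma e31_apply (r : M n →+ M n) (v : V n) : e31 r v = (v.1, v.2.1, v.2.2 + r v.1) := rfl
lemma e13_apply (r : M n →+ M n) (v : V n) : e13 r v = (v.1 + r v.2.2, v.2.1, v.2.2) := rfl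
lemma e21_apply (r : M n →+ M n) (v : V n) : e21 r v = (v.1, v.2.1 + r v.1, v.2.2) := rfl
lemma e32_apply (r : M n →+ M n) (v : V n) : e32 r v = (v.1, v.2.1, v.2.2 + r v.2.1) := rfl
lemma tr_apply (u v : V n) : tr u v = v + u := rfl
lemma e12_inv (r : M n →+ M n) (v : V n) :
    (e12 r)⁻¹ v = (v.1 - r v.2.1, v.2.1, v.2.2) := rfl
lemma e23_inv (r : M n →+ M n) (v : V n) :
    (e23 r)⁻¹ v = (v.1, v.2.1 - r v.2.2, v.2.2) := rfl
lemma e31_inv (r : M n →+ M n) (v : V n) :
    (e31 r)⁻¹ v = (v.1, v.2.1, v.2.2 - r v.1) := rfl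
lemma e13_inv (r : M n →+ M n) (v : V n) :
    (e13 r)⁻¹ v = (v.1 - r v.2.2, v.2.1, v.2.2) := rfl
lemma e21_inv (r : M n →+ M n) (v : V n) :
    (e21 r)⁻¹ v = (v.1, v.2.1 - r v.1, v.2.2) := rfl
lemma e32_inv (r : M n →+ M n) (v : V n) :
    (e32 r)⁻¹ v = (v.1, v.2.1, v.2.2 - r v.2.1) := rfl
lemma tr_inv (u v : V n) : (tr u)⁻¹ v = v - u := rfl

lemma c13 (r s : M n →+ M n) : e12 r * e23 s * (e12 r)⁻¹ * (e23 s)⁻¹ = e13 (r.comp s) := by
  refine Equiv.ext fun v => ?_
  simp only [Equiv.Perm.mul_apply, e12_apply, e23_apply, e12_inv, e23_inv, e13_apply,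
    AddMonoidHom.comp_apply, map_sub, map_add]
  refine Prod.ext ?_ (Prod.ext ?_ ?_) <;> simp <;> abel

lemma c12 (r s : M n →+ M n) : e13 r * e32 s * (e13 r)⁻¹ * (e32 s)⁻¹ = e12 (r.comp s) := by
  refine Equiv.ext fun v => ?_
  simp only [Equiv.Perm.mul_apply, e13_apply, e32_apply, e13_inv, e32_inv, e12_apply,
    AddMonoidHom.comp_apply, map_sub, map_add]
  refine Prod.ext ?_ (Prod.ext ?_ ?_) <;> simp <;> abel

lemma c21 (r s : M n →+ M n) : e23 r * e31 s * (e23 r)⁻¹ * (e31 s)⁻¹ = e21 (r.comp s) := by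
  refine Equiv.ext fun v => ?_
  simp only [Equiv.Perm.mul_apply, e23_apply, e31_apply, e23_inv, e31_inv, e21_apply,
    AddMonoidHom.comp_apply, map_sub, map_add]
  refine Prod.ext ?_ (Prod.ext ?_ ?_) <;> simp <;> abel

lemma c23 (r s : M n →+ M n) : e21 r * e13 s * (e21 r)⁻¹ * (e13 s)⁻¹ = e23 (r.comp s) := by
  refine Equiv.ext fun v => ?_
  simp only [Equiv.Perm.mul_apply, e21_apply, e13_apply, e21_inv, e13_inv, e23_apply,
    AddMonoidHom.comp_apply, map_sub, map_add]
  refine Prod.ext ?_ (Prod.ext ?_ ?_) <;> simp <;> abel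

lemma c32 (r s : M n →+ M n) : e31 r * e12 s * (e31 r)⁻¹ * (e12 s)⁻¹ = e32 (r.comp s) := by
  refine Equiv.ext fun v => ?_
  simp only [Equiv.Perm.mul_apply, e31_apply, e12_apply, e31_inv, e12_inv, e32_apply,
    AddMonoidHom.comp_apply, map_sub, map_add]
  refine Prod.ext ?_ (Prod.ext ?_ ?_) <;> simp <;> abel

lemma c31 (r s : M n →+ M n) : e32 r * e21 s * (e32 r)⁻¹ * (e21 s)⁻¹ = e31 (r.comp s) := by
  refine Equiv.ext fun v => ?_
  simp only [Equiv.Perm.mul_apply, e32_apply, e21_apply, e32_inv, e21_inv, e31_apply,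
    AddMonoidHom.comp_apply, map_sub, map_add]
  refine Prod.ext ?_ (Prod.ext ?_ ?_) <;> simp <;> abel

/-- the stabiliser of a kernel -/
def St (Z : V n → V n → ℂ) : Subgroup (Equiv.Perm (V n)) where
  carrier := {h | ∀ v v', Z (h v) (h v') = Z v v'}
  one_mem' := by intro v v'; rfl
  mul_mem' := by
    intro a b ha hb v v'
    rw [Equiv.Perm.mul_apply, Equiv.Perm.mul_apply, ha, hb]
  inv_mem' := by
    intro a ha v v'
    have h := ha (a⁻¹ v) (a⁻¹ v')
    simpa using h.symm

lemma mem_St {Z : V n → V n → ℂ} {h : Equiv.Perm (V n)} :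
    h ∈ St Z ↔ ∀ v v', Z (h v) (h v') = Z v v' := Iff.rfl

lemma comm_mem {H : Subgroup (Equiv.Perm (V n))} {a b : Equiv.Perm (V n)} (ha : a ∈ H)
    (hb : b ∈ H) : a * b * a⁻¹ * b⁻¹ ∈ H :=
  H.mul_mem (H.mul_mem (H.mul_mem ha hb) (H.inv_mem ha)) (H.inv_mem hb)

/-- powers of the shift -/
def shp (n : ℕ) : ℕ → (M n →+ M n)
  | 0 => AddMonoidHom.id (M n)
  | k + 1 => (shp n k).comp (sh n)

variable {H : Subgroup (Equiv.Perm (V n))}
  (hx : e12 (AddMonoidHom.id (M n)) ∈ H) (hy : e23 (AddMonoidHom.id (M n)) ∈ H)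
  (hz : e31 (sh n) ∈ H)

include hx hy hz

lemma m13 : e13 (AddMonoidHom.id (M n)) ∈ H := by
  have := comm_mem hx hy
  rw [c13] at this
  simpa using this

lemma m21 : e21 (sh n) ∈ H := by
  have := comm_mem hy hz
  rw [c21] at this
  simpa using this

lemma m32 : e32 (sh n) ∈ H := by
  have := comm_mem hz hx
  rw [c32] at this
  simpa using this

lemma m12 (k : ℕ) : e12 (shp n k) ∈ H := by
  induction k with
  | zero => exact hx
  | succ k ih =>
    have h1 := comm_mem ih hy
    rw [c13, AddMonoidHom.comp_id] at h1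
    have h2 := comm_mem h1 (m32 hx hy hz)
    rw [c12] at h2
    exact h2

lemma m23 (k : ℕ) : e23 (shp n k) ∈ H := by
  induction k with
  | zero => exact hy
  | succ k ih =>
    have h1 := comm_mem ih hz
    rw [c21] at h1
    have h2 := comm_mem h1 (m13 hx hy hz)
    rw [c23, AddMonoidHom.comp_id] at h2
    exact h2

lemma m31 (k : ℕ) : e31 (shp n (k + 1)) ∈ H := by
  induction k with
  | zero => 
    have : shp n (0 + 1) = sh n := by simp [shp]
    rw [this]; exact hz
  | succ k ih =>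
    have h1 := comm_mem ih hx
    rw [c32, AddMonoidHom.comp_id] at h1
    have h2 := comm_mem h1 (m21 hx hy hz)
    rw [c31] at h2
    exact h2

omit hx hy hz

lemma tr_mul (u u' : V n) : tr u * tr u' = tr (u + u') := by
  refine Equiv.ext fun v => ?_
  rw [Equiv.Perm.mul_apply, tr_apply, tr_apply, tr_apply]
  abel

lemma tr_inv_eq (u : V n) : (tr u)⁻¹ = tr (-u) := by
  refine Equiv.ext fun v => ?_
  rw [tr_inv, tr_apply, sub_eq_add_neg]

lemma tr_zero : tr (0 : V n) = 1 := by
  refine Equiv.ext fun v => ?_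
  rw [tr_apply]; simp

/-- translations in a subgroup -/
def T (H : Subgroup (Equiv.Perm (V n))) : AddSubgroup (V n) where
  carrier := {u | tr u ∈ H}
  zero_mem' := by
    change tr (0 : V n) ∈ H
    rw [tr_zero]; exact H.one_mem
  add_mem' := by
    intro a b ha hb
    change tr (a + b) ∈ H
    rw [← tr_mul]; exact H.mul_mem ha hb
  neg_mem' := by
    intro a ha
    change tr (-a) ∈ H
    rw [← tr_inv_eq]; exact H.inv_mem ha

lemma mem_T {u : V n} : u ∈ T H ↔ tr u ∈ H := Iff.rfl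

lemma conj_tr (h : Equiv.Perm (V n)) (hh : ∀ a b, h (a + b) = h a + h b) (u : V n) :
    h * tr u * h⁻¹ = tr (h u) := by
  refine Equiv.ext fun v => ?_
  rw [Equiv.Perm.mul_apply, Equiv.Perm.mul_apply, tr_apply, tr_apply, hh]
  simp

lemma T_map (h : Equiv.Perm (V n)) (hH : h ∈ H) (hh : ∀ a b, h (a + b) = h a + h b) {u : V n}
    (hu : u ∈ T H) : h u ∈ T H := by
  rw [mem_T, ← conj_tr h hh]
  exact H.mul_mem (H.mul_mem hH hu) (H.inv_mem hH)

lemma e12_add (r : M n →+ M n) (a b : V n) : e12 r (a + b) = e12 r a + e12 r b := by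
  simp only [e12_apply]
  refine Prod.ext ?_ (Prod.ext ?_ ?_) <;> simp <;> abel

lemma e23_add (r : M n →+ M n) (a b : V n) : e23 r (a + b) = e23 r a + e23 r b := by
  simp only [e23_apply]
  refine Prod.ext ?_ (Prod.ext ?_ ?_) <;> simp <;> abel

lemma e31_add (r : M n →+ M n) (a b : V n) : e31 r (a + b) = e31 r a + e31 r b := by
  simp only [e31_apply]
  refine Prod.ext ?_ (Prod.ext ?_ ?_) <;> simp <;> abel

include hx hy hz

lemma T2 {m : M n} (h : ((0, 0, m) : V n) ∈ T H) : ((0, m, 0) : V n) ∈ T H := by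
  have h1 := T_map _ hy (e23_add _) h
  have h2 := (T H).sub_mem h1 h
  have : e23 (AddMonoidHom.id (M n)) ((0, 0, m) : V n) - (0, 0, m) = (0, m, 0) := by
    rw [e23_apply]
    refine Prod.ext ?_ (Prod.ext ?_ ?_) <;> simp
  rwa [this] at h2

lemma T1 {m : M n} (h : ((0, 0, m) : V n) ∈ T H) : ((m, 0, 0) : V n) ∈ T H := by
  have h0 := T2 hx hy hz h
  have h1 := T_map _ hx (e12_add _) h0
  have h2 := (T H).sub_mem h1 h0
  have : e12 (AddMonoidHom.id (M n)) ((0, m, 0) : V n) - (0, m, 0) = (m, 0, 0) := by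
    rw [e12_apply]
    refine Prod.ext ?_ (Prod.ext ?_ ?_) <;> simp
  rwa [this] at h2

lemma T3 {m : M n} (h : ((0, 0, m) : V n) ∈ T H) : ((0, 0, sh n m) : V n) ∈ T H := by
  have h0 := T1 hx hy hz h
  have h1 := T_map _ hz (e31_add _) h0
  have h2 := (T H).sub_mem h1 h0
  have : e31 (sh n) ((m, 0, 0) : V n) - (m, 0, 0) = (0, 0, sh n m) := by
    rw [e31_apply]
    refine Prod.ext ?_ (Prod.ext ?_ ?_) <;> simp
  rwa [this] at h2

omit hx hy hz

lemma sh_apply (n : ℕ) (m : M n) (i : Fin n) :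
    sh n m i = if 1 ≤ i.val then m ⟨i.val - 1, by omega⟩ else 0 := by
  cases n with
  | zero => exact i.elim0
  | succ n =>
    refine Fin.cases ?_ (fun i => ?_) i
    · simp [sh]
    · simp [sh]
      rfl

lemma shp_apply (n k : ℕ) (m : M n) (i : Fin n) :
    shp n k m i = if k ≤ i.val then m ⟨i.val - k, by omega⟩ else 0 := by
  induction k generalizing m with
  | zero => simp [shp]
  | succ k ih =>
    have h0 : shp n (k + 1) m = shp n k (sh n m) := rfl
    rw [h0, ih]
    by_cases h1 : k + 1 ≤ i.val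
    · have h2 : k ≤ i.val := by omega
      rw [if_pos h1, if_pos h2, sh_apply]
      have h3 : 1 ≤ i.val - k := by omega
      simp only [h3, if_true]
      congr 1
    · rw [if_neg h1]
      by_cases h2 : k ≤ i.val
      · rw [if_pos h2, sh_apply]
        have h3 : ¬ 1 ≤ i.val - k := by omega
        simp [h3]
      · rw [if_neg h2]

/-- `t^k · t^{top-k} c = t^top c` -/
lemma shp_single_eq (N k : ℕ) (hk : k ≤ N) (c : Fp) :
    shp (N + 1) k (Pi.single ⟨N - k, by omega⟩ c) = Pi.single (Fin.last N) c := by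
  funext i
  rw [shp_apply]
  by_cases h : i = Fin.last N
  · subst h
    simp [hk]
  · have h' : i.val ≠ N := fun h0 => h (Fin.ext h0)
    rw [Pi.single_eq_of_ne h]
    split_ifs with h1
    · rw [Pi.single_eq_of_ne]
      intro h2
      have := congrArg Fin.val h2
      simp at this
      omega
    · rfl

lemma shp_single_zero (N k l : ℕ) (hk : k ≤ N) (hl : k < l) (c : Fp) :
    shp (N + 1) l (Pi.single ⟨N - k, by omega⟩ c) = 0 := by
  funext i
  rw [shp_apply]
  split_ifs with h1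
  · rw [Pi.single_eq_of_ne]
    · rfl
    · intro h2
      have := congrArg Fin.val h2
      simp at this
      omega
  · rfl

lemma sh_single (N : ℕ) (i : ℕ) (hi : i + 1 < N + 1) (c : Fp) :
    sh (N + 1) (Pi.single ⟨i, by omega⟩ c) = Pi.single ⟨i + 1, hi⟩ c := by
  funext j
  rw [sh_apply]
  by_cases h : j = ⟨i + 1, hi⟩
  · subst h
    simp
  · rw [Pi.single_eq_of_ne h]
    split_ifs with h1
    · rw [Pi.single_eq_of_ne]
      intro h2
      apply h
      have := congrArg Fin.val h2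
      simp at this
      exact Fin.ext (by simp; omega)
    · rfl

end group

section top

variable {N : ℕ} {H : Subgroup (Equiv.Perm (V (N + 1)))}
  (hx : e12 (AddMonoidHom.id (M (N + 1))) ∈ H) (hy : e23 (AddMonoidHom.id (M (N + 1))) ∈ H)
  (hz : e31 (sh (N + 1)) ∈ H) (hw : tr ((0, 0, eps (N + 1)) : V (N + 1)) ∈ H)

include hx hy hz hw

lemma T3_single (i : ℕ) (hi : i < N + 1) (c : Fp) :
    ((0, 0, Pi.single ⟨i, hi⟩ c) : V (N + 1)) ∈ T H := by
  induction i with
  | zero =>
    have h1 : ((0, 0, Pi.single ⟨0, hi⟩ c) : V (N + 1))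
        = c.val • ((0, 0, eps (N + 1)) : V (N + 1)) := by
      refine Prod.ext ?_ (Prod.ext ?_ ?_)
      · simp
      · simp
      · simp only [Prod.snd_smul, Prod.smul_snd]
        simp only [eps]
        funext j
        by_cases hj : j = 0
        · subst hj
          simp
        · have : j ≠ ⟨0, hi⟩ := hj
          simp [Pi.single_eq_of_ne hj, Pi.single_eq_of_ne this]
    rw [h1]
    exact (T H).nsmul_mem hw _
  | succ i ih =>
    have h1 := T3 hx hy hz (ih (by omega))
    rwa [sh_single] at h1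

lemma T_top (u : V (N + 1)) : u ∈ T H := by
  have h3 : ∀ m : M (N + 1), ((0, 0, m) : V (N + 1)) ∈ T H := by
    intro m
    have h1 : ((0, 0, m) : V (N + 1)) = ∑ i, ((0, 0, Pi.single i (m i)) : V (N + 1)) := by
      refine Prod.ext ?_ (Prod.ext ?_ ?_)
      · rw [Prod.fst_sum]; simp
      · rw [Prod.snd_sum, Prod.fst_sum]; simp
      · rw [Prod.snd_sum, Prod.snd_sum]
        simp only
        exact (Finset.univ_sum_single m).symm
    rw [h1]
    exact (T H).sum_mem fun i _ => T3_single hx hy hz hw i.val i.isLt (m i)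
  have h : u = (u.1, 0, 0) + (0, u.2.1, 0) + (0, 0, u.2.2) := by
    refine Prod.ext ?_ (Prod.ext ?_ ?_) <;> simp
  rw [h]
  exact (T H).add_mem ((T H).add_mem (T1 hx hy hz (h3 _)) (T2 hx hy hz (h3 _))) (h3 _)

end top

/-- multipliers of kernels new in the second variable vanish on characters trivial on the last
letters. -/
lemma mult_zero {N : ℕ} (Z : V (N + 1) → V (N + 1) → ℂ)
    (hZ : ∀ u v v', Z (v + u) (v' + u) = Z v v') (hnew : ∀ v, IsNew (Z v))
    (ψ : AddChar (V (N + 1)) ℂ) (hψ : ∀ c, ψ (lst N c) = 1) :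
    ∑ v, Z v 0 * ψ v = 0 := by
  classical
  have hneg : ∀ c : X, lst N (-c) = -lst N c := by
    intro c
    refine Prod.ext ?_ (Prod.ext ?_ ?_)
    · simp [lst, Pi.single_neg]
    · simp [lst, Pi.single_neg]
    · simp [lst, Pi.single_neg]
  have h1 : ∀ v, ∑ c : X, Z (v + lst N c) 0 = 0 := by
    intro v
    have h2 := hnew v 0
    rw [← h2, ← Equiv.sum_comp (Equiv.neg X)]
    refine Finset.sum_congr rfl fun c _ => ?_
    have h3 := hZ (lst N (-c)) v (0 + lst N c)
    rw [← h3]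
    simp only [Equiv.neg_apply]
    rw [hneg]
    simp
  have h4 : ∀ c : X, ∑ v, Z (v + lst N c) 0 * ψ v = ∑ v, Z v 0 * ψ v := by
    intro c
    rw [← Equiv.sum_comp (Equiv.addRight (lst N c)) (fun v => Z v 0 * ψ v)]
    refine Finset.sum_congr rfl fun v _ => ?_
    simp only [Equiv.coe_addRight]
    rw [AddChar.map_add_eq_mul, hψ, mul_one]
  have h5 : (Fintype.card X : ℂ) * ∑ v, Z v 0 * ψ v = 0 := by
    calc (Fintype.card X : ℂ) * ∑ v, Z v 0 * ψ v
        = ∑ c : X, ∑ v, Z (v + lst N c) 0 * ψ v := by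
          simp_rw [h4]
          simp [Finset.card_univ]
      _ = ∑ v, (∑ c : X, Z (v + lst N c) 0) * ψ v := by
          rw [Finset.sum_comm]
          refine Finset.sum_congr rfl fun v _ => ?_
          rw [Finset.sum_mul]
      _ = 0 := by simp [h1]
  have hcard : (Fintype.card X : ℂ) ≠ 0 := by
    exact_mod_cast Fintype.card_ne_zero
  exact (mul_eq_zero.mp h5).resolve_left hcard

lemma lst_split {N : ℕ} (ψ : AddChar (V (N + 1)) ℂ) (c : X) :
    ψ (lst N c) = ψ (Pi.single (Fin.last N) c.1, 0, 0) * ψ (0, Pi.single (Fin.last N) c.2.1, 0)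
      * ψ (0, 0, Pi.single (Fin.last N) c.2.2) := by
  rw [← AddChar.map_add_eq_mul, ← AddChar.map_add_eq_mul]
  congr 1
  refine Prod.ext ?_ (Prod.ext ?_ ?_) <;> simp [lst]

/-- The multiplier bound. -/
lemma mult_bound {N : ℕ} (Z : V (N + 2) → V (N + 2) → ℂ)
    (hnew : ∀ v, IsNew (N := N + 1) (Z v))
    (hx : e12 (AddMonoidHom.id (M (N + 2))) ∈ St Z) (hy : e23 (AddMonoidHom.id (M (N + 2))) ∈ St Z)
    (hz : e31 (sh (N + 2)) ∈ St Z) (hZ : ∀ u v v', Z (v + u) (v' + u) = Z v v')
    (ψ : AddChar (V (N + 2)) ℂ) :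
    (N + 1) * ‖∑ v, Z v 0 * ψ v‖ ^ 2 ≤ ∑ φ : AddChar (V (N + 2)) ℂ, ‖∑ v, Z v 0 * φ v‖ ^ 2 := by
  classical
  have hpos : 0 ≤ ∑ φ : AddChar (V (N + 2)) ℂ, ‖∑ v, Z v 0 * φ v‖ ^ 2 :=
    Finset.sum_nonneg fun _ _ => by positivity
  by_cases hψ : ∀ c, ψ (lst (N + 1) c) = 1
  · rw [mult_zero Z hZ hnew ψ hψ]
    simpa using hpos
  · push Not at hψ
    obtain ⟨c, hc⟩ := hψ
    rw [lst_split] at hc
    by_cases h1 : ψ (Pi.single (Fin.last (N + 1)) c.1, 0, 0) = 1
    · by_cases h2 : ψ (0, Pi.single (Fin.last (N + 1)) c.2.1, 0) = 1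
      · have h3 : ψ (0, 0, Pi.single (Fin.last (N + 1)) c.2.2) ≠ 1 := by
          intro h3
          rw [h1, h2, h3] at hc
          simp at hc
        have := orbit_bound (m := N + 1) Z
          (fun k => (AddMonoidHom.inr (M (N + 2)) (M (N + 2) × M (N + 2))).comp
            ((AddMonoidHom.inr (M (N + 2)) (M (N + 2))).comp ((shp (N + 2) (k.val + 1)).comp
              (AddMonoidHom.fst (M (N + 2)) (M (N + 2) × M (N + 2))))))
          (fun k => e31 (shp (N + 2) (k.val + 1)))
          (fun k v => by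
            rw [e31_apply]
            refine Prod.ext ?_ (Prod.ext ?_ ?_) <;> simp)
          (fun k => m31 hx hy hz k.val) ψ
          (fun k => (Pi.single ⟨N + 1 - (k.val + 1), by omega⟩ c.2.2, 0, 0))
          (0, 0, Pi.single (Fin.last (N + 1)) c.2.2)
          (fun k => by
            have hk : k.val + 1 ≤ N + 1 := by omega
            refine Prod.ext ?_ (Prod.ext ?_ ?_)
            · simp
            · simp
            · simpa using shp_single_eq (N + 1) (k.val + 1) hk c.2.2)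
          (fun k l hkl => by
            have hk : k.val + 1 ≤ N + 1 := by omega
            have hkl' : k.val + 1 < l.val + 1 := by
              have : k.val < l.val := hkl
              omega
            refine Prod.ext ?_ (Prod.ext ?_ ?_)
            · simp
            · simp
            · simpa using shp_single_zero (N + 1) (k.val + 1) (l.val + 1) hk hkl' c.2.2) h3
        exact_mod_cast this
      · have := orbit_bound (m := N + 1) Z
          (fun k => (AddMonoidHom.inr (M (N + 2)) (M (N + 2) × M (N + 2))).comp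
            ((AddMonoidHom.inl (M (N + 2)) (M (N + 2))).comp ((shp (N + 2) k.val).comp
              ((AddMonoidHom.snd (M (N + 2)) (M (N + 2))).comp
                (AddMonoidHom.snd (M (N + 2)) (M (N + 2) × M (N + 2)))))))
          (fun k => e23 (shp (N + 2) k.val))
          (fun k v => by
            rw [e23_apply]
            refine Prod.ext ?_ (Prod.ext ?_ ?_) <;> simp)
          (fun k => m23 hx hy hz k.val) ψ
          (fun k => (0, 0, Pi.single ⟨N + 1 - k.val, by omega⟩ c.2.1))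
          (0, Pi.single (Fin.last (N + 1)) c.2.1, 0)
          (fun k => by
            have hk : k.val ≤ N + 1 := by omega
            refine Prod.ext ?_ (Prod.ext ?_ ?_)
            · simp
            · simpa using shp_single_eq (N + 1) k.val hk c.2.1
            · simp)
          (fun k l hkl => by
            have hk : k.val ≤ N + 1 := by omega
            refine Prod.ext ?_ (Prod.ext ?_ ?_)
            · simp
            · simpa using shp_single_zero (N + 1) k.val l.val hk hkl c.2.1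
            · simp) h2
        exact_mod_cast this
    · have := orbit_bound (m := N + 1) Z
          (fun k => (AddMonoidHom.inl (M (N + 2)) (M (N + 2) × M (N + 2))).comp
            ((shp (N + 2) k.val).comp
              ((AddMonoidHom.fst (M (N + 2)) (M (N + 2))).comp
                (AddMonoidHom.snd (M (N + 2)) (M (N + 2) × M (N + 2))))))
          (fun k => e12 (shp (N + 2) k.val))
          (fun k v => by
            rw [e12_apply]
            refine Prod.ext ?_ (Prod.ext ?_ ?_) <;> simp)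
          (fun k => m12 hx hy hz k.val) ψ
          (fun k => (0, Pi.single ⟨N + 1 - k.val, by omega⟩ c.1, 0))
          (Pi.single (Fin.last (N + 1)) c.1, 0, 0)
          (fun k => by
            have hk : k.val ≤ N + 1 := by omega
            refine Prod.ext ?_ (Prod.ext ?_ ?_)
            · simpa using shp_single_eq (N + 1) k.val hk c.1
            · simp
            · simp)
          (fun k l hkl => by
            have hk : k.val ≤ N + 1 := by omega
            refine Prod.ext ?_ (Prod.ext ?_ ?_)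
            · simpa using shp_single_zero (N + 1) k.val l.val hk hkl c.1
            · simp
            · simp) h1
      exact_mod_cast this

theorem four : S_FOUR := by
  intro N Z hnew hinv f
  have hx : e12 (AddMonoidHom.id (M (N + 2))) ∈ St Z := hinv .x
  have hy : e23 (AddMonoidHom.id (M (N + 2))) ∈ St Z := hinv .y
  have hz : e31 (sh (N + 2)) ∈ St Z := hinv .z
  have hw : tr ((0, 0, eps (N + 2)) : V (N + 2)) ∈ St Z := hinv .w
  have hZ : ∀ u v v', Z (v + u) (v' + u) = Z v v' := fun u => T_top hx hy hz hw u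
  have hb := mult_bound Z hnew hx hy hz hZ
  have hN : (0 : ℝ) < N + 1 := by positivity
  refine conv_bound Z hZ _ (fun ψ => ?_) f
  rw [← hs_norm Z hZ, le_div_iff₀ hN, mul_comm]
  exact hb ψ

end Vale.Agent.P083.Four
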