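import Mathlib

/-!
# P083: a C*-algebra generated by a Cuntz pair (existence of `O₂`)
-/

open scoped InnerProductSpace

namespace Vale.Agent.P083.NonVac

/-- the Hilbert space `ℓ²(ℕ)` -/
abbrev H : Type := lp (fun _ : ℕ => ℂ) 2

/-- canonical basis vectors -/
noncomputable def e (n : ℕ) : H := lp.single 2 n (1 : ℂ)

lemma inner_e (n : ℕ) (x : H) : ⟪e n, x⟫_ℂ = x n := by
  rw [e, lp.inner_single_left]; simp

lemma ext_e {x y : H} (h : ∀ n, ⟪e n, x⟫_ℂ = ⟪e n, y⟫_ℂ) : x = y := by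
  apply lp.ext
  ext n
  simpa only [inner_e] using h n

lemma inner_e_e (m n : ℕ) : ⟪e m, e n⟫_ℂ = if m = n then 1 else 0 := by
  rw [inner_e, e, lp.single_apply]
  by_cases h : m = n
  · subst h; simp
  · simp [h]

lemma e_on : Orthonormal ℂ e := by
  rw [orthonormal_iff_ite]
  exact inner_e_e

lemma idx_inj (i : Fin 2) : Function.Injective (fun n : ℕ => 2 * n + (i : ℕ)) := by
  intro a b h
  simp only at h
  omega

lemma V_on (i : Fin 2) : Orthonormal ℂ (fun n : ℕ => e (2 * n + (i : ℕ))) :=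
  e_on.comp _ (idx_inj i)

/-- the isometry `e_n ↦ e_{2n+i}` -/
noncomputable def T (i : Fin 2) : H →ₗᵢ[ℂ] H := (V_on i).orthogonalFamily.linearIsometry

lemma T_e (i : Fin 2) (n : ℕ) : T i (e n) = e (2 * n + (i : ℕ)) := by
  rw [T, e, OrthogonalFamily.linearIsometry_apply_single]
  simp

/-- the isometries as bounded operators -/
noncomputable def t (i : Fin 2) : H →L[ℂ] H := (T i).toContinuousLinearMap

lemma t_e (i : Fin 2) (n : ℕ) : t i (e n) = e (2 * n + (i : ℕ)) := T_e i n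

lemma inner_t (i : Fin 2) (x y : H) : ⟪t i x, t i y⟫_ℂ = ⟪x, y⟫_ℂ := (T i).inner_map_map x y

lemma t_iso (i : Fin 2) : star (t i) * t i = 1 := by
  ext1 x
  refine ext_inner_right ℂ fun y => ?_
  rw [_root_.mul_apply_eq_comp, ContinuousLinearMap.star_eq_adjoint,
    ContinuousLinearMap.adjoint_inner_left, inner_t]
  rfl

lemma adj_e (i j : Fin 2) (k : ℕ) :
    star (t j) (e (2 * k + (i : ℕ))) = if j = i then e k else 0 := by
  apply ext_e
  intro n
  rw [ContinuousLinearMap.star_eq_adjoint, ContinuousLinearMap.adjoint_inner_right, t_e, inner_e_e]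
  split_ifs with h1 h2 h2
  · subst h2
    have : n = k := by omega
    rw [inner_e_e, if_pos this]
  · exfalso
    apply h2
    ext
    omega
  · subst h2
    rw [inner_e_e, if_neg]
    intro h; apply h1; rw [h]
  · simp

lemma t_sum : t 0 * star (t 0) + t 1 * star (t 1) = 1 := by
  ext1 x
  apply ext_e
  intro m
  have key : ∀ j : Fin 2, ⟪e m, t j (star (t j) x)⟫_ℂ = ⟪star (t j) (e m), star (t j) x⟫_ℂ := by
    intro j
    rw [ContinuousLinearMap.star_eq_adjoint, ContinuousLinearMap.adjoint_inner_left]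
  have h1 : ((t 0 * star (t 0) + t 1 * star (t 1)) x : H)
      = t 0 (star (t 0) x) + t 1 (star (t 1) x) := rfl
  rw [h1, inner_add_right, key, key]
  have h2 : ((1 : H →L[ℂ] H) x) = x := rfl
  rw [h2]
  obtain ⟨k, i, hi⟩ : ∃ (k : ℕ) (i : Fin 2), m = 2 * k + (i : ℕ) :=
    ⟨m / 2, ⟨m % 2, Nat.mod_lt _ (by norm_num)⟩, (Nat.div_add_mod m 2).symm⟩
  have h3 : ⟪e k, star (t i) x⟫_ℂ = ⟪e m, x⟫_ℂ := by
    rw [ContinuousLinearMap.star_eq_adjoint, ContinuousLinearMap.adjoint_inner_right, t_e, hi]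
  rw [← h3, hi, adj_e, adj_e]
  fin_cases i <;> simp

/-- the C*-algebra generated by the two isometries -/
noncomputable def O2s : StarSubalgebra ℂ (H →L[ℂ] H) :=
  (StarAlgebra.adjoin ℂ (Set.range t)).topologicalClosure

instance : IsClosed (O2s : Set (H →L[ℂ] H)) := StarSubalgebra.isClosed_topologicalClosure _

lemma t_mem (i : Fin 2) : t i ∈ O2s :=
  StarSubalgebra.le_topologicalClosure _ (StarAlgebra.subset_adjoin ℂ _ ⟨i, rfl⟩)

/-- There is a C*-algebra generated by two isometries `s₀, s₁` with `s₀s₀* + s₁s₁* = 1`. -/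
theorem exists_cuntz : ∃ (B : Type) (_ : CStarAlgebra B) (s : Fin 2 → B), Nontrivial B ∧
    (∀ i, star (s i) * s i = 1) ∧ s 0 * star (s 0) + s 1 * star (s 1) = 1 ∧
    (StarAlgebra.adjoin ℂ (Set.range s)).topologicalClosure = ⊤ := by
  refine ⟨O2s, inferInstance, fun i => ⟨t i, t_mem i⟩, ?_, ?_, ?_, ?_⟩
  · refine ⟨⟨0, 1, ?_⟩⟩
    intro h
    have h1 : (0 : H →L[ℂ] H) = 1 := congrArg Subtype.val h
    have h2 : (0 : H) = e 0 := by
      have := congrArg (fun f : H →L[ℂ] H => f (e 0)) h1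
      simpa using this
    have h3 := inner_e_e 0 0
    rw [← h2] at h3
    simp at h3
  · intro i
    apply Subtype.ext
    exact t_iso i
  · apply Subtype.ext
    exact t_sum
  · rw [eq_top_iff]
    rintro x -
    change x ∈ closure ((StarAlgebra.adjoin ℂ (Set.range fun i => (⟨t i, t_mem i⟩ : O2s)) :
      StarSubalgebra ℂ O2s) : Set O2s)
    rw [closure_subtype]
    have h1 : (Subtype.val '' ((StarAlgebra.adjoin ℂ
        (Set.range fun i => (⟨t i, t_mem i⟩ : O2s)) : StarSubalgebra ℂ O2s) : Set O2s))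
        = ((StarAlgebra.adjoin ℂ (Set.range t) : StarSubalgebra ℂ (H →L[ℂ] H)) :
          Set (H →L[ℂ] H)) := by
      have h2 := StarAlgHom.map_adjoin O2s.subtype (Set.range fun i => (⟨t i, t_mem i⟩ : O2s))
      have h3 : (O2s.subtype '' Set.range fun i => (⟨t i, t_mem i⟩ : O2s)) = Set.range t := by
        rw [← Set.range_comp]; rfl
      rw [h3] at h2
      rw [← h2]
      rfl
    rw [h1]
    exact x.2

end Vale.Agent.P083.NonVac
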