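import Vale.Agent.P083.Defs

/-!
# P083, module NUC: finite-dimensional approximation for the Cuntz algebra
-/

open scoped InnerProductSpace ComplexConjugate

namespace Vale.Agent.P083.Nuc

universe u

variable {K : Type u} [NormedAddCommGroup K] [InnerProductSpace ℂ K] [CompleteSpace K]

/-- words -/
abbrev Wrd := List (Fin 2)

/-- the product of the isometries along a word -/
noncomputable def T (t : Fin 2 → (K →L[ℂ] K)) : Wrd → (K →L[ℂ] K)
  | [] => 1
  | i :: w => t i * T t w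

variable {t : Fin 2 → (K →L[ℂ] K)}

lemma T_append (u v : Wrd) : T t (u ++ v) = T t u * T t v := by
  induction u with
  | nil => simp [T]
  | cons i u ih => simp [T, ih, mul_assoc]

lemma orth (ht : IsCuntz t) (i j : Fin 2) (hij : i ≠ j) : star (t i) * t j = 0 := by
  have h01 : star (t 0) * t 1 = 0 := by
    have h1 : star (t 0) * (t 0 * star (t 0) + t 1 * star (t 1)) = star (t 0) := by
      rw [ht.sum, mul_one]
    rw [mul_add, ← mul_assoc, ht.iso 0, one_mul, add_eq_left] at h1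
    have h2 : star (t 0) * (t 1 * star (t 1)) * t 1 = 0 := by rw [h1, zero_mul]
    rwa [mul_assoc, mul_assoc, ht.iso 1, mul_one] at h2
  have h10 : star (t 1) * t 0 = 0 := by
    have := congrArg star h01
    rwa [star_mul, star_star, star_zero] at this
  fin_cases i <;> fin_cases j
  · exact absurd rfl hij
  · exact h01
  · exact h10
  · exact absurd rfl hij

lemma inner_star_left (A : K →L[ℂ] K) (x y : K) : ⟪star A x, y⟫_ℂ = ⟪x, A y⟫_ℂ := by
  rw [ContinuousLinearMap.star_eq_adjoint, ContinuousLinearMap.adjoint_inner_left]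

lemma norm_iso {A : K →L[ℂ] K} (hA : star A * A = 1) (h : K) : ‖A h‖ = ‖h‖ := by
  have h1 : ⟪A h, A h⟫_ℂ = ⟪h, h⟫_ℂ := by
    rw [← inner_star_left A (A h) h]
    have : star A (A h) = h := by
      have := congrArg (fun B : K →L[ℂ] K => B h) hA
      simpa using this
    rw [this]
  have h2 : ‖A h‖ ^ 2 = ‖h‖ ^ 2 := by
    have := congrArg Complex.re h1
    rw [inner_self_eq_norm_sq_to_K, inner_self_eq_norm_sq_to_K] at this
    exact_mod_cast this
  exact (sq_eq_sq₀ (norm_nonneg _) (norm_nonneg _)).1 h2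

lemma T_iso (ht : IsCuntz t) (w : Wrd) : star (T t w) * T t w = 1 := by
  induction w with
  | nil => simp [T]
  | cons i w ih =>
    simp only [T, star_mul]
    rw [mul_assoc, ← mul_assoc (star (t i)), ht.iso, one_mul, ih]

lemma T_norm_le (ht : IsCuntz t) (w : Wrd) : ‖T t w‖ ≤ 1 :=
  ContinuousLinearMap.opNorm_le_bound _ zero_le_one fun h => by
    rw [norm_iso (T_iso ht w), one_mul]

lemma T_orth (ht : IsCuntz t) (a : Wrd) : ∀ b : Wrd, a.length ≤ b.length → ¬ (a <+: b) →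
    star (T t a) * T t b = 0 := by
  induction a with
  | nil => intro b _ h; exact absurd (List.nil_prefix) h
  | cons i a ih =>
    intro b hb hp
    cases b with
    | nil => simp at hb
    | cons j b =>
      simp only [T, star_mul]
      by_cases hij : i = j
      · subst hij
        rw [mul_assoc, ← mul_assoc (star (t i)), ht.iso, one_mul]
        apply ih
        · simpa using hb
        · intro h
          apply hp
          exact List.cons_prefix_cons.2 ⟨rfl, h⟩
      · rw [mul_assoc, ← mul_assoc (star (t i)), orth ht i j hij, zero_mul, mul_zero]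

lemma T_pre (ht : IsCuntz t) (a u : Wrd) : star (T t a) * T t (a ++ u) = T t u := by
  rw [T_append, ← mul_assoc, T_iso ht, one_mul]

lemma parseval2 (ht : IsCuntz t) (h : K) :
    ‖star (t 0) h‖ ^ 2 + ‖star (t 1) h‖ ^ 2 = ‖h‖ ^ 2 := by
  have h1 : ⟪h, (t 0 * star (t 0) + t 1 * star (t 1)) h⟫_ℂ = ⟪h, h⟫_ℂ := by
    rw [ht.sum]; rfl
  rw [ContinuousLinearMap.add_apply, inner_add_right] at h1
  have h2 : ∀ i, ⟪h, (t i * star (t i)) h⟫_ℂ = ⟪star (t i) h, star (t i) h⟫_ℂ := by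
    intro i
    rw [inner_star_left]
    rfl
  rw [h2, h2] at h1
  simp only [inner_self_eq_norm_sq_to_K] at h1
  exact_mod_cast h1

/-- words of length `n` -/
def Wd : ℕ → Finset Wrd
  | 0 => {[]}
  | n + 1 => (Wd n).map ⟨List.cons 0, List.cons_injective⟩ ∪
      (Wd n).map ⟨List.cons 1, List.cons_injective⟩

lemma mem_Wd (n : ℕ) : ∀ w : Wrd, w ∈ Wd n ↔ w.length = n := by
  induction n with
  | zero => intro w; simp [Wd]
  | succ n ih =>
    intro w
    simp only [Wd, Finset.mem_union, Finset.mem_map, Function.Embedding.coeFn_mk, ih]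
    constructor
    · rintro (⟨v, hv, rfl⟩ | ⟨v, hv, rfl⟩) <;> simp [hv]
    · intro hw
      cases w with
      | nil => simp at hw
      | cons i w =>
        have hw' : w.length = n := by simpa using hw
        fin_cases i
        · exact Or.inl ⟨w, hw', rfl⟩
        · exact Or.inr ⟨w, hw', rfl⟩

lemma parseval (ht : IsCuntz t) (n : ℕ) : ∀ h : K, ∑ w ∈ Wd n, ‖star (T t w) h‖ ^ 2 = ‖h‖ ^ 2 := by
  induction n with
  | zero => intro h; simp [Wd, T]
  | succ n ih =>
    intro h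
    rw [Wd, Finset.sum_union, Finset.sum_map, Finset.sum_map]
    · simp only [Function.Embedding.coeFn_mk, T, star_mul]
      have e : ∀ i : Fin 2, ∑ w ∈ Wd n, ‖(star (T t w) * star (t i)) h‖ ^ 2 = ‖star (t i) h‖ ^ 2 :=
        fun i => ih (star (t i) h)
      rw [e, e, parseval2 ht]
    · rw [Finset.disjoint_left]
      intro w h1 h2
      simp only [Finset.mem_map, Function.Embedding.coeFn_mk] at h1 h2
      obtain ⟨a, _, rfl⟩ := h1
      obtain ⟨b, _, hb⟩ := h2
      simp at hb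

/-- the window -/
def win (L R : ℕ) : Finset Wrd := (Finset.Ico L (L + R)).biUnion Wd

lemma mem_win (L R : ℕ) (w : Wrd) : w ∈ win L R ↔ L ≤ w.length ∧ w.length < L + R := by
  simp only [win, Finset.mem_biUnion, Finset.mem_Ico, mem_Wd]
  constructor
  · rintro ⟨n, h, rfl⟩; exact h
  · intro h; exact ⟨_, h, rfl⟩

lemma sum_win (L R : ℕ) (f : Wrd → ℝ) :
    ∑ w ∈ win L R, f w = ∑ l ∈ Finset.Ico L (L + R), ∑ w ∈ Wd l, f w := by
  rw [win, Finset.sum_biUnion]
  intro a _ b _ hab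
  rw [Function.onFun, Finset.disjoint_left]
  intro w h1 h2
  rw [mem_Wd] at h1 h2
  exact hab (h1.symm.trans h2)

/-- the marker word -/
def gam (n : ℕ) : Wrd := List.replicate n 0 ++ [1]

lemma gam_length (n : ℕ) : (gam n).length = n + 1 := by simp [gam]

lemma gam_not_pre (n : ℕ) (w : Wrd) (h1 : w ≠ []) (h2 : w.length ≤ n) :
    ¬ (gam n <+: w ++ gam n) := by
  intro h
  have hw : 1 ≤ w.length := List.length_pos_iff.2 h1
  have e1 : (gam n)[n]? = some 1 := by
    unfold gam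
    rw [List.getElem?_append_right (by simp)]
    simp
  have e2 : (w ++ gam n)[n]? = some 0 := by
    rw [List.getElem?_append_right h2]
    unfold gam
    have hlt : n - w.length < n := by omega
    rw [List.getElem?_append_left (by simpa using hlt)]
    rw [List.getElem?_replicate, if_pos hlt]
  obtain ⟨s, hs⟩ := h
  rw [← hs, List.getElem?_append_left (by rw [gam_length]; omega), e1] at e2
  simp at e2

/-- the orthonormal vectors -/
noncomputable def ev (t : Fin 2 → (K →L[ℂ] K)) (n : ℕ) (h0 : K) (w : Wrd) : K :=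
  T t w (T t (gam n) h0)

lemma inner_T (A B : K →L[ℂ] K) (x y : K) : ⟪A x, B y⟫_ℂ = ⟪x, (star A * B) y⟫_ℂ := by
  have h := inner_star_left (star A) x (B y)
  rw [star_star] at h
  rw [h]
  rfl

lemma ev_inner (ht : IsCuntz t) (n : ℕ) (h0 : K) (hn : ‖h0‖ = 1) (w : Wrd) :
    ∀ w' : Wrd, w.length ≤ n → w'.length ≤ n →
      ⟪ev t n h0 w, ev t n h0 w'⟫_ℂ = if w = w' then 1 else 0 := by
  have key : ∀ w : Wrd, w ≠ [] → w.length ≤ n → ⟪ev t n h0 [], ev t n h0 w⟫_ℂ = 0 := by
    intro w h1 h2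
    have e : ev t n h0 w = T t (w ++ gam n) h0 := by rw [T_append]; rfl
    rw [e]
    have e2 : ev t n h0 [] = T t (gam n) h0 := rfl
    rw [e2, inner_T, T_orth ht _ _ (by simp) (gam_not_pre n w h1 h2)]
    simp
  induction w with
  | nil =>
    intro w' _ h2
    by_cases h : w' = []
    · subst h
      rw [if_pos rfl, inner_self_eq_norm_sq_to_K]
      have : ‖ev t n h0 []‖ = 1 := by
        have e2 : ev t n h0 [] = T t (gam n) h0 := rfl
        rw [e2, norm_iso (T_iso ht _), hn]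
      rw [this]; simp
    · rw [if_neg (fun h' => h h'.symm)]
      exact key w' h h2
  | cons i w ih =>
    intro w' h1 h2
    cases w' with
    | nil =>
      rw [if_neg (by simp), ← inner_conj_symm, key _ (by simp) h1, map_zero]
    | cons j w' =>
      have e : ⟪ev t n h0 (i :: w), ev t n h0 (j :: w')⟫_ℂ =
          ⟪ev t n h0 w, (star (t i) * t j) (ev t n h0 w')⟫_ℂ := inner_T (t i) (t j) _ _
      rw [e]
      by_cases hij : i = j
      · subst hij
        rw [ht.iso, ContinuousLinearMap.one_apply,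
          ih w' (by simp only [List.length_cons] at h1; omega)
            (by simp only [List.length_cons] at h2; omega)]
        by_cases hw : w = w' <;> simp [hw]
      · rw [orth ht i j hij, if_neg (by simp [hij])]
        simp

/-- the weight operators -/
noncomputable def Wo (t : Fin 2 → (K →L[ℂ] K)) (R : ℕ) (q : Wrd) : K →L[ℂ] K :=
  (((Real.sqrt R)⁻¹ : ℝ) : ℂ) • star (T t q)

lemma Wo_sq (R : ℕ) (q : Wrd) (h : K) :
    ‖Wo t R q h‖ ^ 2 = (R : ℝ)⁻¹ * ‖star (T t q) h‖ ^ 2 := by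
  unfold Wo
  rw [ContinuousLinearMap.smul_apply, norm_smul, mul_pow, Complex.norm_real, Real.norm_eq_abs,
    sq_abs, inv_pow, Real.sq_sqrt (Nat.cast_nonneg R)]

lemma sum_W (ht : IsCuntz t) (L R : ℕ) (hR : 1 ≤ R) (h : K) :
    ∑ q ∈ win L R, ‖Wo t R q h‖ ^ 2 = ‖h‖ ^ 2 := by
  rw [sum_win]
  have e : ∀ l ∈ Finset.Ico L (L + R), ∑ w ∈ Wd l, ‖Wo t R w h‖ ^ 2 = (R : ℝ)⁻¹ * ‖h‖ ^ 2 := by
    intro l _
    rw [← parseval ht l h, Finset.mul_sum]
    exact Finset.sum_congr rfl fun w _ => Wo_sq R w h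
  rw [Finset.sum_congr rfl e, Finset.sum_const, Nat.card_Ico, nsmul_eq_mul]
  have : ((L + R - L : ℕ) : ℝ) = R := by congr 1; omega
  rw [this, ← mul_assoc, mul_inv_cancel₀ (by positivity), one_mul]

/-- matrix coefficients -/
noncomputable def Xm (t : Fin 2 → (K →L[ℂ] K)) (n : ℕ) (h0 : K) (A : K →L[ℂ] K)
    (q q' : Wrd) : ℂ := ⟪ev t n h0 q, A (ev t n h0 q')⟫_ℂ

/-- the error -/
noncomputable def Err (t : Fin 2 → (K →L[ℂ] K)) (L R : ℕ) (h0 : K) (A : K →L[ℂ] K) (h : K)
    (q : Wrd) : K :=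
  Wo t R q (A h) - ∑ q' ∈ win L R, Xm t (L + R) h0 A q q' • Wo t R q' h

lemma Xm_add (n : ℕ) (h0 : K) (A B : K →L[ℂ] K) (q q' : Wrd) :
    Xm t n h0 (A + B) q q' = Xm t n h0 A q q' + Xm t n h0 B q q' := by
  unfold Xm
  rw [← inner_add_right]
  rfl

lemma Xm_smul (n : ℕ) (h0 : K) (c : ℂ) (A : K →L[ℂ] K) (q q' : Wrd) :
    Xm t n h0 (c • A) q q' = c * Xm t n h0 A q q' := by
  unfold Xm
  rw [← inner_smul_right]
  rfl

lemma Err_add (L R : ℕ) (h0 : K) (A B : K →L[ℂ] K) (h : K) (q : Wrd) :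
    Err t L R h0 (A + B) h q = Err t L R h0 A h q + Err t L R h0 B h q := by
  unfold Err
  have e : Wo t R q ((A + B) h) = Wo t R q (A h) + Wo t R q (B h) := by
    rw [← map_add]; rfl
  rw [e]
  simp only [Xm_add, add_smul, Finset.sum_add_distrib]
  abel

lemma Err_smul (L R : ℕ) (h0 : K) (c : ℂ) (A : K →L[ℂ] K) (h : K) (q : Wrd) :
    Err t L R h0 (c • A) h q = c • Err t L R h0 A h q := by
  unfold Err
  have e : Wo t R q ((c • A) h) = c • Wo t R q (A h) := by
    rw [← map_smul]; rfl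
  rw [e, smul_sub, Finset.smul_sum]
  simp only [Xm_smul, mul_smul]

lemma pre_or (ht : IsCuntz t) (μ q : Wrd) (h : μ.length ≤ q.length) :
    (∃ u, q = μ ++ u) ∨
      ((∀ u, q ≠ μ ++ u) ∧ star (T t μ) * T t q = 0 ∧ star (T t q) * T t μ = 0) := by
  by_cases hp : μ <+: q
  · obtain ⟨u, hu⟩ := hp
    exact Or.inl ⟨u, hu.symm⟩
  · have h1 := T_orth ht μ q h hp
    refine Or.inr ⟨fun u hu => hp ⟨u, hu.symm⟩, h1, ?_⟩
    have := congrArg star h1
    rwa [star_mul, star_star, star_zero] at this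

lemma apply_mul (A B : K →L[ℂ] K) (h : K) : A (B h) = (A * B) h := rfl

lemma Xm_mono (ht : IsCuntz t) (n : ℕ) (h0 : K) (hn : ‖h0‖ = 1) (μ ν u q' : Wrd)
    (h1 : (μ ++ u).length ≤ n) (h2 : q'.length ≤ n) (h3 : ν.length ≤ q'.length) :
    Xm t n h0 (T t μ * star (T t ν)) (μ ++ u) q' = if q' = ν ++ u then 1 else 0 := by
  have e1 : Xm t n h0 (T t μ * star (T t ν)) (μ ++ u) q' =
      ⟪ev t n h0 u, star (T t ν) (ev t n h0 q')⟫_ℂ := by
    unfold Xm
    have e : ev t n h0 (μ ++ u) = T t μ (ev t n h0 u) := by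
      unfold ev
      rw [T_append]; rfl
    rw [e]
    have e' : (T t μ * star (T t ν)) (ev t n h0 q') = T t μ (star (T t ν) (ev t n h0 q')) := rfl
    rw [e', inner_T, T_iso ht]
    rfl
  rw [e1]
  rcases pre_or ht ν q' h3 with ⟨v, rfl⟩ | ⟨hne, hz, -⟩
  · have e : star (T t ν) (ev t n h0 (ν ++ v)) = ev t n h0 v := by
      unfold ev
      rw [T_append, apply_mul, ← mul_assoc, T_iso ht, one_mul]
    rw [e, ev_inner ht n h0 hn u v (by simp only [List.length_append] at h1; omega)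
      (by simp only [List.length_append] at h2; omega)]
    by_cases huv : u = v
    · simp [huv]
    · rw [if_neg huv, if_neg]
      intro h
      exact huv (List.append_cancel_left h).symm
  · rw [if_neg (hne u)]
    have e2 : star (T t ν) (ev t n h0 q') = 0 := by
      unfold ev
      rw [apply_mul (star (T t ν)) (T t q'), hz]
      simp
    rw [e2]
    simp

lemma Xm_zero (ht : IsCuntz t) (n : ℕ) (h0 : K) (μ ν q q' : Wrd)
    (hz : star (T t q) * T t μ = 0) :
    Xm t n h0 (T t μ * star (T t ν)) q q' = 0 := by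
  unfold Xm
  have e' : (T t μ * star (T t ν)) (ev t n h0 q') = T t μ (star (T t ν) (ev t n h0 q')) := rfl
  rw [e']
  unfold ev
  rw [inner_T, hz]
  simp

lemma Err_mono (ht : IsCuntz t) (L R : ℕ) (h0 : K) (hn : ‖h0‖ = 1) (μ ν : Wrd)
    (hμ : μ.length ≤ L) (hν : ν.length ≤ L) (h : K) (q : Wrd) (hq : q ∈ win L R) :
    ‖Err t L R h0 (T t μ * star (T t ν)) h q‖ ^ 2 ≤
      if (¬ (L + μ.length ≤ q.length + ν.length ∧ q.length + ν.length < L + R + μ.length)) then
        ‖Wo t R q ((T t μ * star (T t ν)) h)‖ ^ 2 else 0 := by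
  rw [mem_win] at hq
  rcases pre_or ht μ q (by omega) with ⟨u, rfl⟩ | ⟨hne, -, hz⟩
  · have hlen : (μ ++ u).length = μ.length + u.length := List.length_append
    have e1 : Err t L R h0 (T t μ * star (T t ν)) h (μ ++ u) =
        Wo t R (μ ++ u) ((T t μ * star (T t ν)) h) -
          ∑ q' ∈ win L R, (if q' = ν ++ u then (1 : ℂ) else 0) • Wo t R q' h := by
      unfold Err
      congr 1
      refine Finset.sum_congr rfl fun q' hq' => ?_
      rw [mem_win] at hq'
      rw [Xm_mono ht (L + R) h0 hn μ ν u q' (by omega) (by omega) (by omega)]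
    have e2 : Wo t R (μ ++ u) ((T t μ * star (T t ν)) h) = Wo t R (ν ++ u) h := by
      unfold Wo
      rw [ContinuousLinearMap.smul_apply, ContinuousLinearMap.smul_apply, apply_mul]
      congr 2
      rw [T_append, T_append, star_mul, star_mul, mul_assoc, ← mul_assoc (star (T t μ)),
        T_iso ht, one_mul]
    by_cases hin : ν ++ u ∈ win L R
    · have e3 : ∑ q' ∈ win L R, (if q' = ν ++ u then (1 : ℂ) else 0) • Wo t R q' h =
          Wo t R (ν ++ u) h := by
        rw [Finset.sum_eq_single (ν ++ u)]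
        · simp
        · intro b _ hb; simp [hb]
        · intro hb; exact absurd hin hb
      rw [e1, e2, e3, sub_self, norm_zero, zero_pow two_ne_zero]
      split_ifs <;> positivity
    · have e3 : ∑ q' ∈ win L R, (if q' = ν ++ u then (1 : ℂ) else 0) • Wo t R q' h = 0 := by
        refine Finset.sum_eq_zero fun q' hq' => ?_
        rw [if_neg, zero_smul]
        rintro rfl
        exact hin hq'
      rw [mem_win, List.length_append] at hin
      rw [e1, e3, sub_zero, if_pos]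
      intro h
      apply hin
      omega
  · have e1 : Err t L R h0 (T t μ * star (T t ν)) h q = 0 := by
      unfold Err
      rw [Finset.sum_eq_zero (fun q' _ => by rw [Xm_zero ht _ _ _ _ _ _ hz, zero_smul]), sub_zero]
      unfold Wo
      rw [ContinuousLinearMap.smul_apply, apply_mul, ← mul_assoc, hz]
      simp
    rw [e1, norm_zero, zero_pow two_ne_zero]
    split_ifs <;> positivity

lemma card_bad (L R a b : ℕ) :
    ((Finset.Ico L (L + R)).filter
      (fun l => ¬ (L + a ≤ l + b ∧ l + b < L + R + a))).card ≤ a + b := by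
  have hs : ((Finset.Ico L (L + R)).filter
      (fun l => ¬ (L + a ≤ l + b ∧ l + b < L + R + a))) ⊆
      Finset.Ico L (L + a) ∪ Finset.Ico (L + R - b) (L + R) := by
    intro l hl
    simp only [Finset.mem_filter, Finset.mem_Ico, Finset.mem_union] at *
    omega
  refine (Finset.card_le_card hs).trans ((Finset.card_union_le _ _).trans ?_)
  simp only [Nat.card_Ico]
  omega

/-- good approximability -/
def Pr (t : Fin 2 → (K →L[ℂ] K)) (h0 : K) (B : K →L[ℂ] K) : Prop :=
  ∃ (L0 : ℕ) (C : ℝ), 0 ≤ C ∧ ∀ L R : ℕ, L0 ≤ L → 1 ≤ R → ∀ h : K,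
    ∑ q ∈ win L R, ‖Err t L R h0 B h q‖ ^ 2 ≤ C / R * ‖h‖ ^ 2

lemma Pr_mono (ht : IsCuntz t) (h0 : K) (hn : ‖h0‖ = 1) (μ ν : Wrd) :
    Pr t h0 (T t μ * star (T t ν)) := by
  refine ⟨max μ.length ν.length, (μ.length + ν.length : ℕ), by positivity, ?_⟩
  intro L R hL hR h
  have h1 : ∑ q ∈ win L R, ‖Err t L R h0 (T t μ * star (T t ν)) h q‖ ^ 2 ≤
      ∑ q ∈ win L R, (if (¬ (L + μ.length ≤ q.length + ν.length ∧
          q.length + ν.length < L + R + μ.length)) then
        ‖Wo t R q ((T t μ * star (T t ν)) h)‖ ^ 2 else 0) :=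
    Finset.sum_le_sum fun q hq => Err_mono ht L R h0 hn μ ν (by omega) (by omega) h q hq
  refine h1.trans ?_
  rw [sum_win]
  have h2 : ∀ l ∈ Finset.Ico L (L + R), ∑ q ∈ Wd l, (if (¬ (L + μ.length ≤ q.length + ν.length ∧
          q.length + ν.length < L + R + μ.length)) then
        ‖Wo t R q ((T t μ * star (T t ν)) h)‖ ^ 2 else 0) =
      if (¬ (L + μ.length ≤ l + ν.length ∧ l + ν.length < L + R + μ.length)) then
        (R : ℝ)⁻¹ * ‖(T t μ * star (T t ν)) h‖ ^ 2 else 0 := by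
    intro l _
    by_cases hb : (¬ (L + μ.length ≤ l + ν.length ∧ l + ν.length < L + R + μ.length))
    · rw [if_pos hb, ← parseval ht l ((T t μ * star (T t ν)) h), Finset.mul_sum]
      refine Finset.sum_congr rfl fun q hq => ?_
      rw [mem_Wd] at hq
      rw [hq, if_pos hb, Wo_sq]
    · rw [if_neg hb]
      refine Finset.sum_eq_zero fun q hq => ?_
      rw [mem_Wd] at hq
      rw [hq, if_neg hb]
  rw [Finset.sum_congr rfl h2, ← Finset.sum_filter, Finset.sum_const, nsmul_eq_mul]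
  have h3 : ‖(T t μ * star (T t ν)) h‖ ≤ ‖h‖ := by
    have : (T t μ * star (T t ν)) h = T t μ (star (T t ν) h) := rfl
    rw [this, norm_iso (T_iso ht μ)]
    calc ‖star (T t ν) h‖ ≤ ‖star (T t ν)‖ * ‖h‖ := ContinuousLinearMap.le_opNorm _ _
      _ ≤ 1 * ‖h‖ := by
        gcongr
        rw [norm_star]
        exact T_norm_le ht ν
      _ = ‖h‖ := one_mul _
  have h4 := card_bad L R μ.length ν.length
  calc _ ≤ ((μ.length + ν.length : ℕ) : ℝ) * ((R : ℝ)⁻¹ * ‖h‖ ^ 2) := by gcongr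
    _ = _ := by rw [div_eq_mul_inv]; ring

lemma sq_add_le (x y : K) : ‖x + y‖ ^ 2 ≤ 2 * ‖x‖ ^ 2 + 2 * ‖y‖ ^ 2 := by
  have := norm_add_le x y
  nlinarith [sq_nonneg (‖x‖ - ‖y‖), norm_nonneg (x + y), norm_nonneg x, norm_nonneg y]

lemma Pr_add (h0 : K) (A B : K →L[ℂ] K) (hA : Pr t h0 A) (hB : Pr t h0 B) : Pr t h0 (A + B) := by
  obtain ⟨L1, C1, hC1, H1⟩ := hA
  obtain ⟨L2, C2, hC2, H2⟩ := hB
  refine ⟨max L1 L2, 2 * C1 + 2 * C2, by positivity, ?_⟩
  intro L R hL hR h
  have h1 := H1 L R (by omega) hR h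
  have h2 := H2 L R (by omega) hR h
  calc ∑ q ∈ win L R, ‖Err t L R h0 (A + B) h q‖ ^ 2
      ≤ ∑ q ∈ win L R, (2 * ‖Err t L R h0 A h q‖ ^ 2 + 2 * ‖Err t L R h0 B h q‖ ^ 2) :=
        Finset.sum_le_sum fun q _ => by rw [Err_add]; exact sq_add_le _ _
    _ = 2 * ∑ q ∈ win L R, ‖Err t L R h0 A h q‖ ^ 2 +
        2 * ∑ q ∈ win L R, ‖Err t L R h0 B h q‖ ^ 2 := by
        rw [Finset.sum_add_distrib, Finset.mul_sum, Finset.mul_sum]
    _ ≤ 2 * (C1 / R * ‖h‖ ^ 2) + 2 * (C2 / R * ‖h‖ ^ 2) := by linarith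
    _ = _ := by ring

lemma Pr_smul (h0 : K) (c : ℂ) (A : K →L[ℂ] K) (hA : Pr t h0 A) : Pr t h0 (c • A) := by
  obtain ⟨L1, C1, hC1, H1⟩ := hA
  refine ⟨L1, ‖c‖ ^ 2 * C1, by positivity, ?_⟩
  intro L R hL hR h
  have h1 := H1 L R hL hR h
  calc ∑ q ∈ win L R, ‖Err t L R h0 (c • A) h q‖ ^ 2
      = ‖c‖ ^ 2 * ∑ q ∈ win L R, ‖Err t L R h0 A h q‖ ^ 2 := by
        rw [Finset.mul_sum]
        refine Finset.sum_congr rfl fun q _ => ?_
        rw [Err_smul, norm_smul, mul_pow]
    _ ≤ ‖c‖ ^ 2 * (C1 / R * ‖h‖ ^ 2) := by gcongr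
    _ = _ := by ring

lemma Pr_zero (h0 : K) (A : K →L[ℂ] K) (hA : Pr t h0 A) : Pr t h0 0 := by
  have := Pr_smul h0 0 A hA
  rwa [zero_smul] at this

lemma Pr_span (ht : IsCuntz t) (h0 : K) (hn : ‖h0‖ = 1) (B : K →L[ℂ] K)
    (hB : B ∈ Submodule.span ℂ {B : K →L[ℂ] K | ∃ μ ν : Wrd, B = T t μ * star (T t ν)}) :
    Pr t h0 B := by
  induction hB using Submodule.span_induction with
  | mem x hx =>
    obtain ⟨μ, ν, rfl⟩ := hx
    exact Pr_mono ht h0 hn μ ν
  | zero => exact Pr_zero h0 _ (Pr_mono ht h0 hn [] [])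
  | add x y _ _ hx hy => exact Pr_add h0 x y hx hy
  | smul c x _ hx => exact Pr_smul h0 c x hx

end Vale.Agent.P083.Nuc
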