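import Mathlib

/-!
# P083, module NUC: a matrix inequality for vector valued functions
-/

open scoped InnerProductSpace ComplexConjugate

namespace Vale.Agent.P083.Nuc

universe u

theorem kval {K : Type u} [NormedAddCommGroup K] [InnerProductSpace ℂ K] {Q : Type} [Fintype Q]
    (x : Matrix Q Q ℂ) (c : ℝ)
    (hx : ∀ f : Q → ℂ, ∑ q, ‖x.mulVec f q‖ ^ 2 ≤ c * ∑ q, ‖f q‖ ^ 2) (w : Q → K) :
    ∑ q, ‖∑ q', x q q' • w q'‖ ^ 2 ≤ c * ∑ q, ‖w q‖ ^ 2 := by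
  classical
  set S : Submodule ℂ K := Submodule.span ℂ (Set.range w) with hS
  have : FiniteDimensional ℂ S := FiniteDimensional.span_of_finite ℂ (Set.finite_range w)
  let b := stdOrthonormalBasis ℂ S
  let v : Q → S := fun q => ⟨w q, Submodule.subset_span ⟨q, rfl⟩⟩
  have hv : ∀ q, ((v q : S) : K) = w q := fun q => rfl
  have hnorm : ∀ s : S, ‖s‖ ^ 2 = ∑ i, ‖⟪b i, s⟫_ℂ‖ ^ 2 := by
    intro s
    exact (b.sum_sq_norm_inner_right s).symm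
  have h1 : ∀ q, ‖w q‖ ^ 2 = ∑ i, ‖⟪b i, v q⟫_ℂ‖ ^ 2 := by
    intro q
    rw [← hnorm (v q), ← hv q]
    rfl
  have h2 : ∀ q, ‖∑ q', x q q' • w q'‖ ^ 2
      = ∑ i, ‖x.mulVec (fun q' => ⟪b i, v q'⟫_ℂ) q‖ ^ 2 := by
    intro q
    have e1 : (∑ q', x q q' • w q') = ((∑ q', x q q' • v q' : S) : K) := by
      simp [hv]
    rw [e1]
    have e2 : ‖((∑ q', x q q' • v q' : S) : K)‖ = ‖(∑ q', x q q' • v q' : S)‖ := rfl
    rw [e2, hnorm]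
    refine Finset.sum_congr rfl fun i _ => ?_
    congr 2
    rw [inner_sum]
    simp only [Matrix.mulVec, dotProduct, inner_smul_right]
  calc ∑ q, ‖∑ q', x q q' • w q'‖ ^ 2
      = ∑ q, ∑ i, ‖x.mulVec (fun q' => ⟪b i, v q'⟫_ℂ) q‖ ^ 2 :=
        Finset.sum_congr rfl fun q _ => h2 q
    _ = ∑ i, ∑ q, ‖x.mulVec (fun q' => ⟪b i, v q'⟫_ℂ) q‖ ^ 2 := Finset.sum_comm
    _ ≤ ∑ i, c * ∑ q, ‖⟪b i, v q⟫_ℂ‖ ^ 2 :=
        Finset.sum_le_sum fun i _ => hx _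
    _ = c * ∑ q, ∑ i, ‖⟪b i, v q⟫_ℂ‖ ^ 2 := by
        rw [← Finset.mul_sum, Finset.sum_comm]
    _ = c * ∑ q, ‖w q‖ ^ 2 := by
        congr 1
        exact Finset.sum_congr rfl fun q _ => (h1 q).symm

end Vale.Agent.P083.Nuc
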