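import Vale.Agent.P083.Nuc
import Vale.Agent.P083.NucA

/-!
# P083, module NUC: final assembly
-/

open scoped InnerProductSpace ComplexConjugate

namespace Vale.Agent.P083.Nuc

universe u

variable {K : Type u} [NormedAddCommGroup K] [InnerProductSpace ℂ K] [CompleteSpace K]
variable {t : Fin 2 → (K →L[ℂ] K)}

theorem adjoin_span (ht : IsCuntz t) (B : K →L[ℂ] K)
    (hB : B ∈ StarAlgebra.adjoin ℂ (Set.range t)) :
    B ∈ Submodule.span ℂ {B : K →L[ℂ] K | ∃ μ ν : Wrd, B = T t μ * star (T t ν)} := by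
  have h1 : B ∈ Submodule.span ℂ ((Submonoid.closure (Set.range t ∪ star (Set.range t)) :
      Submonoid (K →L[ℂ] K)) : Set (K →L[ℂ] K)) := by
    rw [← StarAlgebra.adjoin_eq_span]
    exact hB
  have h2 : ∀ x ∈ Submonoid.closure (Set.range t ∪ star (Set.range t)),
      x = 0 ∨ ∃ μ ν : Wrd, x = T t μ * star (T t ν) := by
    intro x hx
    induction hx using Submonoid.closure_induction_left with
    | one => exact Or.inr ⟨[], [], by simp [T]⟩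
    | mul_left x hx y hy ih =>
      rcases ih with rfl | ⟨μ, ν, rfl⟩
      · left; simp
      · rcases hx with ⟨i, rfl⟩ | hx
        · exact Or.inr ⟨i :: μ, ν, by simp [T, mul_assoc]⟩
        · obtain ⟨i, hi⟩ := hx
          have hx' : x = star (t i) := by rw [hi, star_star]
          subst hx'
          cases μ with
          | nil => exact Or.inr ⟨[], ν ++ [i], by rw [T_append]; simp [T]⟩
          | cons j μ =>
            by_cases hij : i = j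
            · subst hij
              right
              refine ⟨μ, ν, ?_⟩
              simp only [T]
              rw [← mul_assoc, ← mul_assoc, ht.iso, one_mul]
            · left
              simp only [T]
              rw [← mul_assoc, ← mul_assoc, orth ht i j hij, zero_mul, zero_mul]
  have h3 : Submodule.span ℂ ((Submonoid.closure (Set.range t ∪ star (Set.range t)) :
      Submonoid (K →L[ℂ] K)) : Set (K →L[ℂ] K)) ≤
      Submodule.span ℂ {B : K →L[ℂ] K | ∃ μ ν : Wrd, B = T t μ * star (T t ν)} := by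
    refine Submodule.span_le.2 ?_
    intro x hx
    rcases h2 x hx with rfl | h
    · exact Submodule.zero_mem _
    · exact Submodule.subset_span h
  exact h3 h1

lemma ev_orthonormal (ht : IsCuntz t) (L R : ℕ) (h0 : K) (hn : ‖h0‖ = 1) :
    Orthonormal ℂ (fun q : ↥(win L R) => ev t (L + R) h0 q.1) := by
  rw [orthonormal_iff_ite]
  intro q q'
  have h1 := (mem_win L R q.1).1 q.2
  have h2 := (mem_win L R q'.1).1 q'.2
  rw [ev_inner ht (L + R) h0 hn q.1 q'.1 (by omega) (by omega)]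
  by_cases h : q = q'
  · simp [h]
  · rw [if_neg h, if_neg (fun h' => h (Subtype.ext h'))]

lemma contr (ht : IsCuntz t) (L R : ℕ) (h0 : K) (hn : ‖h0‖ = 1) (A : K →L[ℂ] K)
    (f : ↥(win L R) → ℂ) :
    ∑ q : ↥(win L R), ‖∑ q' : ↥(win L R), Xm t (L + R) h0 A q.1 q'.1 * f q'‖ ^ 2 ≤
      ‖A‖ ^ 2 * ∑ q, ‖f q‖ ^ 2 := by
  have ho := ev_orthonormal ht L R h0 hn
  set z : K := ∑ q' : ↥(win L R), f q' • ev t (L + R) h0 q'.1 with hz
  have e1 : ∀ q : ↥(win L R), ∑ q' : ↥(win L R), Xm t (L + R) h0 A q.1 q'.1 * f q' =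
      ⟪ev t (L + R) h0 q.1, A z⟫_ℂ := by
    intro q
    rw [hz, map_sum, inner_sum]
    refine Finset.sum_congr rfl fun q' _ => ?_
    rw [map_smul, inner_smul_right, mul_comm]; rfl
  simp only [e1]
  have e2 : ∑ q : ↥(win L R), ‖⟪ev t (L + R) h0 q.1, A z⟫_ℂ‖ ^ 2 ≤ ‖A z‖ ^ 2 :=
    ho.sum_inner_products_le (A z)
  have e3 : ‖z‖ ^ 2 = ∑ q, ‖f q‖ ^ 2 := by
    have h1 := ho.inner_sum f f Finset.univ
    rw [← hz, inner_self_eq_norm_sq_to_K] at h1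
    have h2 : ∀ i : ↥(win L R), (starRingEnd ℂ) (f i) * f i = ((‖f i‖ ^ 2 : ℝ) : ℂ) := by
      intro i
      rw [mul_comm, Complex.mul_conj, Complex.normSq_eq_norm_sq]
    simp only [h2] at h1
    have h3 : ((‖z‖ ^ 2 : ℝ) : ℂ) = ((∑ q, ‖f q‖ ^ 2 : ℝ) : ℂ) := by
      rw [Complex.ofReal_sum, ← h1]
      simp
    exact Complex.ofReal_injective h3
  have e4 : ‖A z‖ ≤ ‖A‖ * ‖z‖ := A.le_opNorm z
  calc _ ≤ ‖A z‖ ^ 2 := e2
    _ ≤ (‖A‖ * ‖z‖) ^ 2 := by gcongr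
    _ = ‖A‖ ^ 2 * ∑ q, ‖f q‖ ^ 2 := by rw [mul_pow, e3]

lemma sq_sub_le (x y : K) : ‖x - y‖ ^ 2 ≤ 2 * ‖x‖ ^ 2 + 2 * ‖y‖ ^ 2 := by
  have := norm_sub_le x y
  nlinarith [sq_nonneg (‖x‖ - ‖y‖), norm_nonneg (x - y), norm_nonneg x, norm_nonneg y]

lemma err_bound (ht : IsCuntz t) (L R : ℕ) (hR : 1 ≤ R) (h0 : K) (hn : ‖h0‖ = 1)
    (D : K →L[ℂ] K) (h : K) :
    ∑ q ∈ win L R, ‖Err t L R h0 D h q‖ ^ 2 ≤ 4 * ‖D‖ ^ 2 * ‖h‖ ^ 2 := by
  have h1 : ∑ q ∈ win L R, ‖Err t L R h0 D h q‖ ^ 2 ≤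
      2 * ∑ q ∈ win L R, ‖Wo t R q (D h)‖ ^ 2 +
      2 * ∑ q ∈ win L R, ‖∑ q' ∈ win L R, Xm t (L + R) h0 D q q' • Wo t R q' h‖ ^ 2 := by
    rw [Finset.mul_sum, Finset.mul_sum, ← Finset.sum_add_distrib]
    exact Finset.sum_le_sum fun q _ => sq_sub_le _ _
  have h2 := sum_W ht L R hR (D h)
  have h3 : ∑ q ∈ win L R, ‖∑ q' ∈ win L R, Xm t (L + R) h0 D q q' • Wo t R q' h‖ ^ 2 ≤
      ‖D‖ ^ 2 * ‖h‖ ^ 2 := by
    have h4 := kval (Matrix.of fun q q' : ↥(win L R) => Xm t (L + R) h0 D q.1 q'.1) (‖D‖ ^ 2)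
      (fun f => contr ht L R h0 hn D f) (fun q => Wo t R q.1 h)
    have h5 : ∀ q : Wrd, ∑ q' : ↥(win L R), Xm t (L + R) h0 D q q'.1 • Wo t R q'.1 h =
        ∑ q' ∈ win L R, Xm t (L + R) h0 D q q' • Wo t R q' h := fun q =>
      Finset.sum_coe_sort (win L R) (fun q' => Xm t (L + R) h0 D q q' • Wo t R q' h)
    have h6 : ∑ q : ↥(win L R), ‖Wo t R q.1 h‖ ^ 2 = ‖h‖ ^ 2 := by
      rw [Finset.sum_coe_sort (win L R) (fun q => ‖Wo t R q h‖ ^ 2), sum_W ht L R hR]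
    simp only [Matrix.of_apply, h5, h6] at h4
    rwa [Finset.sum_coe_sort (win L R)
      (fun q => ‖∑ q' ∈ win L R, Xm t (L + R) h0 D q q' • Wo t R q' h‖ ^ 2)] at h4
  have h7 : ‖D h‖ ^ 2 ≤ ‖D‖ ^ 2 * ‖h‖ ^ 2 := by
    rw [← mul_pow]
    have := D.le_opNorm h
    gcongr
  rw [h2] at h1
  linarith

theorem nuc : S_NUC.{u} := by
  intro K _ _ _ _ t ht A hA ε hε
  obtain ⟨v, hv⟩ := exists_ne (0 : K)
  obtain ⟨h0, hn⟩ : ∃ h0 : K, ‖h0‖ = 1 := ⟨((‖v‖⁻¹ : ℝ) : ℂ) • v, by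
    rw [norm_smul, Complex.norm_real, norm_inv, norm_norm, inv_mul_cancel₀ (norm_ne_zero_iff.2 hv)]⟩
  have hB : ∀ a : Gen, ∃ B : K →L[ℂ] K, B ∈ StarAlgebra.adjoin ℂ (Set.range t) ∧
      ‖A a - B‖ < ε / 4 := by
    intro a
    have h1 : A a ∈ closure ((StarAlgebra.adjoin ℂ (Set.range t) : StarSubalgebra ℂ (K →L[ℂ] K)) :
        Set (K →L[ℂ] K)) := hA a
    obtain ⟨B, hB, hd⟩ := Metric.mem_closure_iff.1 h1 (ε / 4) (by positivity)
    exact ⟨B, hB, by rwa [dist_eq_norm] at hd⟩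
  choose B hB1 hB2 using hB
  have hP : ∀ a, Pr t h0 (B a) := fun a => Pr_span ht h0 hn (B a) (adjoin_span ht (B a) (hB1 a))
  choose L0 C hC H using hP
  obtain ⟨R, hR⟩ := exists_nat_ge (1 + 4 * (∑ a, C a) / ε ^ 2)
  have hCs : 0 ≤ ∑ a, C a := Finset.sum_nonneg fun a _ => hC a
  have hR1' : (1 : ℝ) ≤ R := by
    have : 0 ≤ 4 * (∑ a, C a) / ε ^ 2 := by positivity
    linarith
  have hR1 : 1 ≤ R := by exact_mod_cast hR1'
  set L : ℕ := ∑ a, L0 a with hL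
  have hL0 : ∀ a, L0 a ≤ L := fun a => Finset.single_le_sum (fun _ _ => Nat.zero_le _)
    (Finset.mem_univ a)
  refine ⟨↥(win L R), inferInstance, inferInstance, fun q => Wo t R q.1,
    fun a => Matrix.of fun q q' => Xm t (L + R) h0 (A a) q.1 q'.1, ?_, ?_, ?_⟩
  · intro h
    rw [Finset.sum_coe_sort (win L R) (fun q => ‖Wo t R q h‖ ^ 2), sum_W ht L R hR1]
  · intro a f
    exact contr ht L R h0 hn (A a) f
  · intro a h
    have e : ∀ q : Wrd, ∑ q' : ↥(win L R), Xm t (L + R) h0 (A a) q q'.1 • Wo t R q'.1 h =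
        ∑ q' ∈ win L R, Xm t (L + R) h0 (A a) q q' • Wo t R q' h := fun q =>
      Finset.sum_coe_sort (win L R) (fun q' => Xm t (L + R) h0 (A a) q q' • Wo t R q' h)
    simp only [Matrix.of_apply, e]
    rw [Finset.sum_coe_sort (win L R)
      (fun q => ‖Wo t R q (A a h) - ∑ q' ∈ win L R, Xm t (L + R) h0 (A a) q q' • Wo t R q' h‖ ^ 2)]
    have e1 : ∀ q, Wo t R q (A a h) - ∑ q' ∈ win L R, Xm t (L + R) h0 (A a) q q' • Wo t R q' h =
        Err t L R h0 (B a) h q + Err t L R h0 (A a - B a) h q := by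
      intro q
      rw [← Err_add, add_sub_cancel]
      rfl
    simp only [e1]
    have h1 : ∑ q ∈ win L R, ‖Err t L R h0 (B a) h q + Err t L R h0 (A a - B a) h q‖ ^ 2 ≤
        2 * ∑ q ∈ win L R, ‖Err t L R h0 (B a) h q‖ ^ 2 +
        2 * ∑ q ∈ win L R, ‖Err t L R h0 (A a - B a) h q‖ ^ 2 := by
      rw [Finset.mul_sum, Finset.mul_sum, ← Finset.sum_add_distrib]
      exact Finset.sum_le_sum fun q _ => sq_add_le _ _
    have h2 := H a L R (hL0 a) hR1 h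
    have h3 := err_bound ht L R hR1 h0 hn (A a - B a) h
    have h4 : ‖A a - B a‖ ^ 2 ≤ (ε / 4) ^ 2 := by
      have := (hB2 a).le
      gcongr
    have h5 : C a / R ≤ ε ^ 2 / 4 := by
      rw [div_le_iff₀ (by linarith)]
      have h6 : C a ≤ ∑ a, C a := Finset.single_le_sum (fun b _ => hC b) (Finset.mem_univ a)
      have h7 : 4 * (∑ a, C a) / ε ^ 2 ≤ R := by linarith
      rw [div_le_iff₀ (by positivity)] at h7
      linarith
    have h8 : C a / R * ‖h‖ ^ 2 ≤ ε ^ 2 / 4 * ‖h‖ ^ 2 := by gcongr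
    have h9 : 4 * ‖A a - B a‖ ^ 2 * ‖h‖ ^ 2 ≤ 4 * (ε / 4) ^ 2 * ‖h‖ ^ 2 := by gcongr
    nlinarith [sq_nonneg ‖h‖]

end Vale.Agent.P083.Nuc
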