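import Mathlib

/-!
# A representation in which a given element attains its norm
-/

open scoped ComplexOrder InnerProductSpace

namespace Vale.Agent.P083.Rep

universe u

/-- there is a state with `f a = ‖a‖` -/
lemma exists_functional {B : Type u} [CStarAlgebra B] [Nontrivial B] [PartialOrder B]
    [StarOrderedRing B] (a : B) (ha : 0 ≤ a) :
    ∃ g : B →L[ℂ] ℂ, g 1 = 1 ∧ g a = (‖a‖ : ℂ) ∧ ∀ x, ‖g x‖ ≤ ‖x‖ := by
  have hsa : IsSelfAdjoint a := .of_nonneg ha
  have hn : IsStarNormal a := hsa.isStarNormal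
  let C := StarAlgebra.elemental ℂ a
  have hCc : IsClosed (C : Set B) := StarAlgebra.elemental.isClosed ℂ a
  let a' : C := ⟨a, StarAlgebra.elemental.self_mem ℂ a⟩
  have hspec : (‖a‖ : ℂ) ∈ spectrum ℂ a := by
    have h := CStarAlgebra.norm_mem_spectrum_of_nonneg (a := a) ha
    exact spectrum.algebraMap_mem ℂ h
  have hspec' : (‖a‖ : ℂ) ∈ spectrum ℂ a' := by
    rw [StarSubalgebra.spectrum_eq (S := C)]
    exact hspec
  obtain ⟨φ, hφ⟩ := WeakDual.CharacterSpace.mem_spectrum_iff_exists.1 hspec'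
  have hφn : ∀ x : C, ‖φ x‖ ≤ ‖x‖ := fun x =>
    spectrum.norm_le_norm_of_mem (AlgHom.apply_mem_spectrum φ x)
  let p : Subspace ℂ B := C.toSubalgebra.toSubmodule
  let ψ : p →ₗ[ℂ] ℂ :=
    { toFun := fun x => φ ⟨x.1, x.2⟩
      map_add' := fun x y => map_add φ (⟨x.1, x.2⟩ : C) ⟨y.1, y.2⟩
      map_smul' := fun c x => map_smul φ c (⟨x.1, x.2⟩ : C) }
  have hψ : ∀ x : p, ‖ψ x‖ ≤ 1 * ‖x‖ := fun x => by
    rw [one_mul]
    exact hφn ⟨x.1, x.2⟩
  obtain ⟨g, hg1, hg2⟩ := exists_extension_norm_eq p (ψ.mkContinuous 1 hψ)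
  refine ⟨g, ?_, ?_, ?_⟩
  · have h := hg1 ⟨1, C.one_mem⟩
    rw [show g 1 = g ((⟨1, C.one_mem⟩ : p) : B) from rfl, h]
    show φ (1 : C) = 1
    exact map_one φ
  · have h := hg1 ⟨a, StarAlgebra.elemental.self_mem ℂ a⟩
    rw [show g a = g ((⟨a, StarAlgebra.elemental.self_mem ℂ a⟩ : p) : B) from rfl, h]
    exact hφ
  · intro x
    have h1 : ‖g‖ ≤ 1 := by
      rw [hg2]
      exact ψ.mkContinuous_norm_le zero_le_one hψ
    calc ‖g x‖ ≤ ‖g‖ * ‖x‖ := g.le_opNorm x
      _ ≤ 1 * ‖x‖ := by gcongr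
      _ = ‖x‖ := one_mul _

/-- a unital contractive functional is real on self-adjoint elements -/
lemma im_eq_zero {B : Type u} [CStarAlgebra B] [Nontrivial B] {g : B →L[ℂ] ℂ} (h1 : g 1 = 1)
    (hg : ∀ x, ‖g x‖ ≤ ‖x‖) {x : B} (hx : IsSelfAdjoint x) : (g x).im = 0 := by
  have key : ∀ t : ℝ, (g x).re ^ 2 + ((g x).im + t) ^ 2 ≤ ‖x‖ ^ 2 + t ^ 2 := by
    intro t
    have e1 : g (x + (Complex.I * t) • (1 : B)) = g x + Complex.I * t := by
      rw [map_add, map_smul, h1, smul_eq_mul, mul_one]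
    have e2 := hg (x + (Complex.I * t) • (1 : B))
    have e3 : ‖x + (Complex.I * t) • (1 : B)‖ ^ 2 ≤ ‖x‖ ^ 2 + t ^ 2 := by
      rw [sq, ← CStarRing.norm_star_mul_self]
      have e4 : star (x + (Complex.I * t) • (1 : B)) * (x + (Complex.I * t) • (1 : B))
          = star x * x + ((t ^ 2 : ℝ) : ℂ) • (1 : B) := by
        rw [star_add, star_smul, star_one, hx.star_eq]
        simp only [add_mul, mul_add, smul_mul_assoc, mul_smul_comm, one_mul, mul_one]
        have e5 : star (Complex.I * (t : ℂ)) = -(Complex.I * t) := by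
          simp
        rw [e5, smul_add, smul_smul]
        have e6 : -(Complex.I * (t : ℂ)) * (Complex.I * t) = ((t ^ 2 : ℝ) : ℂ) := by
          push_cast
          have := Complex.I_mul_I
          linear_combination (-(t : ℂ) ^ 2) * this
        rw [mul_comm (Complex.I * (t : ℂ)), e6, neg_smul]
        abel
      rw [e4]
      refine (norm_add_le _ _).trans ?_
      rw [CStarRing.norm_star_mul_self, norm_smul, CStarRing.norm_one, mul_one, Complex.norm_real,
        Real.norm_of_nonneg (sq_nonneg t), ← sq]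
    rw [e1] at e2
    have e7 : ‖g x + Complex.I * t‖ ^ 2 = (g x).re ^ 2 + ((g x).im + t) ^ 2 := by
      rw [← Complex.normSq_eq_norm_sq, Complex.normSq_apply]
      simp
      ring
    rw [← e7]
    calc ‖g x + Complex.I * t‖ ^ 2 ≤ ‖x + (Complex.I * t) • (1 : B)‖ ^ 2 := by gcongr
      _ ≤ _ := e3
  by_contra hne
  have k1 := key ((‖x‖ ^ 2 + 1) / (g x).im)
  have h2 : (g x).im * ((‖x‖ ^ 2 + 1) / (g x).im) = ‖x‖ ^ 2 + 1 := by field_simp
  nlinarith [sq_nonneg (g x).re, sq_nonneg (g x).im]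

/-- a unital contractive functional is positive -/
lemma nonneg_of {B : Type u} [CStarAlgebra B] [Nontrivial B] [PartialOrder B] [StarOrderedRing B]
    {g : B →L[ℂ] ℂ} (h1 : g 1 = 1) (hg : ∀ x, ‖g x‖ ≤ ‖x‖) {x : B} (hx : 0 ≤ x) : 0 ≤ g x := by
  have hsa : IsSelfAdjoint x := .of_nonneg hx
  have him := im_eq_zero h1 hg hsa
  have hnorm : ‖(‖x‖ : ℂ) • (1 : B) - x‖ ≤ ‖x‖ := by
    have e1 : (‖x‖ : ℂ) • (1 : B) - x = algebraMap ℝ B ‖x‖ - x := by
      rw [Algebra.algebraMap_eq_smul_one]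
      congr 1
    rw [e1]
    have h0 : 0 ≤ algebraMap ℝ B ‖x‖ - x := by
      rw [sub_nonneg]
      exact (CStarAlgebra.norm_le_iff_le_algebraMap x (norm_nonneg _) hx).1 le_rfl
    rw [CStarAlgebra.norm_le_iff_le_algebraMap _ (norm_nonneg _) h0]
    exact sub_le_self _ hx
  have h2 := (hg ((‖x‖ : ℂ) • (1 : B) - x)).trans hnorm
  rw [map_sub, map_smul, h1, smul_eq_mul, mul_one] at h2
  have h3 := (Complex.abs_re_le_norm _).trans h2
  rw [Complex.sub_re, Complex.ofReal_re] at h3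
  rw [Complex.nonneg_iff]
  exact ⟨by have := le_of_abs_le h3; linarith, him.symm⟩

theorem rep : ∀ (B : Type u) [CStarAlgebra B] (b : B), b ≠ 0 →
    ∃ (K : Type u) (_ : NormedAddCommGroup K) (_ : InnerProductSpace ℂ K) (_ : CompleteSpace K)
      (π : B →⋆ₐ[ℂ] (K →L[ℂ] K)) (h : K), ‖h‖ = 1 ∧ ‖π b h‖ = ‖b‖ := by
  intro B _ b hb
  have hnt : Nontrivial B := ⟨b, 0, hb⟩
  let _ : PartialOrder B := CStarAlgebra.spectralOrder B
  have : StarOrderedRing B := CStarAlgebra.spectralOrderedRing B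
  obtain ⟨g, g1, g2, g3⟩ := exists_functional (star b * b) (star_mul_self_nonneg b)
  let f : B →ₚ[ℂ] ℂ := PositiveLinearMap.mk₀ g.toLinearMap (fun x hx => nonneg_of g1 g3 hx)
  have hf : ∀ x, f x = g x := fun x => rfl
  refine ⟨f.GNS, inferInstance, inferInstance, inferInstance, f.gnsStarAlgHom,
    ((f.toPreGNS 1 : f.PreGNS) : f.GNS), ?_, ?_⟩
  · rw [UniformSpace.Completion.norm_coe, PositiveLinearMap.preGNS_norm_def]
    simp [hf, g1]
  · have e : f.gnsStarAlgHom b ((f.toPreGNS 1 : f.PreGNS) : f.GNS)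
        = ((f.toPreGNS b : f.PreGNS) : f.GNS) := by
      rw [PositiveLinearMap.gnsStarAlgHom_apply]
      have e2 := PositiveLinearMap.gnsNonUnitalStarAlgHom_apply_coe (f := f) (a := b)
        (b := f.toPreGNS 1)
      refine Eq.trans e2 ?_
      simp
    rw [e, UniformSpace.Completion.norm_coe, PositiveLinearMap.preGNS_norm_def]
    simp only [PositiveLinearMap.ofPreGNS_toPreGNS, hf, g2, Complex.ofReal_re,
      CStarRing.norm_star_mul_self]
    exact Real.sqrt_mul_self (norm_nonneg b)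

end Vale.Agent.P083.Rep
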