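import Vale.Agent.P083.Defs

/-!
P083, module SVD: the modulus kernel.
-/

namespace Vale.Agent.P083.SVD

open Matrix Finset
open scoped BigOperators ComplexConjugate Matrix.Norms.L2Operator ComplexOrder

section gen

variable {m n : Type*} [Fintype m] [Fintype n]

/-- Hilbert–Schmidt norm squared -/
noncomputable def hs2 (A : Matrix m n ℂ) : ℝ := ∑ i, ∑ j, ‖A i j‖ ^ 2

/-- Hilbert–Schmidt inner product -/
noncomputable def ip (A B : Matrix m n ℂ) : ℂ := ∑ i, ∑ j, conj (A i j) * B i j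

theorem ip_eq_trace (A B : Matrix m n ℂ) : ip A B = trace (Aᴴ * B) := by
  unfold ip trace
  rw [Finset.sum_comm]
  simp [Matrix.mul_apply, Matrix.conjTranspose_apply]

theorem ip_self (A : Matrix m n ℂ) : ip A A = (hs2 A : ℂ) := by
  unfold ip hs2
  push_cast
  refine Finset.sum_congr rfl fun i _ => Finset.sum_congr rfl fun j _ => ?_
  rw [mul_comm, Complex.mul_conj, Complex.normSq_eq_norm_sq]
  push_cast
  rfl

theorem hs2_nonneg (A : Matrix m n ℂ) : 0 ≤ hs2 A :=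
  Finset.sum_nonneg fun _ _ => Finset.sum_nonneg fun _ _ => by positivity

theorem hs2_sub (A B : Matrix m n ℂ) : hs2 (A - B) = hs2 A + hs2 B - 2 * (ip A B).re := by
  unfold ip hs2
  simp only [Complex.re_sum, Finset.mul_sum, ← Finset.sum_add_distrib, ← Finset.sum_sub_distrib]
  refine Finset.sum_congr rfl fun i _ => Finset.sum_congr rfl fun j _ => ?_
  rw [Matrix.sub_apply, ← Complex.normSq_eq_norm_sq, ← Complex.normSq_eq_norm_sq,
    ← Complex.normSq_eq_norm_sq, Complex.normSq_sub]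
  simp only [Complex.mul_re, Complex.conj_re, Complex.conj_im]
  ring

theorem hs2_sub_comm (A B : Matrix m n ℂ) : hs2 (A - B) = hs2 (B - A) := by
  unfold hs2
  refine Finset.sum_congr rfl fun i _ => Finset.sum_congr rfl fun j _ => ?_
  rw [Matrix.sub_apply, Matrix.sub_apply, norm_sub_rev]

theorem sum_mul_le_real (f g : m → n → ℝ) :
    (∑ i, ∑ j, f i j * g i j) ^ 2 ≤ (∑ i, ∑ j, f i j ^ 2) * ∑ i, ∑ j, g i j ^ 2 := by
  rw [← Fintype.sum_prod_type' (f := fun i j => f i j * g i j),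
    ← Fintype.sum_prod_type' (f := fun i j => f i j ^ 2),
    ← Fintype.sum_prod_type' (f := fun i j => g i j ^ 2)]
  exact Finset.sum_mul_sq_le_sq_mul_sq _ _ _

theorem norm_ip_sq_le (A B : Matrix m n ℂ) : ‖ip A B‖ ^ 2 ≤ hs2 A * hs2 B := by
  have h1 : ‖ip A B‖ ≤ ∑ i, ∑ j, ‖A i j‖ * ‖B i j‖ := by
    refine (norm_sum_le _ _).trans (Finset.sum_le_sum fun i _ => ?_)
    refine (norm_sum_le _ _).trans (Finset.sum_le_sum fun j _ => ?_)
    rw [norm_mul, RCLike.norm_conj]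
  calc ‖ip A B‖ ^ 2 ≤ (∑ i, ∑ j, ‖A i j‖ * ‖B i j‖) ^ 2 := by
        exact pow_le_pow_left₀ (norm_nonneg _) h1 2
    _ ≤ _ := sum_mul_le_real _ _

end gen

section opnorm

variable {m n : Type*} [Fintype m] [Fintype n] [DecidableEq m] [DecidableEq n]

omit [DecidableEq m] in
theorem nrm2_mulVec_le (A : Matrix m n ℂ) (f : n → ℂ) :
    ∑ i, ‖(A *ᵥ f) i‖ ^ 2 ≤ ‖A‖ ^ 2 * ∑ j, ‖f j‖ ^ 2 := by
  have h := l2_opNorm_mulVec A (WithLp.toLp 2 f)
  have h2 := pow_le_pow_left₀ (norm_nonneg _) h 2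
  rw [mul_pow, EuclideanSpace.norm_sq_eq, EuclideanSpace.norm_sq_eq] at h2
  simpa using h2

omit [DecidableEq m] in
theorem opNorm_le_of (A : Matrix m n ℂ) {c : ℝ} (hc : 0 ≤ c)
    (h : ∀ f : n → ℂ, ∑ i, ‖(A *ᵥ f) i‖ ^ 2 ≤ c ^ 2 * ∑ j, ‖f j‖ ^ 2) : ‖A‖ ≤ c := by
  rw [l2_opNorm_def]
  refine ContinuousLinearMap.opNorm_le_bound _ hc fun f => ?_
  have h1 := h (WithLp.ofLp f)
  rw [← EuclideanSpace.norm_sq_eq] at h1
  have h2 : ‖(toEuclideanLin A) f‖ ^ 2 = ∑ i, ‖(A *ᵥ WithLp.ofLp f) i‖ ^ 2 := by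
    rw [EuclideanSpace.norm_sq_eq]
    rfl
  have h3 : ‖(toEuclideanLin A) f‖ ^ 2 ≤ (c * ‖f‖) ^ 2 := by
    rw [h2, mul_pow]; exact h1
  exact le_of_sq_le_sq h3 (by positivity)

omit [DecidableEq m] in
theorem col_le (A : Matrix m n ℂ) (j : n) : ∑ i, ‖A i j‖ ^ 2 ≤ ‖A‖ ^ 2 := by
  have h := nrm2_mulVec_le A (Pi.single j 1)
  rw [Matrix.mulVec_single_one] at h
  have e : ∑ k, ‖(Pi.single j (1 : ℂ) : n → ℂ) k‖ ^ 2 = 1 := by
    rw [Finset.sum_eq_single j]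
    · simp
    · intro b _ hb; simp [Pi.single_eq_of_ne hb]
    · simp
  rw [e, mul_one] at h
  exact h

theorem row_le (A : Matrix m n ℂ) (i : m) : ∑ j, ‖A i j‖ ^ 2 ≤ ‖A‖ ^ 2 := by
  have h := col_le Aᴴ i
  rw [l2_opNorm_conjTranspose] at h
  simpa [Matrix.conjTranspose_apply] using h

theorem weighted_le (X : Matrix n n ℂ) (σ : n → ℝ) (hσ : ∑ i, σ i ^ 2 = 1) :
    ∑ i, ∑ j, σ i * σ j * ‖X i j‖ ^ 2 ≤ ‖X‖ ^ 2 := by
  have h1 : ∀ i j, σ i * σ j * ‖X i j‖ ^ 2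
      ≤ σ i ^ 2 / 2 * ‖X i j‖ ^ 2 + σ j ^ 2 / 2 * ‖X i j‖ ^ 2 := by
    intro i j
    have : 0 ≤ (σ i - σ j) ^ 2 * ‖X i j‖ ^ 2 := by positivity
    nlinarith
  calc ∑ i, ∑ j, σ i * σ j * ‖X i j‖ ^ 2
      ≤ ∑ i, ∑ j, (σ i ^ 2 / 2 * ‖X i j‖ ^ 2 + σ j ^ 2 / 2 * ‖X i j‖ ^ 2) :=
        Finset.sum_le_sum fun i _ => Finset.sum_le_sum fun j _ => h1 i j
    _ = ∑ i, σ i ^ 2 / 2 * ∑ j, ‖X i j‖ ^ 2 + ∑ j, σ j ^ 2 / 2 * ∑ i, ‖X i j‖ ^ 2 := by
        simp only [Finset.sum_add_distrib, Finset.mul_sum]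
        congr 1
        rw [Finset.sum_comm]
    _ ≤ ∑ i, σ i ^ 2 / 2 * ‖X‖ ^ 2 + ∑ j, σ j ^ 2 / 2 * ‖X‖ ^ 2 := by
        refine add_le_add (Finset.sum_le_sum fun i _ => ?_) (Finset.sum_le_sum fun j _ => ?_)
        · exact mul_le_mul_of_nonneg_left (row_le X i) (by positivity)
        · exact mul_le_mul_of_nonneg_left (col_le X j) (by positivity)
    _ = ‖X‖ ^ 2 := by
        rw [← Finset.sum_mul, ← Finset.sum_div, hσ]
        ring

end opnorm

section core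

variable {ι Q : Type*} [Fintype ι] [DecidableEq ι] [Fintype Q] [DecidableEq Q]

omit [DecidableEq Q] in
theorem norm_le_one_of (B : Matrix Q ι ℂ) (d : ι → ℂ) (hd : ∀ i, ‖d i‖ ≤ 1)
    (h : Bᴴ * B = diagonal d) : ‖B‖ ≤ 1 := by
  have h1 := l2_opNorm_conjTranspose_mul_self B
  rw [h, l2_opNorm_diagonal] at h1
  have h2 : ‖d‖ ≤ 1 := (pi_norm_le_iff_of_nonneg zero_le_one).2 hd
  nlinarith [norm_nonneg B]

theorem unitary_norm_le (U : Matrix ι ι ℂ) (hU : Uᴴ * U = 1) : ‖U‖ ≤ 1 :=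
  norm_le_one_of U (fun _ => 1) (by simp) (by rw [hU, diagonal_one])

/-- the kernel `U diag(σ) Uᴴ` -/
noncomputable def ker (U : Matrix ι ι ℂ) (σ : ι → ℝ) : Matrix ι ι ℂ :=
  U * diagonal (fun i => (σ i : ℂ)) * Uᴴ

omit [Fintype ι] in
theorem diag_conjTranspose (σ : ι → ℝ) :
    (diagonal (fun i => (σ i : ℂ)))ᴴ = diagonal (fun i => (σ i : ℂ)) := by
  rw [diagonal_conjTranspose]
  congr 1
  ext i
  simp

theorem ker_conjTranspose (U : Matrix ι ι ℂ) (σ : ι → ℝ) : (ker U σ)ᴴ = ker U σ := by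
  unfold ker
  rw [conjTranspose_mul, conjTranspose_mul, conjTranspose_conjTranspose, diag_conjTranspose,
    Matrix.mul_assoc]

theorem ip_ker (U U' : Matrix ι ι ℂ) (σ : ι → ℝ) :
    ip (ker U σ) (ker U' σ) = ((∑ i, ∑ j, σ i * σ j * ‖(Uᴴ * U') i j‖ ^ 2 : ℝ) : ℂ) := by
  rw [ip_eq_trace, ker_conjTranspose]
  have e : trace (ker U σ * ker U' σ)
      = trace (diagonal (fun i => (σ i : ℂ)) * (Uᴴ * U') * diagonal (fun i => (σ i : ℂ))
          * (Uᴴ * U')ᴴ) := by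
    unfold ker
    rw [conjTranspose_mul, conjTranspose_conjTranspose]
    have h1 : U * diagonal (fun i => (σ i : ℂ)) * Uᴴ * (U' * diagonal (fun i => (σ i : ℂ)) * U'ᴴ)
        = U * (diagonal (fun i => (σ i : ℂ)) * Uᴴ * (U' * diagonal (fun i => (σ i : ℂ)) * U'ᴴ)) := by
      simp only [Matrix.mul_assoc]
    rw [h1, trace_mul_comm]
    congr 1
    simp only [Matrix.mul_assoc]
  rw [e]
  unfold trace
  push_cast
  refine Finset.sum_congr rfl fun i _ => ?_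
  rw [diag_apply, Matrix.mul_apply]
  refine Finset.sum_congr rfl fun j _ => ?_
  rw [mul_diagonal, diagonal_mul, conjTranspose_apply, ← starRingEnd_apply]
  have h2 := Complex.mul_conj ((Uᴴ * U') i j)
  rw [Complex.normSq_eq_norm_sq] at h2
  calc (σ i : ℂ) * (Uᴴ * U') i j * (σ j : ℂ) * (starRingEnd ℂ) ((Uᴴ * U') i j)
      = (σ i : ℂ) * (σ j : ℂ) * ((Uᴴ * U') i j * (starRingEnd ℂ) ((Uᴴ * U') i j)) := by ring
    _ = _ := by rw [h2]; push_cast; ring

theorem hs2_ker (U : Matrix ι ι ℂ) (hU : Uᴴ * U = 1) (σ : ι → ℝ) :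
    hs2 (ker U σ) = ∑ i, σ i ^ 2 := by
  have h := ip_self (ker U σ)
  rw [ip_ker, hU] at h
  have h2 : hs2 (ker U σ) = ∑ i, ∑ j, σ i * σ j * ‖(1 : Matrix ι ι ℂ) i j‖ ^ 2 := by
    exact_mod_cast h.symm
  rw [h2]
  refine Finset.sum_congr rfl fun i _ => ?_
  rw [Finset.sum_eq_single i]
  · simp [pow_two]
  · intro j _ hj
    rw [Matrix.one_apply_ne (Ne.symm hj)]
    simp
  · simp

variable (F : Matrix Q ι ℂ) (σ : ι → ℝ)
  (hF : Fᴴ * F = diagonal (fun i => ((σ i ^ 2 : ℝ) : ℂ)))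

/-- normalised columns -/
noncomputable def hat : Matrix Q ι ℂ := F * diagonal (fun i => (((σ i)⁻¹ : ℝ) : ℂ))

omit [DecidableEq Q] in
include hF in
theorem hat_norm : ‖hat F σ‖ ≤ 1 := by
  apply norm_le_one_of _ (fun i => if σ i = 0 then 0 else 1)
  · intro i
    by_cases h : σ i = 0 <;> simp [h]
  · unfold hat
    rw [conjTranspose_mul, diag_conjTranspose, Matrix.mul_assoc, ← Matrix.mul_assoc Fᴴ, hF,
      diagonal_mul_diagonal, diagonal_mul_diagonal]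
    congr 1
    ext i
    by_cases h : σ i = 0
    · simp [h]
    · rw [if_neg h]
      have : (σ i : ℂ) ≠ 0 := by exact_mod_cast h
      push_cast
      field_simp

omit [DecidableEq Q] in
include hF in
theorem hat_mul : hat F σ * diagonal (fun i => (σ i : ℂ)) = F := by
  unfold hat
  rw [Matrix.mul_assoc, diagonal_mul_diagonal]
  ext q i
  rw [mul_diagonal]
  by_cases h : σ i = 0
  · have h1 : (Fᴴ * F) i i = 0 := by
      rw [hF, diagonal_apply_eq, h]; simp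
    have h2 : ∑ q, ‖F q i‖ ^ 2 = 0 := by
      have h3 : ((∑ q, ‖F q i‖ ^ 2 : ℝ) : ℂ) = (Fᴴ * F) i i := by
        rw [Matrix.mul_apply]
        push_cast
        refine Finset.sum_congr rfl fun q _ => ?_
        rw [conjTranspose_apply, ← starRingEnd_apply, mul_comm, Complex.mul_conj,
          Complex.normSq_eq_norm_sq]
        push_cast
        rfl
      rw [h1] at h3
      exact_mod_cast h3
    have h3 := (Finset.sum_eq_zero_iff_of_nonneg (fun q _ => by positivity)).1 h2 q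
      (Finset.mem_univ q)
    have h4 : F q i = 0 := by simpa using h3
    rw [h4, zero_mul]
  · have : (σ i : ℂ) ≠ 0 := by exact_mod_cast h
    push_cast
    rw [inv_mul_cancel₀ this, mul_one]

omit [DecidableEq Q] in
include hF in
theorem hs2_F (U : Matrix ι ι ℂ) (hU : Uᴴ * U = 1) : hs2 (F * Uᴴ) = ∑ i, σ i ^ 2 := by
  have h := ip_self (F * Uᴴ)
  rw [ip_eq_trace, conjTranspose_mul, conjTranspose_conjTranspose] at h
  have e : U * Fᴴ * (F * Uᴴ) = U * (Fᴴ * F * Uᴴ) := by simp only [Matrix.mul_assoc]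
  rw [e, trace_mul_comm, Matrix.mul_assoc, hU, Matrix.mul_one, hF, trace_diagonal] at h
  exact_mod_cast h.symm

include hF in
theorem core (U U' : Matrix ι ι ℂ) (hU : Uᴴ * U = 1) (hσ : ∑ i, σ i ^ 2 = 1)
    (hσ0 : ∀ i, 0 ≤ σ i)
    (x : Matrix Q Q ℂ) {c d : ℝ} (hx : ‖x‖ ≤ c) (hd0 : 0 ≤ d) (hd1 : d ≤ 1)
    (hT : hs2 (x * (F * U'ᴴ) - F * Uᴴ) ≤ d ^ 2) :
    (1 - d) ^ 2 ≤ c ^ 2 * ∑ i, ∑ j, σ i * σ j * ‖(Uᴴ * U') i j‖ ^ 2 := by
  set z := ip (F * Uᴴ) (x * (F * U'ᴴ)) with hz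
  have hre : 1 - d ≤ z.re := by
    have h1 : z = ip (F * Uᴴ) (F * Uᴴ) + ip (F * Uᴴ) (x * (F * U'ᴴ) - F * Uᴴ) := by
      rw [hz]
      unfold ip
      simp only [← Finset.sum_add_distrib]
      refine Finset.sum_congr rfl fun i _ => Finset.sum_congr rfl fun j _ => ?_
      rw [Matrix.sub_apply]; ring
    have h2 : ip (F * Uᴴ) (F * Uᴴ) = 1 := by
      rw [ip_self, hs2_F F σ hF U hU, hσ]; simp
    have h3 : ‖ip (F * Uᴴ) (x * (F * U'ᴴ) - F * Uᴴ)‖ ≤ d := by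
      have h4 := norm_ip_sq_le (F * Uᴴ) (x * (F * U'ᴴ) - F * Uᴴ)
      rw [hs2_F F σ hF U hU, hσ, one_mul] at h4
      exact le_of_sq_le_sq (h4.trans hT) hd0
    have h5 := (abs_le.1 ((Complex.abs_re_le_norm _).trans h3)).1
    rw [h1, h2, Complex.add_re, Complex.one_re]
    linarith
  set X := (hat F σ)ᴴ * x * hat F σ with hX
  have hXn : ‖X‖ ≤ c := by
    have h1 : ‖X‖ ≤ ‖(hat F σ)ᴴ‖ * ‖x‖ * ‖hat F σ‖ := by
      rw [hX]
      exact (l2_opNorm_mul _ _).trans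
        (mul_le_mul_of_nonneg_right (l2_opNorm_mul _ _) (norm_nonneg _))
    rw [l2_opNorm_conjTranspose] at h1
    have h2 := hat_norm F σ hF
    have h3 := norm_nonneg (hat F σ)
    have h4 := norm_nonneg x
    calc ‖X‖ ≤ ‖hat F σ‖ * ‖x‖ * ‖hat F σ‖ := h1
      _ ≤ 1 * ‖x‖ * 1 := by
          apply mul_le_mul _ h2 h3 (by positivity)
          exact mul_le_mul_of_nonneg_right h2 h4
      _ ≤ c := by linarith
  have hzs : z = ∑ i, ∑ j, (σ i : ℂ) * (σ j : ℂ) * X i j * conj ((Uᴴ * U') i j) := by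
    rw [hz, ip_eq_trace, conjTranspose_mul, conjTranspose_conjTranspose]
    have e : U * Fᴴ * (x * (F * U'ᴴ)) = U * (Fᴴ * x * F * U'ᴴ) := by
      simp only [Matrix.mul_assoc]
    have e2 : Fᴴ * x * F
        = diagonal (fun i => (σ i : ℂ)) * X * diagonal (fun i => (σ i : ℂ)) := by
      conv_lhs => rw [← hat_mul F σ hF]
      rw [conjTranspose_mul, diag_conjTranspose, hX]
      simp only [Matrix.mul_assoc]
    have e3 : Fᴴ * x * F * U'ᴴ * U = Fᴴ * x * F * (Uᴴ * U')ᴴ := by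
      rw [conjTranspose_mul, conjTranspose_conjTranspose, Matrix.mul_assoc (Fᴴ * x * F)]
    rw [e, trace_mul_comm, e3, e2]
    unfold trace
    refine Finset.sum_congr rfl fun i _ => ?_
    rw [diag_apply, Matrix.mul_apply]
    refine Finset.sum_congr rfl fun j _ => ?_
    rw [mul_diagonal, diagonal_mul, conjTranspose_apply, ← starRingEnd_apply]
    ring
  have hzn : ‖z‖ ≤ ∑ i, ∑ j, (Real.sqrt (σ i * σ j) * ‖X i j‖)
      * (Real.sqrt (σ i * σ j) * ‖(Uᴴ * U') i j‖) := by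
    rw [hzs]
    refine (norm_sum_le _ _).trans (Finset.sum_le_sum fun i _ => ?_)
    refine (norm_sum_le _ _).trans (Finset.sum_le_sum fun j _ => ?_)
    rw [norm_mul, norm_mul, norm_mul, RCLike.norm_conj, Complex.norm_real, Complex.norm_real,
      Real.norm_of_nonneg (hσ0 i), Real.norm_of_nonneg (hσ0 j)]
    have hs := Real.mul_self_sqrt (mul_nonneg (hσ0 i) (hσ0 j))
    apply le_of_eq
    calc σ i * σ j * ‖X i j‖ * ‖(Uᴴ * U') i j‖
        = (Real.sqrt (σ i * σ j) * Real.sqrt (σ i * σ j)) * ‖X i j‖ * ‖(Uᴴ * U') i j‖ := by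
          rw [hs]
      _ = _ := by ring
  have hsq : ∀ (W : Matrix ι ι ℂ), ∑ i, ∑ j, (Real.sqrt (σ i * σ j) * ‖W i j‖) ^ 2
      = ∑ i, ∑ j, σ i * σ j * ‖W i j‖ ^ 2 := by
    intro W
    refine Finset.sum_congr rfl fun i _ => Finset.sum_congr rfl fun j _ => ?_
    rw [mul_pow, Real.sq_sqrt (mul_nonneg (hσ0 i) (hσ0 j))]
  have hcs := sum_mul_le_real (fun i j => Real.sqrt (σ i * σ j) * ‖X i j‖)
    (fun i j => Real.sqrt (σ i * σ j) * ‖(Uᴴ * U') i j‖)
  rw [hsq, hsq] at hcs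
  have hs0 : 0 ≤ ∑ i, ∑ j, σ i * σ j * ‖(Uᴴ * U') i j‖ ^ 2 :=
    Finset.sum_nonneg fun i _ => Finset.sum_nonneg fun j _ =>
      mul_nonneg (mul_nonneg (hσ0 i) (hσ0 j)) (by positivity)
  have hX2 : ∑ i, ∑ j, σ i * σ j * ‖X i j‖ ^ 2 ≤ c ^ 2 :=
    (weighted_le X σ hσ).trans (pow_le_pow_left₀ (norm_nonneg _) hXn 2)
  calc (1 - d) ^ 2 ≤ z.re ^ 2 := pow_le_pow_left₀ (by linarith) hre 2
    _ ≤ ‖z‖ ^ 2 := by
        have := Complex.abs_re_le_norm z
        have h0 : 0 ≤ z.re := by linarith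
        rw [abs_of_nonneg h0] at this
        exact pow_le_pow_left₀ h0 this 2
    _ ≤ _ := pow_le_pow_left₀ (norm_nonneg _) hzn 2
    _ ≤ _ := hcs
    _ ≤ _ := mul_le_mul_of_nonneg_right hX2 hs0

omit [DecidableEq Q] in
include hF in
/-- the kernel factors through `T = F Uᴴ` -/
theorem ker_factor (U : Matrix ι ι ℂ) :
    ker U σ = (U * (hat F σ)ᴴ) * (F * Uᴴ) := by
  have h1 : (hat F σ)ᴴ * F = diagonal (fun i => (σ i : ℂ)) := by
    unfold hat
    rw [conjTranspose_mul, diag_conjTranspose, Matrix.mul_assoc, hF, diagonal_mul_diagonal]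
    congr 1
    ext i
    by_cases h : σ i = 0
    · simp [h]
    · have : (σ i : ℂ) ≠ 0 := by exact_mod_cast h
      push_cast
      field_simp
  unfold ker
  rw [← h1]
  simp only [Matrix.mul_assoc]

theorem ip_ker_le (U : Matrix ι ι ℂ) (hU : Uᴴ * U = 1) (hσ : ∑ i, σ i ^ 2 = 1)
    (hσ0 : ∀ i, 0 ≤ σ i) {r : ℕ} (hr : (Finset.univ.filter (fun i => σ i ≠ 0)).card ≤ r)
    (Z : Matrix ι ι ℂ) {κ : ℝ} (hZ : ‖Z‖ ≤ κ) : ‖ip (ker U σ) Z‖ ≤ Real.sqrt r * κ := by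
  have hκ : 0 ≤ κ := (norm_nonneg _).trans hZ
  have h1 : ip (ker U σ) Z = ∑ i, (σ i : ℂ) * (Uᴴ * Z * U) i i := by
    rw [ip_eq_trace, ker_conjTranspose]
    unfold ker
    have e : U * diagonal (fun i => (σ i : ℂ)) * Uᴴ * Z
        = U * (diagonal (fun i => (σ i : ℂ)) * (Uᴴ * Z)) := by simp only [Matrix.mul_assoc]
    rw [e, trace_mul_comm, Matrix.mul_assoc]
    unfold trace
    refine Finset.sum_congr rfl fun i _ => ?_
    rw [diag_apply, diagonal_mul]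
  have hUn := unitary_norm_le U hU
  have hM : ‖Uᴴ * Z * U‖ ≤ κ := by
    have h2 : ‖Uᴴ * Z * U‖ ≤ ‖Uᴴ‖ * ‖Z‖ * ‖U‖ :=
      (l2_opNorm_mul _ _).trans
        (mul_le_mul_of_nonneg_right (l2_opNorm_mul _ _) (norm_nonneg _))
    rw [l2_opNorm_conjTranspose] at h2
    have h3 := norm_nonneg U
    have h4 := norm_nonneg Z
    calc _ ≤ ‖U‖ * ‖Z‖ * ‖U‖ := h2
      _ ≤ 1 * ‖Z‖ * 1 := by
          apply mul_le_mul _ hUn h3 (by positivity)
          exact mul_le_mul_of_nonneg_right hUn h4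
      _ ≤ κ := by linarith
  have hd : ∀ i, ‖(Uᴴ * Z * U) i i‖ ≤ κ := by
    intro i
    have h2 := col_le (Uᴴ * Z * U) i
    have h3 : ‖(Uᴴ * Z * U) i i‖ ^ 2 ≤ ∑ k, ‖(Uᴴ * Z * U) k i‖ ^ 2 :=
      Finset.single_le_sum (f := fun k => ‖(Uᴴ * Z * U) k i‖ ^ 2)
        (fun k _ => by positivity) (Finset.mem_univ i)
    have h4 := h3.trans (h2.trans (pow_le_pow_left₀ (norm_nonneg _) hM 2))
    exact le_of_sq_le_sq h4 hκ
  have h2 : ‖ip (ker U σ) Z‖ ≤ (∑ i, σ i) * κ := by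
    rw [h1, Finset.sum_mul]
    refine (norm_sum_le _ _).trans (Finset.sum_le_sum fun i _ => ?_)
    rw [norm_mul, Complex.norm_real, Real.norm_of_nonneg (hσ0 i)]
    exact mul_le_mul_of_nonneg_left (hd i) (hσ0 i)
  have h3 : ∑ i, σ i ≤ Real.sqrt r := by
    apply Real.le_sqrt_of_sq_le
    have e : ∑ i, σ i = ∑ i ∈ Finset.univ.filter (fun i => σ i ≠ 0), σ i := by
      rw [Finset.sum_filter]
      refine Finset.sum_congr rfl fun i _ => ?_
      by_cases h : σ i = 0 <;> simp [h]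
    have h4 := sq_sum_le_card_mul_sum_sq (s := Finset.univ.filter (fun i => σ i ≠ 0)) (f := σ)
    have h5 : ∑ i ∈ Finset.univ.filter (fun i => σ i ≠ 0), σ i ^ 2 ≤ 1 := by
      rw [← hσ]
      exact Finset.sum_le_sum_of_subset_of_nonneg (Finset.filter_subset _ _)
        (fun i _ _ => by positivity)
    have h6 : ((Finset.univ.filter (fun i => σ i ≠ 0)).card : ℝ) ≤ r := by exact_mod_cast hr
    rw [e]
    calc _ ≤ _ := h4
      _ ≤ (r : ℝ) * 1 := mul_le_mul h6 h5 (Finset.sum_nonneg fun i _ => by positivity)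
          (by positivity)
      _ = r := mul_one _
  exact h2.trans (mul_le_mul_of_nonneg_right h3 hκ)

end core

section final

variable {ι Q : Type*} [Fintype ι] [DecidableEq ι] [Fintype Q] [DecidableEq Q]

omit [DecidableEq Q] in
/-- The whole construction for a matrix `T`. -/
theorem exists_data (T : Matrix Q ι ℂ) (hT : hs2 T = 1) :
    ∃ (U : Matrix ι ι ℂ) (σ : ι → ℝ) (F : Matrix Q ι ℂ), Uᴴ * U = 1 ∧ (∀ i, 0 ≤ σ i) ∧
      ∑ i, σ i ^ 2 = 1 ∧ Fᴴ * F = diagonal (fun i => ((σ i ^ 2 : ℝ) : ℂ)) ∧ F * Uᴴ = T ∧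
      (Finset.univ.filter (fun i => σ i ≠ 0)).card ≤ Fintype.card Q := by
  have hps : (Tᴴ * T).PosSemidef := posSemidef_conjTranspose_mul_self T
  set hA := hps.isHermitian with hAdef
  set U : Matrix ι ι ℂ := (hA.eigenvectorUnitary : Matrix ι ι ℂ) with hUdef
  have hU1 : Uᴴ * U = 1 := by
    have := hA.eigenvectorUnitary.2
    rw [Matrix.mem_unitaryGroup_iff'] at this
    exact this
  have hU2 : U * Uᴴ = 1 := by
    have := hA.eigenvectorUnitary.2
    rw [Matrix.mem_unitaryGroup_iff] at this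
    exact this
  have hnn := hps.eigenvalues_nonneg
  have hdiag : Uᴴ * (Tᴴ * T) * U = diagonal (fun i => ((hA.eigenvalues i : ℝ) : ℂ)) := by
    have h := hA.spectral_theorem
    rw [Unitary.conjStarAlgAut_apply] at h
    have h2 : Tᴴ * T = U * diagonal (fun i => ((hA.eigenvalues i : ℝ) : ℂ)) * Uᴴ := h
    refine (congrArg (fun W => Uᴴ * W * U) h2).trans ?_
    calc Uᴴ * (U * diagonal (fun i => ((hA.eigenvalues i : ℝ) : ℂ)) * Uᴴ) * U
        = (Uᴴ * U) * diagonal (fun i => ((hA.eigenvalues i : ℝ) : ℂ)) * (Uᴴ * U) := by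
          simp only [Matrix.mul_assoc]
      _ = _ := by rw [hU1, Matrix.one_mul, Matrix.mul_one]
  have hF : (T * U)ᴴ * (T * U)
      = diagonal (fun i => (((Real.sqrt (hA.eigenvalues i)) ^ 2 : ℝ) : ℂ)) := by
    rw [conjTranspose_mul]
    have e : Uᴴ * Tᴴ * (T * U) = Uᴴ * (Tᴴ * T) * U := by simp only [Matrix.mul_assoc]
    rw [e, hdiag]
    congr 1
    ext i
    rw [Real.sq_sqrt (hnn i)]
  have hFU : T * U * Uᴴ = T := by rw [Matrix.mul_assoc, hU2, Matrix.mul_one]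
  refine ⟨U, fun i => Real.sqrt (hA.eigenvalues i), T * U, hU1, fun i => Real.sqrt_nonneg _, ?_,
    hF, hFU, ?_⟩
  · have := hs2_F (T * U) (fun i => Real.sqrt (hA.eigenvalues i)) hF U hU1
    rw [hFU, hT] at this
    exact this.symm
  · have h1 : (Finset.univ.filter (fun i => Real.sqrt (hA.eigenvalues i) ≠ 0)).card
        ≤ Fintype.card {i // hA.eigenvalues i ≠ 0} := by
      rw [Fintype.card_subtype]
      refine Finset.card_le_card ?_
      intro i hi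
      rw [Finset.mem_filter] at hi ⊢
      refine ⟨Finset.mem_univ _, fun h0 => hi.2 ?_⟩
      rw [h0, Real.sqrt_zero]
    rw [← hA.rank_eq_card_non_zero_eigs, Matrix.rank_conjTranspose_mul_self] at h1
    exact h1.trans (Matrix.rank_le_card_height T)

end final

theorem svd : S_SVD := by
  intro Q _ _ x ε hε hε1 hx N H hnew hH hinv
  set T : Matrix Q (V (N + 1)) ℂ := fun q v => H v q with hTdef
  have hT : hs2 T = 1 := by
    rw [← hH]
    unfold hs2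
    rw [Finset.sum_comm]
  obtain ⟨U, σ, F, hU, hσ0, hσ, hF, hFU, hcard⟩ := exists_data T hT
  refine ⟨fun v v' => ker U σ v v', ?_, ?_, ?_, ?_⟩
  · intro v v'
    have hk := ker_factor F σ hF U
    rw [hFU] at hk
    have h1 : ∀ u, ker U σ v u = ∑ q, (U * (hat F σ)ᴴ) v q * H u q := by
      intro u
      rw [hk, Matrix.mul_apply]
    show ∑ c : X, ker U σ v (v' + lst N c) = 0
    simp only [h1]
    rw [Finset.sum_comm]
    refine Finset.sum_eq_zero fun q _ => ?_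
    rw [← Finset.mul_sum]
    have h2 := congrFun (hnew v') q
    rw [Finset.sum_apply] at h2
    rw [h2]
    simp
  · have := hs2_ker U hU σ
    rw [hσ] at this
    exact this
  · intro a
    set U' : Matrix (V (N + 1)) (V (N + 1)) ℂ := fun v i => U ((g a (N + 1)).symm v) i with hU'
    have hU'1 : U'ᴴ * U' = 1 := by
      rw [← hU]
      ext i j
      rw [Matrix.mul_apply, Matrix.mul_apply]
      simp only [conjTranspose_apply, hU']
      exact Equiv.sum_comp (g a (N + 1)).symm (fun v => star (U v i) * U v j)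
    have hTU : ∀ q v, (F * U'ᴴ) q v = H ((g a (N + 1)).symm v) q := by
      intro q v
      have h1 : (F * U'ᴴ) q v = (F * Uᴴ) q ((g a (N + 1)).symm v) := by
        rw [Matrix.mul_apply, Matrix.mul_apply]
        rfl
      rw [h1, hFU]
    have hd : hs2 (x a * (F * U'ᴴ) - F * Uᴴ) ≤ (8 * ε) ^ 2 := by
      refine le_trans (le_of_eq ?_) (hinv a)
      unfold hs2
      rw [Finset.sum_comm]
      refine Finset.sum_congr rfl fun v _ => Finset.sum_congr rfl fun q _ => ?_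
      rw [Matrix.sub_apply, hFU, Matrix.mul_apply]
      simp only [hTU]
      rfl
    have hxn : ‖x a‖ ≤ 1 + ε := opNorm_le_of (x a) (by linarith) (hx a)
    have hc := core F σ hF U U' hU hσ hσ0 (x a) hxn (by linarith) (by linarith) hd
    set s := ∑ i, ∑ j, σ i * σ j * ‖(Uᴴ * U') i j‖ ^ 2 with hs
    have hk : hs2 (ker U' σ - ker U σ) = 2 - 2 * s := by
      rw [hs2_sub_comm, hs2_sub, hs2_ker U hU, hs2_ker U' hU'1, hσ, ip_ker, ← hs]
      rw [Complex.ofReal_re]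
      ring
    have hs2le : 2 - 2 * s ≤ 100 * ε := by
      have h1 : (1 - 50 * ε) * (1 + ε) ^ 2 ≤ (1 - 8 * ε) ^ 2 := by nlinarith [sq_nonneg ε]
      have h2 : (1 - 50 * ε) * (1 + ε) ^ 2 ≤ s * (1 + ε) ^ 2 := by linarith
      have h3 : 1 - 50 * ε ≤ s := le_of_mul_le_mul_right h2 (by positivity)
      linarith
    refine le_trans (le_of_eq ?_) hs2le
    rw [← hk]
    unfold hs2
    refine Finset.sum_congr rfl fun v _ => Finset.sum_congr rfl fun v' _ => ?_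
    rw [Matrix.sub_apply]
    congr 3
  · intro Z κ hκ hZ
    have hZn : ‖(Matrix.of Z)‖ ≤ κ := opNorm_le_of (Matrix.of Z) hκ (fun f => hZ f)
    exact ip_ker_le σ U hU hσ hσ0 hcard (Matrix.of Z) hZn

end Vale.Agent.P083.SVD
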