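import Vale.Agent.P083.Defs

open scoped BigOperators ComplexConjugate InnerProductSpace

namespace Vale.Agent.P083.Scal

universe u

theorem scal : S_SCAL.{u} := by
  intro K _ _ _ A ε hε Q _ _ W x h1 h2 h3 N F hnew hF hA
  classical
  -- the finite dimensional span
  set S : Submodule ℂ K := Submodule.span ℂ (Set.range fun p : V (N + 1) × Q => W p.2 (F p.1))
    with hS
  have : FiniteDimensional ℂ S := FiniteDimensional.span_of_finite ℂ (Set.finite_range _)
  set b := stdOrthonormalBasis ℂ S with hb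
  have hmem : ∀ v q, W q (F v) ∈ S := fun v q => Submodule.subset_span ⟨(v, q), rfl⟩
  have hpars : ∀ k ∈ S, ∑ i, ‖⟪((b i : S) : K), k⟫_ℂ‖ ^ 2 = ‖k‖ ^ 2 := by
    intro k hk
    have := b.sum_sq_norm_inner_right ⟨k, hk⟩
    simpa [Submodule.coe_inner] using this
  -- the error vectors
  set Er : Gen → V (N + 1) → Q → K := fun a v q =>
    (∑ q', x a q q' • W q' (F ((g a (N + 1)).symm v))) - W q (F v) with hEr
  have hErmem : ∀ a v q, Er a v q ∈ S := fun a v q =>
    S.sub_mem (S.sum_mem fun q' _ => S.smul_mem _ (hmem _ _)) (hmem _ _)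
  have hErb : ∀ a, ∑ v, ∑ q, ‖Er a v q‖ ^ 2 ≤ 4 * ε ^ 2 := by
    intro a
    have hpt : ∀ v, ∑ q, ‖Er a v q‖ ^ 2 ≤ 2 * (ε ^ 2 * ‖F ((g a (N + 1)).symm v)‖ ^ 2)
        + 2 * ‖A a (F ((g a (N + 1)).symm v)) - F v‖ ^ 2 := by
      intro v
      have e1 := h3 a (F ((g a (N + 1)).symm v))
      have e2 := h1 (A a (F ((g a (N + 1)).symm v)) - F v)
      calc ∑ q, ‖Er a v q‖ ^ 2
          ≤ ∑ q, (2 * ‖W q (A a (F ((g a (N + 1)).symm v)))
              - ∑ q', x a q q' • W q' (F ((g a (N + 1)).symm v))‖ ^ 2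
              + 2 * ‖W q (A a (F ((g a (N + 1)).symm v)) - F v)‖ ^ 2) := by
            apply Finset.sum_le_sum
            intro q _
            set P := W q (A a (F ((g a (N + 1)).symm v))) with hP
            set R := ∑ q', x a q q' • W q' (F ((g a (N + 1)).symm v)) with hR
            have e3 : Er a v q = -(P - R) + W q (A a (F ((g a (N + 1)).symm v)) - F v) := by
              simp only [hEr, map_sub, ← hP, ← hR]
              abel
            rw [e3]
            have e4 : ‖-(P - R) + W q (A a (F ((g a (N + 1)).symm v)) - F v)‖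
                ≤ ‖P - R‖ + ‖W q (A a (F ((g a (N + 1)).symm v)) - F v)‖ := by
              refine (norm_add_le _ _).trans ?_
              rw [norm_neg]
            have e5 := norm_nonneg (-(P - R) + W q (A a (F ((g a (N + 1)).symm v)) - F v))
            nlinarith [sq_nonneg (‖P - R‖ - ‖W q (A a (F ((g a (N + 1)).symm v)) - F v)‖)]
        _ = 2 * ∑ q, ‖W q (A a (F ((g a (N + 1)).symm v)))
              - ∑ q', x a q q' • W q' (F ((g a (N + 1)).symm v))‖ ^ 2
            + 2 * ∑ q, ‖W q (A a (F ((g a (N + 1)).symm v)) - F v)‖ ^ 2 := by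
            rw [Finset.sum_add_distrib, Finset.mul_sum, Finset.mul_sum]
        _ ≤ _ := by
            rw [e2]
            linarith
    calc ∑ v, ∑ q, ‖Er a v q‖ ^ 2
        ≤ ∑ v, (2 * (ε ^ 2 * ‖F ((g a (N + 1)).symm v)‖ ^ 2)
          + 2 * ‖A a (F ((g a (N + 1)).symm v)) - F v‖ ^ 2) := Finset.sum_le_sum fun v _ => hpt v
      _ = 2 * (ε ^ 2 * ∑ v, ‖F ((g a (N + 1)).symm v)‖ ^ 2)
          + 2 * ∑ v, ‖A a (F ((g a (N + 1)).symm v)) - F v‖ ^ 2 := by
          rw [Finset.sum_add_distrib, ← Finset.mul_sum, ← Finset.mul_sum, ← Finset.mul_sum]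
      _ ≤ 4 * ε ^ 2 := by
          rw [Equiv.sum_comp (g a (N + 1)).symm (fun v => ‖F v‖ ^ 2), hF]
          have := hA a
          linarith
  -- the coordinates
  set H : (Fin (Module.finrank ℂ S)) → V (N + 1) → Q → ℂ := fun i v q =>
    ⟪((b i : S) : K), W q (F v)⟫_ℂ with hH
  have hHer : ∀ i a v q, (x a).mulVec (H i ((g a (N + 1)).symm v)) q - H i v q
      = ⟪((b i : S) : K), Er a v q⟫_ℂ := by
    intro i a v q
    simp only [hH, hEr, inner_sub_right, inner_sum, inner_smul_right, Matrix.mulVec, dotProduct]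
  set n : (Fin (Module.finrank ℂ S)) → ℝ := fun i => ∑ v, ∑ q, ‖H i v q‖ ^ 2 with hn
  set e : (Fin (Module.finrank ℂ S)) → ℝ := fun i => ∑ a : Gen, ∑ v, ∑ q,
    ‖(x a).mulVec (H i ((g a (N + 1)).symm v)) q - H i v q‖ ^ 2 with he
  have hn0 : ∀ i, 0 ≤ n i := fun i => Finset.sum_nonneg fun v _ => Finset.sum_nonneg fun q _ =>
    sq_nonneg _
  have he0 : ∀ i, 0 ≤ e i := fun i => Finset.sum_nonneg fun a _ => Finset.sum_nonneg fun v _ =>
    Finset.sum_nonneg fun q _ => sq_nonneg _
  have hsumn : ∑ i, n i = 1 := by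
    calc ∑ i, n i = ∑ v, ∑ q, ∑ i, ‖H i v q‖ ^ 2 := by
          rw [hn, Finset.sum_comm]
          apply Finset.sum_congr rfl
          intro v _
          rw [Finset.sum_comm]
      _ = ∑ v, ∑ q, ‖W q (F v)‖ ^ 2 := by
          apply Finset.sum_congr rfl; intro v _
          apply Finset.sum_congr rfl; intro q _
          exact hpars _ (hmem v q)
      _ = ∑ v, ‖F v‖ ^ 2 := by
          apply Finset.sum_congr rfl; intro v _
          exact h1 _
      _ = 1 := hF
  have hcard : Fintype.card Gen = 4 := by rfl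
  have hsume : ∑ i, e i ≤ 16 * ε ^ 2 := by
    calc ∑ i, e i = ∑ a : Gen, ∑ v, ∑ q, ∑ i, ‖⟪((b i : S) : K), Er a v q⟫_ℂ‖ ^ 2 := by
          simp only [he, hHer]
          rw [Finset.sum_comm]
          apply Finset.sum_congr rfl
          intro a _
          rw [Finset.sum_comm]
          apply Finset.sum_congr rfl
          intro v _
          rw [Finset.sum_comm]
      _ = ∑ a : Gen, ∑ v, ∑ q, ‖Er a v q‖ ^ 2 := by
          apply Finset.sum_congr rfl; intro a _
          apply Finset.sum_congr rfl; intro v _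
          apply Finset.sum_congr rfl; intro q _
          exact hpars _ (hErmem a v q)
      _ ≤ ∑ a : Gen, 4 * ε ^ 2 := Finset.sum_le_sum fun a _ => hErb a
      _ = 16 * ε ^ 2 := by
          rw [Finset.sum_const, Finset.card_univ, hcard, nsmul_eq_mul]
          push_cast; ring
  -- the choice
  set I := Finset.univ.filter fun i => 0 < n i with hI
  have hsumI : ∑ i ∈ I, n i = 1 := by
    rw [← hsumn]
    apply Finset.sum_subset (Finset.subset_univ _)
    intro i _ hi
    have : ¬ 0 < n i := fun h => hi (by rw [hI, Finset.mem_filter]; exact ⟨Finset.mem_univ _, h⟩)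
    linarith [hn0 i]
  have hIne : I.Nonempty := by
    rw [Finset.nonempty_iff_ne_empty]
    intro h
    rw [h] at hsumI
    simp at hsumI
  obtain ⟨i, hiI, hi⟩ := Finset.exists_le_of_sum_le hIne (f := e) (g := fun i => 16 * ε ^ 2 * n i) (by
    rw [← Finset.mul_sum, hsumI, mul_one]
    refine le_trans ?_ hsume
    exact Finset.sum_le_univ_sum_of_nonneg he0)
  have hni : 0 < n i := (Finset.mem_filter.1 hiI).2
  have hsq : 0 < √(n i) := Real.sqrt_pos.2 hni
  set c : ℂ := (((√(n i))⁻¹ : ℝ) : ℂ) with hc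
  have hcn : ‖c‖ ^ 2 = (n i)⁻¹ := by
    rw [hc, Complex.norm_real, Real.norm_of_nonneg (by positivity), inv_pow, Real.sq_sqrt hni.le]
  refine ⟨fun v q => c * H i v q, ?_, ?_, ?_⟩
  · intro v
    funext q
    rw [Finset.sum_apply, Pi.zero_apply, ← Finset.mul_sum]
    simp only [hH]
    rw [← inner_sum, ← map_sum, hnew v]
    simp
  · simp_rw [norm_mul, mul_pow, hcn, ← Finset.mul_sum]
    exact inv_mul_cancel₀ hni.ne'
  · intro a
    have e1 : ∀ v q, ‖(x a).mulVec (fun q => c * H i ((g a (N + 1)).symm v) q) q - c * H i v q‖ ^ 2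
        = (n i)⁻¹ * ‖(x a).mulVec (H i ((g a (N + 1)).symm v)) q - H i v q‖ ^ 2 := by
      intro v q
      rw [← hcn, ← mul_pow, ← norm_mul, mul_sub]
      congr 3
      simp only [Matrix.mulVec, dotProduct, Finset.mul_sum]
      apply Finset.sum_congr rfl
      intro q' _
      ring
    simp_rw [e1, ← Finset.mul_sum]
    have e2 : ∑ v, ∑ q, ‖(x a).mulVec (H i ((g a (N + 1)).symm v)) q - H i v q‖ ^ 2 ≤ e i := by
      rw [he]
      exact Finset.single_le_sum (f := fun a => ∑ v, ∑ q,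
        ‖(x a).mulVec (H i ((g a (N + 1)).symm v)) q - H i v q‖ ^ 2)
        (fun a _ => Finset.sum_nonneg fun v _ => Finset.sum_nonneg fun q _ => sq_nonneg _)
        (Finset.mem_univ a)
    calc (n i)⁻¹ * ∑ v, ∑ q, ‖(x a).mulVec (H i ((g a (N + 1)).symm v)) q - H i v q‖ ^ 2
        ≤ (n i)⁻¹ * (16 * ε ^ 2 * n i) := by
          gcongr
          exact e2.trans hi
      _ = 16 * ε ^ 2 := by field_simp
      _ ≤ (8 * ε) ^ 2 := by nlinarith [sq_nonneg ε]

end Vale.Agent.P083.Scal
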