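import Vale.Agent.P083.Defs

/-!
# P083: prepending a letter (STEP, BASE)
-/

open scoped BigOperators ComplexConjugate InnerProductSpace

namespace Vale.Agent.P083.Step

universe u

/-! ## Splitting off the first letter -/

/-- `V (N+1) ≃ X × V N` -/
def consEquiv (N : ℕ) : X × V N ≃ V (N + 1) where
  toFun q := cons q.1 q.2
  invFun u := ((u.1 0, u.2.1 0, u.2.2 0), (Fin.tail u.1, Fin.tail u.2.1, Fin.tail u.2.2))
  left_inv q := by
    obtain ⟨⟨b1, b2, b3⟩, v1, v2, v3⟩ := q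
    simp [cons]
  right_inv u := by
    obtain ⟨u1, u2, u3⟩ := u
    simp [cons]

lemma consEquiv_apply (N : ℕ) (b : X) (v : V N) : consEquiv N (b, v) = cons b v := rfl

/-- action on letters -/
def la : Gen → X → X
  | .x => fun b => (b.1 + b.2.1, b.2.1, b.2.2)
  | .y => fun b => (b.1, b.2.1 + b.2.2, b.2.2)
  | .z => fun b => b
  | .w => fun b => (b.1, b.2.1, b.2.2 + 1)

/-- the residual permutation -/
def ra (N : ℕ) : Gen → X → Equiv.Perm (V N)
  | .x => fun _ => g .x N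
  | .y => fun _ => g .y N
  | .z => fun b => (g .w N) ^ (b.1.val) * g .z N
  | .w => fun _ => 1

lemma g_cons (hREC : S_REC) (N : ℕ) (a : Gen) (b : X) (v : V N) :
    g a (N + 1) (cons b v) = cons (la a b) (ra N a b v) := by
  obtain ⟨h1, h2, h3, h4⟩ := hREC N b v
  cases a with
  | x => exact h1
  | y => exact h2
  | z => exact h3
  | w => exact h4

lemma cons_add_lst (N : ℕ) (b : X) (v : V (N + 1)) (c : X) :
    cons b v + lst (N + 1) c = cons b (v + lst N c) := by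
  have key : ∀ (β γ : Fp) (m : M (N + 1)),
      (Fin.cons β m : M (N + 1 + 1)) + Pi.single (Fin.last (N + 1)) γ
        = Fin.cons β (m + Pi.single (Fin.last N) γ) := by
    intro β γ m
    ext i
    refine Fin.cases ?_ (fun i => ?_) i
    · simp
    · simp only [Pi.add_apply, Fin.cons_succ]
      congr 1
      by_cases h : i = Fin.last N
      · subst h
        rw [Fin.succ_last]
        simp
      · have h' : i.succ ≠ Fin.last (N + 1) := by
          rw [← Fin.succ_last]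
          intro h''
          exact h (Fin.succ_injective _ h'')
        rw [Pi.single_eq_of_ne h, Pi.single_eq_of_ne h']
  obtain ⟨b1, b2, b3⟩ := b
  obtain ⟨v1, v2, v3⟩ := v
  obtain ⟨c1, c2, c3⟩ := c
  simp only [cons, lst, Prod.mk_add_mk]
  rw [key, key, key]

lemma card_X : Fintype.card X = pp ^ 3 := by
  simp only [X, Fp, Fintype.card_prod, ZMod.card]
  ring

lemma sum_cons {N : ℕ} (f : V (N + 1) → ℝ) : ∑ u, f u = ∑ b : X, ∑ v : V N, f (cons b v) := by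
  rw [← (consEquiv N).sum_comp, Fintype.sum_prod_type]
  rfl

variable {K : Type u} [NormedAddCommGroup K] [InnerProductSpace ℂ K] [CompleteSpace K] {δ : ℝ}

/-! ## Norm bounds -/

lemma hs_i (a b : Gen) : hs a b ⟨1, 0, 0⟩ = g a := by
  unfold hs
  have h1 : (1 : Fp).val = 1 := by
    have : Fact (1 < pp) := ⟨by norm_num [pp]⟩
    exact ZMod.val_one pp
  rw [h1]
  simp

lemma hs_one (a b : Gen) : hs a b 1 = 1 := by
  unfold hs
  simp

lemma exists_other (a : Gen) : ∃ b : Gen, a ≠ b := by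
  cases a
  · exact ⟨.y, by decide⟩
  · exact ⟨.x, by decide⟩
  · exact ⟨.x, by decide⟩
  · exact ⟨.x, by decide⟩

lemma norm_U_le (hδ0 : 0 ≤ δ) (hδ : δ ≤ 1 / 100) (D : AD K δ) (a : Gen) : ‖D.U (g a)‖ ≤ 2 := by
  obtain ⟨b, hab⟩ := exists_other a
  set h : Heis := ⟨1, 0, 0⟩ with hh
  have e1 : hs a b h = g a := hs_i a b
  have h1 := D.U_mul a b hab h⁻¹ h
  have h2 := D.U_star a b hab h
  rw [e1] at h1 h2
  rw [inv_mul_cancel, hs_one] at h1
  have h3 := D.U_one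
  set A := D.U (g a) with hA
  set B := D.U (hs a b h⁻¹) with hB
  have h4 : star A * A - 1 = (star A - B) * A + (B * A - D.U 1) + (D.U 1 - 1) := by
    rw [sub_mul]; abel
  have h5 : ‖star A * A - 1‖ ≤ δ * ‖A‖ + δ + δ := by
    rw [h4]
    refine (norm_add_le _ _).trans (add_le_add ((norm_add_le _ _).trans (add_le_add ?_ h1)) h3)
    exact (norm_mul_le _ _).trans (mul_le_mul_of_nonneg_right h2 (norm_nonneg _))
  have h6 : ‖A‖ * ‖A‖ ≤ 1 + (δ * ‖A‖ + δ + δ) := by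
    rw [← CStarRing.norm_star_mul_self]
    have h7 : star A * A = 1 + (star A * A - 1) := by abel
    rw [h7]
    refine (norm_add_le _ _).trans (add_le_add ?_ h5)
    exact ContinuousLinearMap.norm_id_le
  by_contra h8
  push Not at h8
  nlinarith [norm_nonneg A]

lemma norm_S_sq (D : AD K δ) (b : X) (k : K) :
    |‖D.S b k‖ ^ 2 - ‖k‖ ^ 2| ≤ δ * ‖k‖ ^ 2 := by
  have h1 : ((‖D.S b k‖ : ℂ)) ^ 2 - ((‖k‖ : ℂ)) ^ 2 = ⟪(star (D.S b) * D.S b - 1) k, k⟫_ℂ := by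
    rw [sub_apply, inner_sub_left, mul_apply_eq_comp,
      ContinuousLinearMap.star_eq_adjoint, ContinuousLinearMap.adjoint_inner_left,
      one_apply_eq_self, inner_self_eq_norm_sq_to_K, inner_self_eq_norm_sq_to_K]
    rfl
  have h2 : ‖((‖D.S b k‖ : ℂ)) ^ 2 - ((‖k‖ : ℂ)) ^ 2‖ ≤ δ * ‖k‖ ^ 2 := by
    rw [h1]
    refine (norm_inner_le_norm _ _).trans ?_
    have h3 := (star (D.S b) * D.S b - 1).le_opNorm k
    have h4 := D.S_iso b
    have h5 : ‖(star (D.S b) * D.S b - 1) k‖ ≤ δ * ‖k‖ :=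
      h3.trans (mul_le_mul_of_nonneg_right h4 (norm_nonneg _))
    calc _ ≤ δ * ‖k‖ * ‖k‖ := mul_le_mul_of_nonneg_right h5 (norm_nonneg _)
      _ = _ := by ring
  have h3 : ((‖D.S b k‖ : ℂ)) ^ 2 - ((‖k‖ : ℂ)) ^ 2 = ((‖D.S b k‖ ^ 2 - ‖k‖ ^ 2 : ℝ) : ℂ) := by
    push_cast; ring
  rw [h3, Complex.norm_real, Real.norm_eq_abs] at h2
  exact h2

lemma norm_S_sq_le (hδ : δ ≤ 1 / 100) (D : AD K δ) (b : X) (k : K) :
    ‖D.S b k‖ ^ 2 ≤ 2 * ‖k‖ ^ 2 := by
  have h := (abs_le.1 (norm_S_sq D b k)).2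
  nlinarith [sq_nonneg ‖k‖]

/-- the residual operator -/
noncomputable def Ra (D : AD K δ) : Gen → X → (K →L[ℂ] K)
  | .x => fun _ => D.U (g .x)
  | .y => fun _ => D.U (g .y)
  | .z => fun b => (D.U (g .w)) ^ (b.1.val) * D.U (g .z)
  | .w => fun _ => 1

lemma rel (D : AD K δ) (a : Gen) (b : X) :
    ‖D.U (g a) * D.S b - D.S (la a b) * Ra D a b‖ ≤ δ := by
  cases a with
  | x => exact D.rel_x b
  | y => exact D.rel_y b
  | z =>
    have := D.rel_z b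
    rw [mul_assoc] at this
    exact this
  | w =>
    have := D.rel_w b
    show ‖D.U (g .w) * D.S b - D.S (b.1, b.2.1, b.2.2 + 1) * 1‖ ≤ δ
    rw [mul_one]
    exact this

lemma norm_pow_apply_le (hδ0 : 0 ≤ δ) (hδ : δ ≤ 1 / 100) (D : AD K δ) (a : Gen) (k : ℕ) (h : K) :
    ‖((D.U (g a)) ^ k) h‖ ≤ 2 ^ k * ‖h‖ := by
  refine (ContinuousLinearMap.le_opNorm _ _).trans (mul_le_mul_of_nonneg_right ?_ (norm_nonneg _))
  rcases Nat.eq_zero_or_pos k with h0 | h0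
  · subst h0
    rw [pow_zero, pow_zero]
    exact ContinuousLinearMap.norm_id_le
  · refine (norm_pow_le' _ h0).trans ?_
    exact pow_le_pow_left₀ (norm_nonneg _) (norm_U_le hδ0 hδ D a) k

lemma add_sq_le (a b : ℝ) : (a + b) ^ 2 ≤ 2 * a ^ 2 + 2 * b ^ 2 := by
  nlinarith [sq_nonneg (a - b)]

lemma norm_add_sq_le (x y : K) : ‖x + y‖ ^ 2 ≤ 2 * ‖x‖ ^ 2 + 2 * ‖y‖ ^ 2 :=
  (pow_le_pow_left₀ (norm_nonneg _) (norm_add_le x y) 2).trans (add_sq_le _ _)

/-- powers of `w` -/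
lemma pow_defect (hδ0 : 0 ≤ δ) (hδ : δ ≤ 1 / 100) (D : AD K δ) (N : ℕ) (F : V N → K) {e : ℝ}
    (he : 0 ≤ e) (h : ∑ v, ‖D.U (g .w) (F v) - F (g .w N v)‖ ^ 2 ≤ e) (k : ℕ) :
    ∑ v, ‖((D.U (g .w)) ^ k) (F v) - F (((g .w N) ^ k) v)‖ ^ 2 ≤ (8 ^ k - 1) * e := by
  induction k with
  | zero => simp
  | succ k ih =>
    have h1 : ∀ v, ‖((D.U (g .w)) ^ (k + 1)) (F v) - F (((g .w N) ^ (k + 1)) v)‖ ^ 2
        ≤ 8 * ‖((D.U (g .w)) ^ k) (F v) - F (((g .w N) ^ k) v)‖ ^ 2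
          + 2 * ‖D.U (g .w) (F (((g .w N) ^ k) v)) - F (g .w N (((g .w N) ^ k) v))‖ ^ 2 := by
      intro v
      have e1 : ((D.U (g .w)) ^ (k + 1)) (F v) - F (((g .w N) ^ (k + 1)) v)
          = D.U (g .w) (((D.U (g .w)) ^ k) (F v) - F (((g .w N) ^ k) v))
            + (D.U (g .w) (F (((g .w N) ^ k) v)) - F (g .w N (((g .w N) ^ k) v))) := by
        rw [pow_succ' (D.U (g .w)), pow_succ' (g .w N), mul_apply_eq_comp,
          Equiv.Perm.mul_apply, map_sub]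
        abel
      rw [e1]
      refine (norm_add_sq_le _ _).trans ?_
      have h2 := (D.U (g .w)).le_opNorm (((D.U (g .w)) ^ k) (F v) - F (((g .w N) ^ k) v))
      have h3 := norm_U_le hδ0 hδ D .w
      have h4 : ‖D.U (g .w) (((D.U (g .w)) ^ k) (F v) - F (((g .w N) ^ k) v))‖
          ≤ 2 * ‖((D.U (g .w)) ^ k) (F v) - F (((g .w N) ^ k) v)‖ :=
        h2.trans (mul_le_mul_of_nonneg_right h3 (norm_nonneg _))
      have h5 := pow_le_pow_left₀ (norm_nonneg _) h4 2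
      rw [mul_pow] at h5
      linarith
    refine (Finset.sum_le_sum fun v _ => h1 v).trans ?_
    rw [Finset.sum_add_distrib, ← Finset.mul_sum, ← Finset.mul_sum]
    have h6 : ∑ v, ‖D.U (g .w) (F (((g .w N) ^ k) v)) - F (g .w N (((g .w N) ^ k) v))‖ ^ 2
        = ∑ v, ‖D.U (g .w) (F v) - F (g .w N v)‖ ^ 2 :=
      Equiv.sum_comp ((g .w N) ^ k) (fun v => ‖D.U (g .w) (F v) - F (g .w N v)‖ ^ 2)
    rw [h6]
    have h7 : (8 : ℝ) ^ (k + 1) = 8 * 8 ^ k := by ring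
    rw [h7]
    nlinarith

/-- the constant -/
noncomputable def BB : ℝ := 4 * 8 ^ 37

lemma one_le_BB : 1 ≤ BB := by unfold BB; norm_num

/-- the defect of the residual -/
lemma res_defect (hδ0 : 0 ≤ δ) (hδ : δ ≤ 1 / 100) (D : AD K δ) (N : ℕ) (F : V N → K) {e : ℝ}
    (he : 0 ≤ e) (h : ∀ a : Gen, ∑ v, ‖D.U (g a) (F v) - F (g a N v)‖ ^ 2 ≤ e) (a : Gen) (b : X) :
    ∑ v, ‖Ra D a b (F v) - F (ra N a b v)‖ ^ 2 ≤ BB * e := by
  have hB : e ≤ BB * e := by nlinarith [one_le_BB]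
  cases a with
  | x => exact (h .x).trans hB
  | y => exact (h .y).trans hB
  | w =>
    have : ∑ v, ‖Ra D .w b (F v) - F (ra N .w b v)‖ ^ 2 = 0 := by
      apply Finset.sum_eq_zero
      intro v _
      simp [Ra, ra]
    rw [this]
    exact he.trans hB
  | z =>
    set k := b.1.val with hk
    have hk37 : k ≤ 37 := by
      have := ZMod.val_lt b.1
      have h37 : pp = 37 := rfl
      omega
    have h1 := pow_defect hδ0 hδ D N F he (h .w) k
    have h2 : ∀ v, ‖Ra D .z b (F v) - F (ra N .z b v)‖ ^ 2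
        ≤ 2 * 4 ^ k * ‖D.U (g .z) (F v) - F (g .z N v)‖ ^ 2
          + 2 * ‖((D.U (g .w)) ^ k) (F (g .z N v)) - F (((g .w N) ^ k) (g .z N v))‖ ^ 2 := by
      intro v
      have e1 : Ra D .z b (F v) - F (ra N .z b v)
          = ((D.U (g .w)) ^ k) (D.U (g .z) (F v) - F (g .z N v))
            + (((D.U (g .w)) ^ k) (F (g .z N v)) - F (((g .w N) ^ k) (g .z N v))) := by
        show (((D.U (g .w)) ^ k) * D.U (g .z)) (F v) - F ((((g .w N) ^ k) * g .z N) v) = _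
        rw [mul_apply_eq_comp, Equiv.Perm.mul_apply, map_sub]
        abel
      rw [e1]
      refine (norm_add_sq_le _ _).trans ?_
      have h5 := pow_le_pow_left₀ (norm_nonneg _)
        (norm_pow_apply_le hδ0 hδ D .w k (D.U (g .z) (F v) - F (g .z N v))) 2
      have h45 : ((2 : ℝ) ^ k) ^ 2 = 4 ^ k := by
        rw [← pow_mul, mul_comm, pow_mul]
        norm_num
      rw [mul_pow, h45] at h5
      linarith
    refine (Finset.sum_le_sum fun v _ => h2 v).trans ?_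
    rw [Finset.sum_add_distrib, ← Finset.mul_sum, ← Finset.mul_sum]
    have h6 : ∑ v, ‖((D.U (g .w)) ^ k) (F (g .z N v)) - F (((g .w N) ^ k) (g .z N v))‖ ^ 2
        = ∑ v, ‖((D.U (g .w)) ^ k) (F v) - F (((g .w N) ^ k) v)‖ ^ 2 :=
      Equiv.sum_comp (g .z N) (fun v => ‖((D.U (g .w)) ^ k) (F v) - F (((g .w N) ^ k) v)‖ ^ 2)
    rw [h6]
    have h7 : (4 : ℝ) ^ k ≤ 8 ^ 37 :=
      (pow_le_pow_left₀ (by norm_num) (by norm_num) k).trans
        (pow_le_pow_right₀ (by norm_num) hk37)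
    have h8 : (8 : ℝ) ^ k ≤ 8 ^ 37 := pow_le_pow_right₀ (by norm_num) hk37
    have h9 : 2 * (4 : ℝ) ^ k * ∑ v, ‖D.U (g .z) (F v) - F (g .z N v)‖ ^ 2
        ≤ 2 * 8 ^ 37 * e := by
      apply mul_le_mul _ (h .z) (Finset.sum_nonneg fun v _ => sq_nonneg _) (by positivity)
      linarith
    have h10 : 2 * ∑ v, ‖((D.U (g .w)) ^ k) (F v) - F (((g .w N) ^ k) v)‖ ^ 2
        ≤ 2 * 8 ^ 37 * e := by
      have : (8 ^ k - 1) * e ≤ 8 ^ 37 * e := mul_le_mul_of_nonneg_right (by linarith) he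
      linarith
    unfold BB
    linarith

/-! ## The operator `T` -/

/-- the normalising constant -/
noncomputable def cc : ℝ := (Real.sqrt ((pp : ℝ) ^ 3))⁻¹

lemma cc_sq : (pp : ℝ) ^ 3 * cc ^ 2 = 1 := by
  unfold cc
  rw [inv_pow, Real.sq_sqrt (by positivity)]
  apply mul_inv_cancel₀
  have : (0 : ℝ) < pp := by norm_num [pp]
  positivity

/-- prepending a letter -/
noncomputable def TT {N : ℕ} (D : AD K δ) (F : V N → K) (u : V (N + 1)) : K :=
  ((cc : ℝ) : ℂ) • D.S ((consEquiv N).symm u).1 (F ((consEquiv N).symm u).2)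

lemma TT_cons {N : ℕ} (D : AD K δ) (F : V N → K) (b : X) (v : V N) :
    TT D F (cons b v) = ((cc : ℝ) : ℂ) • D.S b (F v) := by
  unfold TT
  rw [← consEquiv_apply, Equiv.symm_apply_apply]

lemma norm_cc_smul (k : K) : ‖((cc : ℝ) : ℂ) • k‖ ^ 2 = cc ^ 2 * ‖k‖ ^ 2 := by
  rw [norm_smul, Complex.norm_real, mul_pow, Real.norm_eq_abs, sq_abs]

lemma sum_X_const (r : ℝ) : ∑ _b : X, r = (pp : ℝ) ^ 3 * r := by
  rw [Finset.sum_const, Finset.card_univ, card_X, nsmul_eq_mul]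
  push_cast
  ring

lemma TT_norm {N : ℕ} (D : AD K δ) (F : V N → K) :
    (1 - δ) * ∑ v, ‖F v‖ ^ 2 ≤ ∑ u, ‖TT D F u‖ ^ 2 ∧
      ∑ u, ‖TT D F u‖ ^ 2 ≤ (1 + δ) * ∑ v, ‖F v‖ ^ 2 := by
  have e1 : ∑ u, ‖TT D F u‖ ^ 2 = ∑ b : X, ∑ v : V N, cc ^ 2 * ‖D.S b (F v)‖ ^ 2 := by
    rw [sum_cons]
    simp_rw [TT_cons, norm_cc_smul]
  have h1 : ∀ (b : X) (v : V N), cc ^ 2 * ((1 - δ) * ‖F v‖ ^ 2) ≤ cc ^ 2 * ‖D.S b (F v)‖ ^ 2 ∧
      cc ^ 2 * ‖D.S b (F v)‖ ^ 2 ≤ cc ^ 2 * ((1 + δ) * ‖F v‖ ^ 2) := by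
    intro b v
    have h := abs_le.1 (norm_S_sq D b (F v))
    constructor <;> apply mul_le_mul_of_nonneg_left _ (sq_nonneg _) <;> linarith [h.1, h.2]
  have e2 : ∀ r : ℝ, ∑ _b : X, ∑ v : V N, cc ^ 2 * (r * ‖F v‖ ^ 2) = r * ∑ v, ‖F v‖ ^ 2 := by
    intro r
    rw [sum_X_const]
    have : ∑ v : V N, cc ^ 2 * (r * ‖F v‖ ^ 2) = cc ^ 2 * (r * ∑ v, ‖F v‖ ^ 2) := by
      rw [Finset.mul_sum, Finset.mul_sum]
    rw [this, ← mul_assoc, cc_sq, one_mul]
  rw [e1]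
  constructor
  · rw [← e2]
    exact Finset.sum_le_sum fun b _ => Finset.sum_le_sum fun v _ => (h1 b v).1
  · rw [← e2]
    exact Finset.sum_le_sum fun b _ => Finset.sum_le_sum fun v _ => (h1 b v).2

lemma TT_defect (hREC : S_REC) (hδ0 : 0 ≤ δ) (hδ : δ ≤ 1 / 100) (D : AD K δ) (N : ℕ)
    (F : V N → K) {e : ℝ} (he : 0 ≤ e) (hF : ∑ v, ‖F v‖ ^ 2 = 1)
    (h : ∀ a : Gen, ∑ v, ‖D.U (g a) (F v) - F (g a N v)‖ ^ 2 ≤ e) (a : Gen) :
    ∑ u, ‖D.U (g a) (TT D F u) - TT D F (g a (N + 1) u)‖ ^ 2 ≤ 4 * BB * (e + δ ^ 2) := by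
  rw [sum_cons]
  have h1 : ∀ (b : X) (v : V N),
      ‖D.U (g a) (TT D F (cons b v)) - TT D F (g a (N + 1) (cons b v))‖ ^ 2
        ≤ cc ^ 2 * (2 * (δ ^ 2 * ‖F v‖ ^ 2)
          + 2 * (2 * ‖Ra D a b (F v) - F (ra N a b v)‖ ^ 2)) := by
    intro b v
    rw [g_cons hREC, TT_cons, TT_cons, map_smul, ← smul_sub, norm_cc_smul]
    apply mul_le_mul_of_nonneg_left _ (sq_nonneg _)
    have e1 : D.U (g a) (D.S b (F v)) - D.S (la a b) (F (ra N a b v))
        = (D.U (g a) * D.S b - D.S (la a b) * Ra D a b) (F v)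
          + D.S (la a b) (Ra D a b (F v) - F (ra N a b v)) := by
      rw [sub_apply, mul_apply_eq_comp,
        mul_apply_eq_comp, map_sub]
      abel
    rw [e1]
    refine (norm_add_sq_le _ _).trans ?_
    apply add_le_add
    · apply mul_le_mul_of_nonneg_left _ (by norm_num)
      have h2 := (D.U (g a) * D.S b - D.S (la a b) * Ra D a b).le_opNorm (F v)
      have h3 := h2.trans (mul_le_mul_of_nonneg_right (rel D a b) (norm_nonneg _))
      have h4 := pow_le_pow_left₀ (norm_nonneg _) h3 2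
      rwa [mul_pow] at h4
    · apply mul_le_mul_of_nonneg_left _ (by norm_num)
      exact norm_S_sq_le hδ D _ _
  refine (Finset.sum_le_sum fun b _ => Finset.sum_le_sum fun v _ => h1 b v).trans ?_
  have h2 : ∀ b : X, ∑ v : V N, cc ^ 2 * (2 * (δ ^ 2 * ‖F v‖ ^ 2)
          + 2 * (2 * ‖Ra D a b (F v) - F (ra N a b v)‖ ^ 2))
      ≤ cc ^ 2 * (2 * δ ^ 2 + 4 * (BB * e)) := by
    intro b
    rw [← Finset.mul_sum]
    apply mul_le_mul_of_nonneg_left _ (sq_nonneg _)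
    rw [Finset.sum_add_distrib, ← Finset.mul_sum, ← Finset.mul_sum, ← Finset.mul_sum,
      ← Finset.mul_sum, hF]
    have := res_defect hδ0 hδ D N F he h a b
    linarith
  refine (Finset.sum_le_sum fun b _ => h2 b).trans ?_
  rw [sum_X_const, ← mul_assoc, cc_sq, one_mul]
  nlinarith [one_le_BB, sq_nonneg δ]

lemma TT_new {N : ℕ} (D : AD K δ) (F : V (N + 1) → K) (hF : IsNew F) :
    IsNew (N := N + 1) (TT D F) := by
  intro u
  obtain ⟨⟨b, v⟩, rfl⟩ := (consEquiv (N + 1)).surjective u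
  rw [consEquiv_apply]
  simp_rw [cons_add_lst, TT_cons]
  rw [← Finset.smul_sum, ← map_sum, hF v, map_zero, smul_zero]

/-- normalisation -/
lemma normalise {N : ℕ} (D : AD K δ) (F : V (N + 1) → K) {n E : ℝ} (hn : 1 / 2 ≤ n)
    (hF : ∑ v, ‖F v‖ ^ 2 = n) (hnew : IsNew F)
    (h : ∀ a : Gen, ∑ u, ‖D.U (g a) (F u) - F (g a (N + 1) u)‖ ^ 2 ≤ E) :
    ∃ F' : V (N + 1) → K, IsNew F' ∧ ∑ v, ‖F' v‖ ^ 2 = 1 ∧
      ∀ a : Gen, ∑ v, ‖D.U (g a) (F' ((g a (N + 1)).symm v)) - F' v‖ ^ 2 ≤ 2 * E := by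
  have hn0 : 0 < n := by linarith
  set r : ℝ := (Real.sqrt n)⁻¹ with hr
  have hr2 : r ^ 2 * n = 1 := by
    rw [hr, inv_pow, Real.sq_sqrt hn0.le]
    exact inv_mul_cancel₀ hn0.ne'
  have hr2' : r ^ 2 ≤ 2 := by
    rw [hr, inv_pow, Real.sq_sqrt hn0.le]
    rw [inv_le_comm₀ hn0 (by norm_num)]
    linarith
  have hsm : ∀ k : K, ‖((r : ℝ) : ℂ) • k‖ ^ 2 = r ^ 2 * ‖k‖ ^ 2 := by
    intro k
    rw [norm_smul, Complex.norm_real, mul_pow, Real.norm_eq_abs, sq_abs]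
  refine ⟨fun v => ((r : ℝ) : ℂ) • F v, ?_, ?_, ?_⟩
  · intro v
    rw [← Finset.smul_sum, hnew v, smul_zero]
  · simp_rw [hsm]
    rw [← Finset.mul_sum, hF, hr2]
  · intro a
    have e1 : ∑ v, ‖D.U (g a) (((r : ℝ) : ℂ) • F ((g a (N + 1)).symm v))
          - ((r : ℝ) : ℂ) • F v‖ ^ 2
        = ∑ v, ‖D.U (g a) (((r : ℝ) : ℂ) • F v) - ((r : ℝ) : ℂ) • F (g a (N + 1) v)‖ ^ 2 := by
      rw [← Equiv.sum_comp (g a (N + 1))]
      simp
    rw [e1]
    have e2 : ∀ v, ‖D.U (g a) (((r : ℝ) : ℂ) • F v) - ((r : ℝ) : ℂ) • F (g a (N + 1) v)‖ ^ 2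
        = r ^ 2 * ‖D.U (g a) (F v) - F (g a (N + 1) v)‖ ^ 2 := by
      intro v
      rw [map_smul, ← smul_sub, hsm]
    simp_rw [e2]
    rw [← Finset.mul_sum]
    have h3 := h a
    have h4 : 0 ≤ ∑ u, ‖D.U (g a) (F u) - F (g a (N + 1) u)‖ ^ 2 :=
      Finset.sum_nonneg fun u _ => sq_nonneg _
    nlinarith

/-- STEP -/
theorem step (hREC : S_REC) : S_STEP.{u} := by
  refine ⟨8 * BB, by have := one_le_BB; linarith, ?_⟩
  intro K _ _ _ δ hδ0 hδ D N F e he hnew hF h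
  have h' : ∀ a : Gen, ∑ v, ‖D.U (g a) (F v) - F (g a (N + 1) v)‖ ^ 2 ≤ e := by
    intro a
    have h1 := h a
    rw [← Equiv.sum_comp (g a (N + 1))] at h1
    simpa using h1
  have h1 := TT_defect hREC hδ0 hδ D (N + 1) F he hF h'
  have h2 := TT_norm D F
  rw [hF] at h2
  obtain ⟨F', h3, h4, h5⟩ := normalise (N := N + 1) D (TT D F)
    (n := ∑ u, ‖TT D F u‖ ^ 2) (by linarith [h2.1]) rfl (TT_new D F hnew) h1
  refine ⟨F', h3, h4, fun a => (h5 a).trans (le_of_eq ?_)⟩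
  ring

/-- BASE -/
theorem base (hREC : S_REC) : S_BASE.{u} := by
  refine ⟨64 * BB, by have := one_le_BB; linarith, ?_⟩
  intro K _ _ _ δ hδ0 hδ D
  -- level zero
  set F : V 0 → K := fun _ => D.ξ with hFdef
  have hcard0 : Fintype.card (V 0) = 1 := by simp [V, M]
  have hF : ∑ v, ‖F v‖ ^ 2 = 1 := by
    rw [hFdef]
    simp only [Finset.sum_const, Finset.card_univ, hcard0, D.ξ_norm]
    simp
  have h0 : ∀ a : Gen, ∑ v, ‖D.U (g a) (F v) - F (g a 0 v)‖ ^ 2 ≤ δ ^ 2 := by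
    intro a
    rw [hFdef]
    simp only [Finset.sum_const, Finset.card_univ, hcard0, one_smul]
    exact pow_le_pow_left₀ (norm_nonneg _) (D.ξ_inv a) 2
  have h1 := TT_defect hREC hδ0 hδ D 0 F (sq_nonneg δ) hF h0
  have h2 := TT_norm D F
  rw [hF] at h2
  set T : V 1 → K := TT D F with hT
  -- the mean
  set P : ℝ := (pp : ℝ) ^ 3 with hP
  have hP0 : 0 < P := by rw [hP]; norm_num [pp]
  have hcardV : (Fintype.card (V 1) : ℝ) = P := by
    have : Fintype.card (V 1) = Fintype.card (X × V 0) := Fintype.card_congr (consEquiv 0).symm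
    rw [this, Fintype.card_prod, hcard0, card_X, hP]
    push_cast
    ring
  set m : K := ((P⁻¹ : ℝ) : ℂ) • ∑ u, T u with hm
  have hPm : ((P : ℝ) : ℂ) • m = ∑ u, T u := by
    rw [hm, smul_smul, ← Complex.ofReal_mul, mul_inv_cancel₀ hP0.ne', Complex.ofReal_one,
      one_smul]
  have hsumC : ∀ k : K, ∑ _u : V 1, k = ((P : ℝ) : ℂ) • k := by
    intro k
    rw [Finset.sum_const, Finset.card_univ, ← Nat.cast_smul_eq_nsmul ℂ, ← hcardV]
    norm_cast
  set F1 : V 1 → K := fun u => T u - m with hF1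
  -- new
  have hsum0 : ∑ u, F1 u = 0 := by
    rw [hF1, Finset.sum_sub_distrib, hsumC, hPm, sub_self]
  have hnew : IsNew (N := 0) F1 := by
    intro v
    have hbij : Function.Bijective fun c : X => v + lst 0 c := by
      have hinj : Function.Injective fun c : X => v + lst 0 c := by
        intro c c' h
        have h' : lst 0 c = lst 0 c' := add_left_cancel h
        obtain ⟨c1, c2, c3⟩ := c
        obtain ⟨d1, d2, d3⟩ := c'
        simp only [lst, Prod.mk.injEq] at h'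
        obtain ⟨e1, e2, e3⟩ := h'
        have f1 := Pi.single_injective _ e1
        have f2 := Pi.single_injective _ e2
        have f3 := Pi.single_injective _ e3
        rw [f1, f2, f3]
      refine (Fintype.bijective_iff_injective_and_card _).2 ⟨hinj, ?_⟩
      have : (Fintype.card (V 1) : ℝ) = (Fintype.card X : ℝ) := by
        rw [hcardV, card_X, hP]
        push_cast
        ring
      exact_mod_cast this.symm
    have := hbij.sum_comp F1
    rw [this]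
    exact hsum0
  -- the norm
  have hnorm : ∑ u, ‖F1 u‖ ^ 2 = ∑ u, ‖T u‖ ^ 2 - P * ‖m‖ ^ 2 := by
    have e1 : ∀ u, ‖F1 u‖ ^ 2 = ‖T u‖ ^ 2 - 2 * (⟪m, T u⟫_ℂ).re + ‖m‖ ^ 2 := by
      intro u
      rw [hF1]
      have := norm_sub_sq (𝕜 := ℂ) (T u) m
      rw [this]
      have h3 : RCLike.re ⟪T u, m⟫_ℂ = (⟪m, T u⟫_ℂ).re := inner_re_symm (𝕜 := ℂ) (T u) m
      rw [h3]
    simp_rw [e1]
    rw [Finset.sum_add_distrib, Finset.sum_sub_distrib, ← Finset.mul_sum, ← Complex.re_sum,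
      ← inner_sum, ← hPm, inner_smul_right, inner_self_eq_norm_sq_to_K, Finset.sum_const,
      Finset.card_univ, nsmul_eq_mul, hcardV]
    have h4 : (((P : ℝ) : ℂ) * ((‖m‖ : ℝ) : ℂ) ^ 2).re = P * ‖m‖ ^ 2 := by
      rw [← Complex.ofReal_pow, ← Complex.ofReal_mul, Complex.ofReal_re]
    have h5 : (((P : ℝ) : ℂ) * ((RCLike.ofReal ‖m‖ : ℂ)) ^ 2).re = P * ‖m‖ ^ 2 := h4
    rw [h5]
    ring
  have hm_sq : P * ‖m‖ ^ 2 ≤ 1 / 10 := by
    have e1 : ∑ u, T u = ((cc : ℝ) : ℂ) • ∑ b : X, D.S b D.ξ := by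
      have : ∑ u, T u = ∑ b : X, ∑ v : V 0, T (cons b v) := by
        rw [← (consEquiv 0).sum_comp, Fintype.sum_prod_type]
        rfl
      rw [this, Finset.smul_sum]
      apply Finset.sum_congr rfl
      intro b _
      rw [hT]
      simp_rw [TT_cons]
      rw [hFdef]
      simp only [Finset.sum_const, Finset.card_univ, hcard0, one_smul]
    have e2 : P * ‖m‖ ^ 2 = P⁻¹ * ‖∑ u, T u‖ ^ 2 := by
      have h3 : ‖∑ u, T u‖ = P * ‖m‖ := by
        have h4 := congrArg norm hPm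
        rw [norm_smul, Complex.norm_real, Real.norm_eq_abs, abs_of_pos hP0] at h4
        exact h4.symm
      rw [h3, mul_pow]
      field_simp
    have e3 : ‖∑ u, T u‖ ^ 2 = P⁻¹ * ‖∑ b : X, D.S b D.ξ‖ ^ 2 := by
      rw [e1, norm_cc_smul]
      congr 1
      have := cc_sq
      rw [← hP] at this
      field_simp
      linarith
    have h3 : ‖∑ b : X, D.S b D.ξ‖ ^ 2 ≤ P * (1 + δ) + P * P * δ := by
      have e4 : (‖∑ b : X, D.S b D.ξ‖ ^ 2 : ℝ)
          = (∑ b : X, ∑ c : X, ⟪D.S b D.ξ, D.S c D.ξ⟫_ℂ).re := by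
        have h6 : ⟪∑ b : X, D.S b D.ξ, ∑ b : X, D.S b D.ξ⟫_ℂ
            = ∑ b : X, ∑ c : X, ⟪D.S b D.ξ, D.S c D.ξ⟫_ℂ := by
          rw [sum_inner]
          apply Finset.sum_congr rfl
          intro b _
          rw [inner_sum]
        rw [← h6, inner_self_eq_norm_sq_to_K]
        have h7 : (((‖∑ b : X, D.S b D.ξ‖ : ℝ) : ℂ) ^ 2).re = ‖∑ b : X, D.S b D.ξ‖ ^ 2 := by
          rw [← Complex.ofReal_pow, Complex.ofReal_re]
        exact h7.symm
      rw [e4, Complex.re_sum]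
      have h8 : ∀ b : X, (∑ c : X, ⟪D.S b D.ξ, D.S c D.ξ⟫_ℂ).re ≤ (1 + δ) + P * δ := by
        intro b
        rw [Complex.re_sum, ← Finset.add_sum_erase _ _ (Finset.mem_univ b)]
        apply add_le_add
        · have h9 := (abs_le.1 (norm_S_sq D b D.ξ)).2
          rw [D.ξ_norm] at h9
          have h10 : (⟪D.S b D.ξ, D.S b D.ξ⟫_ℂ).re = ‖D.S b D.ξ‖ ^ 2 := by
            rw [inner_self_eq_norm_sq_to_K]
            have h7 : (((‖D.S b D.ξ‖ : ℝ) : ℂ) ^ 2).re = ‖D.S b D.ξ‖ ^ 2 := by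
              rw [← Complex.ofReal_pow, Complex.ofReal_re]
            exact h7
          rw [h10]
          linarith
        · have h11 : ∑ c ∈ Finset.univ.erase b, (⟪D.S b D.ξ, D.S c D.ξ⟫_ℂ).re
              ≤ ∑ _c ∈ Finset.univ.erase b, δ := by
            apply Finset.sum_le_sum
            intro c hc
            have hbc : b ≠ c := (Finset.mem_erase.1 hc).1.symm
            exact (Complex.re_le_norm _).trans (D.ξ_orth b c hbc)
          refine h11.trans ?_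
          have h12 : ∑ _c ∈ Finset.univ.erase b, δ ≤ ∑ _c : X, δ :=
            Finset.sum_le_sum_of_subset_of_nonneg (Finset.erase_subset _ _) (fun _ _ _ => hδ0)
          refine h12.trans (le_of_eq ?_)
          rw [sum_X_const]
      refine (Finset.sum_le_sum fun b _ => h8 b).trans (le_of_eq ?_)
      rw [sum_X_const, ← hP]
      ring
    rw [e2, e3]
    have hPnum : P = 50653 := by rw [hP]; norm_num [pp]
    have h4 : P⁻¹ * (P⁻¹ * ‖∑ b : X, D.S b D.ξ‖ ^ 2) ≤ P⁻¹ * (P⁻¹ * (P * (1 + δ) + P * P * δ)) := by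
      have : 0 ≤ P⁻¹ := by positivity
      exact mul_le_mul_of_nonneg_left (mul_le_mul_of_nonneg_left h3 this) this
    refine h4.trans ?_
    have h5 : P⁻¹ * (P⁻¹ * (P * (1 + δ) + P * P * δ)) = P⁻¹ * (1 + δ) + δ := by
      field_simp
    rw [h5, hPnum]
    norm_num
    linarith
  -- defects
  have hdef : ∀ a : Gen, ∑ u, ‖D.U (g a) (F1 u) - F1 (g a 1 u)‖ ^ 2
      ≤ 16 * BB * (δ ^ 2 + δ ^ 2) := by
    intro a
    set Δ : V 1 → K := fun u => D.U (g a) (T u) - T (g a 1 u) with hΔ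
    have hΔs : ∑ u, ‖Δ u‖ ^ 2 ≤ 4 * BB * (δ ^ 2 + δ ^ 2) := h1 a
    have e1 : ((P : ℝ) : ℂ) • (D.U (g a) m - m) = ∑ u, Δ u := by
      rw [hΔ, Finset.sum_sub_distrib, Equiv.sum_comp (g a 1) T, smul_sub, ← map_smul, hPm, map_sum]
    have h3 : P * ‖D.U (g a) m - m‖ ^ 2 ≤ ∑ u, ‖Δ u‖ ^ 2 := by
      have h4 : (P * ‖D.U (g a) m - m‖) ^ 2 ≤ P * ∑ u, ‖Δ u‖ ^ 2 := by
        have h5 : P * ‖D.U (g a) m - m‖ = ‖∑ u, Δ u‖ := by
          rw [← e1, norm_smul, Complex.norm_real, Real.norm_eq_abs, abs_of_pos hP0]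
        rw [h5]
        have h6 : ‖∑ u, Δ u‖ ≤ ∑ u, ‖Δ u‖ := norm_sum_le _ _
        refine (pow_le_pow_left₀ (norm_nonneg _) h6 2).trans ?_
        have h7 := sq_sum_le_card_mul_sum_sq (s := (Finset.univ : Finset (V 1)))
          (f := fun u => ‖Δ u‖)
        rw [Finset.card_univ, hcardV] at h7
        exact h7
      rw [mul_pow, sq P, mul_assoc] at h4
      exact le_of_mul_le_mul_left h4 hP0
    have h4 : ∀ u, ‖D.U (g a) (F1 u) - F1 (g a 1 u)‖ ^ 2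
        ≤ 2 * ‖Δ u‖ ^ 2 + 2 * ‖D.U (g a) m - m‖ ^ 2 := by
      intro u
      have e2 : D.U (g a) (F1 u) - F1 (g a 1 u) = Δ u + -(D.U (g a) m - m) := by
        rw [hF1, hΔ]
        simp only [map_sub]
        abel
      rw [e2]
      refine (norm_add_sq_le _ _).trans (le_of_eq ?_)
      rw [norm_neg]
    refine (Finset.sum_le_sum fun u _ => h4 u).trans ?_
    rw [Finset.sum_add_distrib, ← Finset.mul_sum, Finset.sum_const, Finset.card_univ,
      nsmul_eq_mul, hcardV]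
    linarith
  obtain ⟨F', h3, h4, h5⟩ := normalise (N := 0) D F1 (n := ∑ u, ‖F1 u‖ ^ 2)
    (by rw [hnorm]; linarith [h2.1]) rfl hnew hdef
  refine ⟨F', h3, h4, fun a => (h5 a).trans (le_of_eq ?_)⟩
  ring

end Vale.Agent.P083.Step
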