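import Mathlib

/-!
# P083: norm ultrapowers of C*-algebras

`BddSeq B` is the star algebra `ℓ^∞(ℕ, B)` of norm-bounded sequences in a C*-algebra `B`,
`NormUltrapower ω B` its quotient by the ideal of the sequences whose norms tend to `0` along the
ultrafilter `ω`, as a unital complex star algebra.
-/

open Filter Topology

namespace Vale.Agent.P083

universe u

variable (ω : Ultrafilter ℕ) (B : Type u) [CStarAlgebra B]

/-- The star algebra of norm-bounded sequences in `B` (pointwise operations). -/
def BddSeq : StarSubalgebra ℂ (ℕ → B) where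
  carrier := {b | ∃ C : ℝ, ∀ n, ‖b n‖ ≤ C}
  mul_mem' := by
    rintro a b ⟨C, hC⟩ ⟨D, hD⟩
    refine ⟨C * D, fun n => (norm_mul_le _ _).trans ?_⟩
    exact mul_le_mul (hC n) (hD n) (norm_nonneg _) ((norm_nonneg _).trans (hC n))
  one_mem' := ⟨‖(1 : B)‖, fun n => le_rfl⟩
  add_mem' := by
    rintro a b ⟨C, hC⟩ ⟨D, hD⟩
    exact ⟨C + D, fun n => (norm_add_le _ _).trans (add_le_add (hC n) (hD n))⟩
  zero_mem' := ⟨0, fun n => by simp⟩
  algebraMap_mem' := fun r => ⟨‖algebraMap ℂ B r‖, fun n => le_rfl⟩
  star_mem' := by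
    rintro a ⟨C, hC⟩
    exact ⟨C, fun n => by simpa using hC n⟩

/-- Two bounded sequences are identified if the norms of their differences tend to `0` along `ω`;
i.e. congruence modulo the ideal `I_ω(B)`. -/
def nullCon : RingCon (BddSeq B) where
  r a b := Tendsto (fun n => ‖(a : ℕ → B) n - (b : ℕ → B) n‖) ω (𝓝 0)
  iseqv := by
    refine ⟨fun a => by simp, fun {a b} h => ?_, fun {a b c} h1 h2 => ?_⟩
    · simpa only [norm_sub_rev] using h
    · refine squeeze_zero (fun n => norm_nonneg _) (fun n => ?_) (by simpa using h1.add h2)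
      simpa using norm_sub_le_norm_sub_add_norm_sub ((a : ℕ → B) n) ((b : ℕ → B) n) ((c : ℕ → B) n)
  add' := by
    intro a b c d h1 h2
    refine squeeze_zero (fun n => norm_nonneg _) (fun n => ?_) (by simpa using h1.add h2)
    have : ((a + c : BddSeq B) : ℕ → B) n - ((b + d : BddSeq B) : ℕ → B) n
        = ((a : ℕ → B) n - (b : ℕ → B) n) + ((c : ℕ → B) n - (d : ℕ → B) n) := by
      simp only [AddMemClass.coe_add, Pi.add_apply]; abel
    rw [this]
    exact norm_add_le _ _
  mul' := by
    intro a b c d h1 h2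
    obtain ⟨C, hC⟩ := c.2
    obtain ⟨D, hD⟩ := b.2
    have h3 : Tendsto (fun n => ‖(a : ℕ → B) n - (b : ℕ → B) n‖ * |C| +
        |D| * ‖(c : ℕ → B) n - (d : ℕ → B) n‖) ω (𝓝 0) := by
      simpa using (h1.mul_const |C|).add (h2.const_mul |D|)
    refine squeeze_zero (fun n => norm_nonneg _) (fun n => ?_) h3
    have : ((a * c : BddSeq B) : ℕ → B) n - ((b * d : BddSeq B) : ℕ → B) n
        = ((a : ℕ → B) n - (b : ℕ → B) n) * (c : ℕ → B) n
          + (b : ℕ → B) n * ((c : ℕ → B) n - (d : ℕ → B) n) := by
      simp only [MulMemClass.coe_mul, Pi.mul_apply]; noncomm_ring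
    rw [this]
    refine (norm_add_le _ _).trans (add_le_add ?_ ?_)
    · refine (norm_mul_le _ _).trans (mul_le_mul_of_nonneg_left ?_ (norm_nonneg _))
      exact (hC n).trans (le_abs_self _)
    · refine (norm_mul_le _ _).trans (mul_le_mul_of_nonneg_right ?_ (norm_nonneg _))
      exact (hD n).trans (le_abs_self _)

/-- The norm ultrapower `B^ω = ℓ^∞(ℕ, B) / I_ω(B)`. -/
abbrev NormUltrapower : Type u := (nullCon ω B).Quotient

variable {B}

/-- The class of a bounded sequence. -/
noncomputable def NormUltrapower.mk (a : BddSeq B) : NormUltrapower ω B :=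
  (RingCon.toQuotient a : (nullCon ω B).Quotient)

lemma NormUltrapower.mk_surjective :
    Function.Surjective (NormUltrapower.mk (B := B) ω) := by
  intro x
  exact Quotient.inductionOn' x (fun a => ⟨a, rfl⟩)

lemma NormUltrapower.mk_eq_mk {a b : BddSeq B} :
    NormUltrapower.mk ω a = NormUltrapower.mk ω b ↔
      Tendsto (fun n => ‖(a : ℕ → B) n - (b : ℕ → B) n‖) ω (𝓝 0) :=
  RingCon.eq (nullCon ω B)

lemma nullCon_star {a b : BddSeq B} (h : (nullCon ω B) a b) :
    (nullCon ω B) (star a) (star b) := by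
  change Tendsto _ _ _ at h
  change Tendsto _ _ _
  convert h using 2 with n
  rw [← norm_star]
  simp

noncomputable instance : Star (NormUltrapower ω B) where
  star x := Quotient.liftOn' (s₁ := (nullCon ω B).toSetoid) x
    (fun a => NormUltrapower.mk ω (star a))
    (fun _ _ h => (RingCon.eq (nullCon ω B)).2 (nullCon_star ω h))

lemma NormUltrapower.star_mk (a : BddSeq B) :
    star (NormUltrapower.mk ω a) = NormUltrapower.mk ω (star a) := rfl

lemma NormUltrapower.mk_mul (a b : BddSeq B) :
    NormUltrapower.mk ω (a * b) = NormUltrapower.mk ω a * NormUltrapower.mk ω b := rfl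

lemma NormUltrapower.mk_add (a b : BddSeq B) :
    NormUltrapower.mk ω (a + b) = NormUltrapower.mk ω a + NormUltrapower.mk ω b := rfl

lemma NormUltrapower.mk_one :
    NormUltrapower.mk ω (1 : BddSeq B) = 1 := rfl

lemma NormUltrapower.mk_zero :
    NormUltrapower.mk ω (0 : BddSeq B) = 0 := rfl

lemma NormUltrapower.mk_smul (c : ℂ) (a : BddSeq B) :
    NormUltrapower.mk ω (c • a) = c • NormUltrapower.mk ω a := rfl

noncomputable instance : StarRing (NormUltrapower ω B) where
  star_involutive x := by
    obtain ⟨a, rfl⟩ := NormUltrapower.mk_surjective ω x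
    simp only [NormUltrapower.star_mk, star_star]
  star_mul x y := by
    obtain ⟨a, rfl⟩ := NormUltrapower.mk_surjective ω x
    obtain ⟨b, rfl⟩ := NormUltrapower.mk_surjective ω y
    simp only [NormUltrapower.star_mk, ← NormUltrapower.mk_mul, star_mul]
  star_add x y := by
    obtain ⟨a, rfl⟩ := NormUltrapower.mk_surjective ω x
    obtain ⟨b, rfl⟩ := NormUltrapower.mk_surjective ω y
    simp only [NormUltrapower.star_mk, ← NormUltrapower.mk_add, star_add]

instance : StarModule ℂ (NormUltrapower ω B) where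
  star_smul c x := by
    obtain ⟨a, rfl⟩ := NormUltrapower.mk_surjective ω x
    simp only [NormUltrapower.star_mk, ← NormUltrapower.mk_smul, star_smul]

end Vale.Agent.P083
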