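import Vale.Agent.P083.Defs
import Vale.Agent.P083.UltraDef

open Filter Topology
open scoped BigOperators ComplexConjugate InnerProductSpace

namespace Vale.Agent.P083

universe u v

/-- REP: norming representations of unital C*-algebras. -/
def S_REP : Prop := ∀ (B : Type u) [CStarAlgebra B] (b : B), b ≠ 0 →
  ∃ (K : Type u) (_ : NormedAddCommGroup K) (_ : InnerProductSpace ℂ K) (_ : CompleteSpace K)
    (π : B →⋆ₐ[ℂ] (K →L[ℂ] K)) (h : K), ‖h‖ = 1 ∧ ‖π b h‖ = ‖b‖

namespace Ultra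

variable {B : Type u} [CStarAlgebra B] (ω : Ultrafilter ℕ)

/-- a chosen representing sequence -/
noncomputable def rep (x : NormUltrapower ω B) : BddSeq B :=
  (NormUltrapower.mk_surjective ω x).choose

lemma mk_rep (x : NormUltrapower ω B) : NormUltrapower.mk ω (rep ω x) = x :=
  (NormUltrapower.mk_surjective ω x).choose_spec

/-- if the classes of two sequences are equal they are eventually close -/
lemma ev {a b : BddSeq B} (h : NormUltrapower.mk ω a = NormUltrapower.mk ω b) {ε : ℝ}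
    (hε : 0 < ε) : ∀ᶠ n in (ω : Filter ℕ), ‖(a : ℕ → B) n - (b : ℕ → B) n‖ ≤ ε := by
  have := (NormUltrapower.mk_eq_mk ω).1 h
  have h2 := this.eventually (gt_mem_nhds hε)
  exact h2.mono (fun n hn => le_of_lt hn)

lemma not_null {x : NormUltrapower ω B} (hx : x ≠ 0) :
    ∃ c : ℝ, 0 < c ∧ ∀ᶠ n in (ω : Filter ℕ), c ≤ ‖((rep ω x : BddSeq B) : ℕ → B) n‖ := by
  by_contra hcon
  push Not at hcon
  apply hx
  rw [← mk_rep ω x, ← NormUltrapower.mk_zero ω, NormUltrapower.mk_eq_mk]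
  rw [tendsto_order]
  refine ⟨fun a ha => Eventually.of_forall fun n => lt_of_lt_of_le ha (norm_nonneg _), ?_⟩
  intro a ha
  refine (hcon a ha).mono (fun n hn => ?_)
  simpa using hn

lemma mk_pow (a : BddSeq B) (k : ℕ) :
    NormUltrapower.mk ω (a ^ k) = NormUltrapower.mk ω a ^ k :=
  map_pow (nullCon ω B).mk' a k

lemma hs_one (a b : Gen) : hs a b 1 = 1 := by
  simp [hs]

lemma hs_gen (a b : Gen) : hs a b ⟨1, 0, 0⟩ = g a := by
  have : (1 : Fp).val = 1 := by
    have : Fact (1 < pp) := ⟨by norm_num [pp]⟩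
    exact ZMod.val_one pp
  simp [hs, this]

lemma exists_ne_gen (a : Gen) : ∃ b : Gen, a ≠ b := by
  cases a
  · exact ⟨.y, by simp⟩
  · exact ⟨.x, by simp⟩
  · exact ⟨.x, by simp⟩
  · exact ⟨.x, by simp⟩

theorem lift (hrep : S_REP.{u}) (s : Fin 2 → B) (hs1 : ∀ i, star (s i) * s i = 1)
    (hs2 : s 0 * star (s 0) + s 1 * star (s 1) = 1)
    (hgen : (StarAlgebra.adjoin ℂ (Set.range s)).topologicalClosure = ⊤)
    {A : Type v} [CStarAlgebra A] (U : G → A) (S : X → A) (q : A)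
    (hmul : ∀ a b : Gen, a ≠ b → ∀ h h' : Heis,
      U (hs a b h) * U (hs a b h') = U (hs a b (h * h')))
    (hstar : ∀ a b : Gen, a ≠ b → ∀ h : Heis, star (U (hs a b h)) = U (hs a b h⁻¹))
    (hone : U 1 = 1)
    (hiso : ∀ b, star (S b) * S b = 1)
    (horth : ∀ b c, b ≠ c → star (S b) * S c = 0)
    (hx : ∀ b : X, U (g .x) * S b = S (b.1 + b.2.1, b.2.1, b.2.2) * U (g .x))
    (hy : ∀ b : X, U (g .y) * S b = S (b.1, b.2.1 + b.2.2, b.2.2) * U (g .y))
    (hz : ∀ b : X, U (g .z) * S b = S b * (U (g .w)) ^ (b.1.val) * U (g .z))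
    (hw : ∀ b : X, U (g .w) * S b = S (b.1, b.2.1, b.2.2 + 1))
    (hq : q ≠ 0) (hUq : ∀ a : Gen, U (g a) * q = q)
    (φ : A →⋆ₐ[ℂ] NormUltrapower ω B) (hφ : Function.Injective φ) (δ : ℝ) (hδ : 0 < δ) :
    ∃ (K : Type u) (_ : NormedAddCommGroup K) (_ : InnerProductSpace ℂ K) (_ : CompleteSpace K)
      (t : Fin 2 → (K →L[ℂ] K)) (_ : IsCuntz t) (D : AD K δ),
      (∀ a, D.U (g a) ∈ cuntzAlg t) ∧ ∀ a, ‖D.U (g a)‖ ≤ 1 + δ := by
  classical
  -- lifts
  set u : G → BddSeq B := fun γ => rep ω (φ (U γ)) with hu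
  set σ : X → BddSeq B := fun b => rep ω (φ (S b)) with hσ
  set r : BddSeq B := rep ω (φ q) with hr
  have mu : ∀ γ, NormUltrapower.mk ω (u γ) = φ (U γ) := fun γ => mk_rep ω _
  have mσ : ∀ b, NormUltrapower.mk ω (σ b) = φ (S b) := fun γ => mk_rep ω _
  have mr : NormUltrapower.mk ω r = φ q := mk_rep ω _
  have hφq : φ q ≠ 0 := fun h => hq (hφ (by rw [h, map_zero]))
  obtain ⟨c, hc, hcn⟩ := not_null ω hφq
  have hδ' : 0 < min δ (c * δ) := lt_min hδ (mul_pos hc hδ)
  set δ' : ℝ := min δ (c * δ) with hδ'def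
  have hδ1 : δ' ≤ δ := min_le_left _ _
  have hδ2 : δ' ≤ c * δ := min_le_right _ _
  -- the eventual relations
  have e1 : ∀ᶠ n in (ω : Filter ℕ), ∀ a b : Gen, a ≠ b → ∀ h h' : Heis,
      ‖((u (hs a b h) : BddSeq B) : ℕ → B) n * ((u (hs a b h') : BddSeq B) : ℕ → B) n
        - ((u (hs a b (h * h')) : BddSeq B) : ℕ → B) n‖ ≤ δ' := by
    refine eventually_all.2 fun a => eventually_all.2 fun b => eventually_all.2 fun hab =>
      eventually_all.2 fun h => eventually_all.2 fun h' => ?_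
    have key : NormUltrapower.mk ω (u (hs a b h) * u (hs a b h'))
        = NormUltrapower.mk ω (u (hs a b (h * h'))) := by
      rw [NormUltrapower.mk_mul, mu, mu, mu, ← map_mul, hmul a b hab]
    exact ev ω key hδ'
  have e2 : ∀ᶠ n in (ω : Filter ℕ), ∀ a b : Gen, a ≠ b → ∀ h : Heis,
      ‖star (((u (hs a b h) : BddSeq B) : ℕ → B) n)
        - ((u (hs a b h⁻¹) : BddSeq B) : ℕ → B) n‖ ≤ δ' := by
    refine eventually_all.2 fun a => eventually_all.2 fun b => eventually_all.2 fun hab =>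
      eventually_all.2 fun h => ?_
    have key : NormUltrapower.mk ω (star (u (hs a b h)))
        = NormUltrapower.mk ω (u (hs a b h⁻¹)) := by
      rw [← NormUltrapower.star_mk, mu, mu, ← map_star, hstar a b hab]
    exact ev ω key hδ'
  have e3 : ∀ᶠ n in (ω : Filter ℕ), ‖((u 1 : BddSeq B) : ℕ → B) n - 1‖ ≤ δ' := by
    have key : NormUltrapower.mk ω (u 1) = NormUltrapower.mk ω (1 : BddSeq B) := by
      rw [mu, hone, map_one, NormUltrapower.mk_one]
    exact ev ω key hδ'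
  have e4 : ∀ᶠ n in (ω : Filter ℕ), ∀ b : X,
      ‖star (((σ b : BddSeq B) : ℕ → B) n) * ((σ b : BddSeq B) : ℕ → B) n - 1‖ ≤ δ' := by
    refine eventually_all.2 fun b => ?_
    have key : NormUltrapower.mk ω (star (σ b) * σ b) = NormUltrapower.mk ω (1 : BddSeq B) := by
      rw [NormUltrapower.mk_mul, ← NormUltrapower.star_mk, mσ, ← map_star, ← map_mul, hiso,
        map_one, NormUltrapower.mk_one]
    exact ev ω key hδ'
  have e5 : ∀ᶠ n in (ω : Filter ℕ), ∀ b b' : X, b ≠ b' →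
      ‖star (((σ b : BddSeq B) : ℕ → B) n) * ((σ b' : BddSeq B) : ℕ → B) n‖ ≤ δ' := by
    refine eventually_all.2 fun b => eventually_all.2 fun b' => eventually_all.2 fun hb => ?_
    have key : NormUltrapower.mk ω (star (σ b) * σ b') = NormUltrapower.mk ω (0 : BddSeq B) := by
      rw [NormUltrapower.mk_mul, ← NormUltrapower.star_mk, mσ, mσ, ← map_star, ← map_mul,
        horth b b' hb, map_zero, NormUltrapower.mk_zero]
    refine (ev ω key hδ').mono fun n hn => ?_
    simpa using hn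
  have e6 : ∀ᶠ n in (ω : Filter ℕ), ∀ b : X,
      ‖((u (g .x) : BddSeq B) : ℕ → B) n * ((σ b : BddSeq B) : ℕ → B) n
        - ((σ (b.1 + b.2.1, b.2.1, b.2.2) : BddSeq B) : ℕ → B) n
          * ((u (g .x) : BddSeq B) : ℕ → B) n‖ ≤ δ' := by
    refine eventually_all.2 fun b => ?_
    have key : NormUltrapower.mk ω (u (g .x) * σ b)
        = NormUltrapower.mk ω (σ (b.1 + b.2.1, b.2.1, b.2.2) * u (g .x)) := by
      rw [NormUltrapower.mk_mul, NormUltrapower.mk_mul, mu, mσ, mσ, ← map_mul, ← map_mul, hx]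
    exact ev ω key hδ'
  have e7 : ∀ᶠ n in (ω : Filter ℕ), ∀ b : X,
      ‖((u (g .y) : BddSeq B) : ℕ → B) n * ((σ b : BddSeq B) : ℕ → B) n
        - ((σ (b.1, b.2.1 + b.2.2, b.2.2) : BddSeq B) : ℕ → B) n
          * ((u (g .y) : BddSeq B) : ℕ → B) n‖ ≤ δ' := by
    refine eventually_all.2 fun b => ?_
    have key : NormUltrapower.mk ω (u (g .y) * σ b)
        = NormUltrapower.mk ω (σ (b.1, b.2.1 + b.2.2, b.2.2) * u (g .y)) := by
      rw [NormUltrapower.mk_mul, NormUltrapower.mk_mul, mu, mσ, mσ, ← map_mul, ← map_mul, hy]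
    exact ev ω key hδ'
  have e8 : ∀ᶠ n in (ω : Filter ℕ), ∀ b : X,
      ‖((u (g .z) : BddSeq B) : ℕ → B) n * ((σ b : BddSeq B) : ℕ → B) n
        - ((σ b : BddSeq B) : ℕ → B) n * (((u (g .w) : BddSeq B) : ℕ → B) n) ^ (b.1.val)
          * ((u (g .z) : BddSeq B) : ℕ → B) n‖ ≤ δ' := by
    refine eventually_all.2 fun b => ?_
    have key : NormUltrapower.mk ω (u (g .z) * σ b)
        = NormUltrapower.mk ω (σ b * (u (g .w)) ^ (b.1.val) * u (g .z)) := by
      rw [NormUltrapower.mk_mul, NormUltrapower.mk_mul, NormUltrapower.mk_mul, mk_pow, mu, mu, mσ,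
        ← map_mul, ← map_pow, ← map_mul, ← map_mul, hz]
    exact ev ω key hδ'
  have e9 : ∀ᶠ n in (ω : Filter ℕ), ∀ b : X,
      ‖((u (g .w) : BddSeq B) : ℕ → B) n * ((σ b : BddSeq B) : ℕ → B) n
        - ((σ (b.1, b.2.1, b.2.2 + 1) : BddSeq B) : ℕ → B) n‖ ≤ δ' := by
    refine eventually_all.2 fun b => ?_
    have key : NormUltrapower.mk ω (u (g .w) * σ b)
        = NormUltrapower.mk ω (σ (b.1, b.2.1, b.2.2 + 1)) := by
      rw [NormUltrapower.mk_mul, mu, mσ, mσ, ← map_mul, hw]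
    exact ev ω key hδ'
  have e10 : ∀ᶠ n in (ω : Filter ℕ), ∀ a : Gen,
      ‖((u (g a) : BddSeq B) : ℕ → B) n * (r : ℕ → B) n - (r : ℕ → B) n‖ ≤ δ' := by
    refine eventually_all.2 fun a => ?_
    have key : NormUltrapower.mk ω (u (g a) * r) = NormUltrapower.mk ω r := by
      rw [NormUltrapower.mk_mul, mu, mr, ← map_mul, hUq]
    exact ev ω key hδ'
  have e11 : ∀ᶠ n in (ω : Filter ℕ), ∀ a : Gen,
      ‖star (((u (g a) : BddSeq B) : ℕ → B) n) * ((u (g a) : BddSeq B) : ℕ → B) n - 1‖ ≤ δ' := by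
    refine eventually_all.2 fun a => ?_
    obtain ⟨b, hab⟩ := exists_ne_gen a
    have hU : star (U (g a)) * U (g a) = 1 := by
      rw [← hs_gen a b, hstar a b hab, hmul a b hab, inv_mul_cancel, hs_one, hone]
    have key : NormUltrapower.mk ω (star (u (g a)) * u (g a))
        = NormUltrapower.mk ω (1 : BddSeq B) := by
      rw [NormUltrapower.mk_mul, ← NormUltrapower.star_mk, mu, ← map_star, ← map_mul, hU,
        map_one, NormUltrapower.mk_one]
    exact ev ω key hδ'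
  obtain ⟨n, hn0, hn1, hn2, hn3, hn4, hn5, hn6, hn7, hn8, hn9, hn10, hn11⟩ :=
    (hcn.and (e1.and (e2.and (e3.and (e4.and (e5.and (e6.and (e7.and (e8.and (e9.and
      (e10.and e11))))))))))).exists
  -- representation
  have hrn : (r : ℕ → B) n ≠ 0 := by
    intro h0
    rw [hr] at h0
    rw [h0, norm_zero] at hn0
    linarith
  obtain ⟨K, i1, i2, i3, π, h, hh, hπh⟩ := hrep B ((r : ℕ → B) n) hrn
  have hπ : ∀ y : B, ‖π y‖ ≤ ‖y‖ := fun y => NonUnitalStarAlgHom.norm_apply_le π y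
  have hb : 0 < ‖π ((r : ℕ → B) n) h‖ := by rw [hπh]; exact norm_pos_iff.2 hrn
  have hcb : c ≤ ‖π ((r : ℕ → B) n) h‖ := by rw [hπh]; exact hn0
  refine ⟨K, i1, i2, i3, fun i => π (s i), ⟨fun i => ?_, ?_⟩, ?_⟩
  · rw [← map_star, ← map_mul, hs1, map_one]
  · rw [← map_star, ← map_star, ← map_mul, ← map_mul, ← map_add, hs2, map_one]
  let ξ : K := ((‖π ((r : ℕ → B) n) h‖⁻¹ : ℝ) : ℂ) • π ((r : ℕ → B) n) h
  have hξ : ‖ξ‖ = 1 := by
    rw [norm_smul, Complex.norm_real, norm_inv, norm_norm, inv_mul_cancel₀ hb.ne']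
  refine ⟨{ U := fun γ => π ((u γ : ℕ → B) n)
            S := fun b => π ((σ b : ℕ → B) n)
            ξ := ξ
            U_mul := ?_
            U_star := ?_
            U_one := ?_
            S_iso := ?_
            rel_x := ?_
            rel_y := ?_
            rel_z := ?_
            rel_w := ?_
            ξ_norm := hξ
            ξ_inv := ?_
            ξ_orth := ?_ }, ?_, ?_⟩
  · intro a b hab h1 h2
    rw [← map_mul, ← map_sub]
    exact (hπ _).trans ((hn1 a b hab h1 h2).trans hδ1)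
  · intro a b hab h1
    rw [← map_star, ← map_sub]
    exact (hπ _).trans ((hn2 a b hab h1).trans hδ1)
  · rw [← map_one π, ← map_sub]
    exact (hπ _).trans (hn3.trans hδ1)
  · intro b
    rw [← map_star, ← map_mul, ← map_one π, ← map_sub]
    exact (hπ _).trans ((hn4 b).trans hδ1)
  · intro b
    rw [← map_mul, ← map_mul, ← map_sub]
    exact (hπ _).trans ((hn6 b).trans hδ1)
  · intro b
    rw [← map_mul, ← map_mul, ← map_sub]
    exact (hπ _).trans ((hn7 b).trans hδ1)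
  · intro b
    rw [← map_mul, ← map_pow, ← map_mul, ← map_mul, ← map_sub]
    exact (hπ _).trans ((hn8 b).trans hδ1)
  · intro b
    rw [← map_mul, ← map_sub]
    exact (hπ _).trans ((hn9 b).trans hδ1)
  · intro a
    have h1 : π ((u (g a) : ℕ → B) n) ξ - ξ
        = ((‖π ((r : ℕ → B) n) h‖⁻¹ : ℝ) : ℂ) •
          (π ((u (g a) : ℕ → B) n * (r : ℕ → B) n - (r : ℕ → B) n) h) := by
      simp only [ξ, map_smul, map_sub, map_mul, sub_apply,
        mul_apply_eq_comp, smul_sub]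
    rw [h1, norm_smul, Complex.norm_real, norm_inv, norm_norm]
    have h2 : ‖π ((u (g a) : ℕ → B) n * (r : ℕ → B) n - (r : ℕ → B) n) h‖ ≤ c * δ := by
      refine (ContinuousLinearMap.le_opNorm _ _).trans ?_
      rw [hh, mul_one]
      exact (hπ _).trans ((hn10 a).trans hδ2)
    rw [inv_mul_le_iff₀ hb]
    exact h2.trans (mul_le_mul_of_nonneg_right hcb hδ.le)
  · intro b b' hb'
    have h1 : ⟪π ((σ b : ℕ → B) n) ξ, π ((σ b' : ℕ → B) n) ξ⟫_ℂ
        = ⟪ξ, π (star ((σ b : ℕ → B) n) * (σ b' : ℕ → B) n) ξ⟫_ℂ := by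
      rw [map_mul, map_star, ContinuousLinearMap.mul_apply, ContinuousLinearMap.star_eq_adjoint,
        ContinuousLinearMap.adjoint_inner_right]
    rw [h1]
    refine (norm_inner_le_norm _ _).trans ?_
    rw [hξ, one_mul]
    refine (ContinuousLinearMap.le_opNorm _ _).trans ?_
    rw [hξ, mul_one]
    exact (hπ _).trans ((hn5 b b' hb').trans hδ1)
  · intro a
    let Cc : StarSubalgebra ℂ B := (cuntzAlg (fun i => π (s i))).comap π
    have hclosed : IsClosed (Cc : Set B) := by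
      have hcont : Continuous π := by
        exact AddMonoidHomClass.continuous_of_bound π 1 (fun y => by simpa using hπ y)
      exact (StarSubalgebra.isClosed_topologicalClosure _).preimage hcont
    have hle : (StarAlgebra.adjoin ℂ (Set.range s)).topologicalClosure ≤ Cc := by
      refine StarSubalgebra.topologicalClosure_minimal ?_ hclosed
      rw [StarAlgebra.adjoin_le_iff]
      rintro _ ⟨i, rfl⟩
      change π (s i) ∈ cuntzAlg (fun i => π (s i))
      exact StarSubalgebra.le_topologicalClosure _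
        (StarAlgebra.subset_adjoin ℂ _ ⟨i, rfl⟩)
    rw [hgen] at hle
    exact hle (StarSubalgebra.mem_top)
  · intro a
    change ‖π ((u (g a) : ℕ → B) n)‖ ≤ 1 + δ
    have h1 : ‖π ((u (g a) : ℕ → B) n)‖ * ‖π ((u (g a) : ℕ → B) n)‖ ≤ 1 + δ := by
      rw [← CStarRing.norm_star_mul_self]
      have h2 : star (π ((u (g a) : ℕ → B) n)) * π ((u (g a) : ℕ → B) n)
          = 1 + π (star ((u (g a) : ℕ → B) n) * (u (g a) : ℕ → B) n - 1) := by
        rw [map_sub, map_mul, map_star, map_one]; abel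
      rw [h2]
      refine (norm_add_le _ _).trans (add_le_add ?_ ?_)
      · exact ContinuousLinearMap.norm_id_le
      · exact (hπ _).trans ((hn11 a).trans hδ1)
    nlinarith [norm_nonneg (π ((u (g a) : ℕ → B) n))]

/-- approximate data with a smaller error are approximate data with a larger one -/
def mono {K : Type u} [NormedAddCommGroup K] [InnerProductSpace ℂ K] [CompleteSpace K]
    {δ₀ δ : ℝ} (h : δ₀ ≤ δ) (D : AD K δ₀) : AD K δ where
  U := D.U
  S := D.S
  ξ := D.ξ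
  U_mul := fun a b hab h1 h2 => (D.U_mul a b hab h1 h2).trans h
  U_star := fun a b hab h1 => (D.U_star a b hab h1).trans h
  U_one := D.U_one.trans h
  S_iso := fun b => (D.S_iso b).trans h
  rel_x := fun b => (D.rel_x b).trans h
  rel_y := fun b => (D.rel_y b).trans h
  rel_z := fun b => (D.rel_z b).trans h
  rel_w := fun b => (D.rel_w b).trans h
  ξ_norm := D.ξ_norm
  ξ_inv := fun a => (D.ξ_inv a).trans h
  ξ_orth := fun b c hbc => (D.ξ_orth b c hbc).trans h

/-- The final theorem, from the statements of the modules. -/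
theorem final (hrep : S_REP.{u}) (hind : S_INDUCT.{u}) (hcon : S_CONTRA.{u}) (halg : S_ALG) :
    ∃ (A : Type) (_ : CStarAlgebra A), TopologicalSpace.SeparableSpace A ∧ Nontrivial A ∧
      ∀ (B : Type u) [CStarAlgebra B] (s : Fin 2 → B),
        (∀ i, star (s i) * s i = 1) → s 0 * star (s 0) + s 1 * star (s 1) = 1 →
        (StarAlgebra.adjoin ℂ (Set.range s)).topologicalClosure = ⊤ →
        ∀ ω : Ultrafilter ℕ, (ω : Filter ℕ) ≤ Filter.cofinite →
          ¬ ∃ φ : A →⋆ₐ[ℂ] NormUltrapower ω B, Function.Injective φ := by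
  obtain ⟨A, iA, isep, U, S, q, hmul, hstar, hone, hiso, horth, hx, hy, hz, hw, hq, hUq⟩ := halg
  refine ⟨A, iA, isep, ⟨⟨q, 0, hq⟩⟩, ?_⟩
  rintro B _ s hs1 hs2 hgen ω - ⟨φ, hφ⟩
  obtain ⟨η, hη, hcon⟩ := hcon
  obtain ⟨δ, hδ, hind⟩ := hind η hη
  obtain ⟨K, i1, i2, i3, t, ht, D, hD1, hD2⟩ := lift ω hrep s hs1 hs2 hgen U S q hmul hstar hone
    hiso horth hx hy hz hw hq hUq φ hφ (min δ η) (lt_min hδ hη)
  refine hcon K t ht (fun a => D.U (g a)) hD1 (fun a => (hD2 a).trans ?_) (fun N => ?_)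
  · have := min_le_right δ η
    linarith
  · exact hind K (mono (min_le_left δ η) D) N

end Ultra

end Vale.Agent.P083
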