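import Vale.Agent.P083.Defs

open scoped BigOperators ComplexConjugate InnerProductSpace

namespace Vale.Agent.P083.Words

open Vale.Agent.P083

section grp
variable {Γ : Type*} [Group Γ]

lemma swap_pow (a b c : Γ) (h : b * a = a * b * c) (hca : Commute c a) (hcb : Commute c b)
    (m n : ℕ) : b ^ m * a ^ n = a ^ n * b ^ m * c ^ (m * n) := by
  have h1 : ∀ m : ℕ, b ^ m * a = a * b ^ m * c ^ m := by
    intro m
    induction m with
    | zero => simp
    | succ m ih =>
      calc b ^ (m + 1) * a = b * (b ^ m * a) := by rw [pow_succ' b m, mul_assoc]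
        _ = b * a * b ^ m * c ^ m := by rw [ih]; group
        _ = a * b * c * b ^ m * c ^ m := by rw [h]
        _ = a * b * (c * b ^ m) * c ^ m := by group
        _ = a * b * (b ^ m * c) * c ^ m := by rw [(hcb.pow_right m).eq]
        _ = a * b ^ (m + 1) * c ^ (m + 1) := by rw [pow_succ' b m, pow_succ' c m]; group
  induction n with
  | zero => simp
  | succ n ih =>
    calc b ^ m * a ^ (n + 1) = (b ^ m * a ^ n) * a := by rw [pow_succ a n, mul_assoc]
      _ = a ^ n * b ^ m * (c ^ (m * n) * a) := by rw [ih]; group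
      _ = a ^ n * b ^ m * (a * c ^ (m * n)) := by rw [(hca.pow_left (m * n)).eq]
      _ = a ^ n * (b ^ m * a) * c ^ (m * n) := by group
      _ = a ^ n * (a * b ^ m * c ^ m) * c ^ (m * n) := by rw [h1]
      _ = a ^ (n + 1) * b ^ m * c ^ (m * (n + 1)) := by
        rw [pow_succ a n, Nat.mul_succ, Nat.add_comm (m * n) m, pow_add c]; group

lemma pw_add (x : Γ) (hx : x ^ pp = 1) (i j : Fp) :
    x ^ i.val * x ^ j.val = x ^ (i + j).val := by
  rw [← pow_add, ZMod.val_add]
  conv_lhs => rw [← Nat.div_add_mod (i.val + j.val) pp, pow_add, pow_mul, hx, one_pow, one_mul]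

lemma pw_mul (x : Γ) (hx : x ^ pp = 1) (i j : Fp) :
    x ^ (i.val * j.val) = x ^ (i * j).val := by
  rw [ZMod.val_mul]
  conv_lhs => rw [← Nat.div_add_mod (i.val * j.val) pp, pow_add, pow_mul, hx, one_pow, one_mul]

lemma pw_neg (x : Γ) (hx : x ^ pp = 1) (i : Fp) :
    x ^ (-i).val = (x ^ i.val)⁻¹ := by
  apply eq_inv_of_mul_eq_one_left
  rw [pw_add x hx]; simp

lemma heis_mul (a b : Γ) (ha : a ^ pp = 1) (hb : b ^ pp = 1)
    (hca : Commute (a * b * a⁻¹ * b⁻¹) a) (hcb : Commute (a * b * a⁻¹ * b⁻¹) b) (h h' : Heis) :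
    (a ^ (h * h').i.val * b ^ (h * h').j.val * (a * b * a⁻¹ * b⁻¹) ^ (h * h').k.val)
    = (a ^ h.i.val * b ^ h.j.val * (a * b * a⁻¹ * b⁻¹) ^ h.k.val) *
      (a ^ h'.i.val * b ^ h'.j.val * (a * b * a⁻¹ * b⁻¹) ^ h'.k.val) := by
  set c := a * b * a⁻¹ * b⁻¹ with hc
  have hswap : b * a = a * b * c⁻¹ := by
    have : c * (b * a) = a * b := by rw [hc]; group
    have h2 : b * a = c⁻¹ * (a * b) := by rw [← this]; group
    rw [h2]
    have h3 : Commute c⁻¹ (a * b) := (hca.inv_left).mul_right (hcb.inv_left)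
    exact h3.eq
  have hcp' : (c⁻¹) ^ pp = 1 := by
    have := swap_pow a b c⁻¹ hswap hca.inv_left hcb.inv_left 1 pp
    rw [ha, pow_one, mul_one, one_mul, one_mul] at this
    exact (mul_eq_left.mp this.symm)
  have hcp : c ^ pp = 1 := by
    rw [inv_pow, inv_eq_one] at hcp'; exact hcp'
  have key := swap_pow a b c⁻¹ hswap hca.inv_left hcb.inv_left h.j.val h'.i.val
  simp only [Heis.mul_i, Heis.mul_j, Heis.mul_k]
  rw [← pw_add a ha, ← pw_add b hb]
  have hk : c ^ (h.k + h'.k - h.j * h'.i).val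
      = c ^ h.k.val * c ^ h'.k.val * (c⁻¹) ^ (h.j.val * h'.i.val) := by
    rw [sub_eq_add_neg, ← pw_add c hcp, ← pw_add c hcp, pw_neg c hcp, inv_pow, pw_mul c hcp]
  rw [hk]
  have cbj : Commute (c ^ h.k.val) (b ^ h'.j.val) := (hcb.pow_left _).pow_right _
  have cai : Commute (c ^ h.k.val) (a ^ h'.i.val) := (hca.pow_left _).pow_right _
  have cibj : Commute ((c⁻¹) ^ (h.j.val * h'.i.val)) (b ^ h'.j.val) :=
    (hcb.inv_left.pow_left _).pow_right _
  have cc : Commute ((c⁻¹) ^ (h.j.val * h'.i.val)) (c ^ h'.k.val) :=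
    ((Commute.refl c).inv_left.pow_left _).pow_right _
  have cc2 : Commute ((c⁻¹) ^ (h.j.val * h'.i.val)) (c ^ h.k.val) :=
    ((Commute.refl c).inv_left.pow_left _).pow_right _
  symm
  calc a ^ h.i.val * b ^ h.j.val * c ^ h.k.val * (a ^ h'.i.val * b ^ h'.j.val * c ^ h'.k.val)
      = a ^ h.i.val * b ^ h.j.val * (c ^ h.k.val * a ^ h'.i.val) * b ^ h'.j.val * c ^ h'.k.val := by
        group
    _ = a ^ h.i.val * b ^ h.j.val * (a ^ h'.i.val * c ^ h.k.val) * b ^ h'.j.val * c ^ h'.k.val := by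
        rw [cai.eq]
    _ = a ^ h.i.val * (b ^ h.j.val * a ^ h'.i.val) * (c ^ h.k.val * b ^ h'.j.val) * c ^ h'.k.val := by
        group
    _ = a ^ h.i.val * (a ^ h'.i.val * b ^ h.j.val * (c⁻¹) ^ (h.j.val * h'.i.val)) *
          (b ^ h'.j.val * c ^ h.k.val) * c ^ h'.k.val := by
        rw [cbj.eq, key]
    _ = a ^ h.i.val * a ^ h'.i.val * b ^ h.j.val * ((c⁻¹) ^ (h.j.val * h'.i.val) *
          b ^ h'.j.val) * c ^ h.k.val * c ^ h'.k.val := by
        group
    _ = a ^ h.i.val * a ^ h'.i.val * b ^ h.j.val * (b ^ h'.j.val *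
          (c⁻¹) ^ (h.j.val * h'.i.val)) * c ^ h.k.val * c ^ h'.k.val := by
        rw [cibj.eq]
    _ = a ^ h.i.val * a ^ h'.i.val * b ^ h.j.val * b ^ h'.j.val *
          ((c⁻¹) ^ (h.j.val * h'.i.val) * (c ^ h.k.val * c ^ h'.k.val)) := by
        group
    _ = a ^ h.i.val * a ^ h'.i.val * b ^ h.j.val * b ^ h'.j.val *
          ((c ^ h.k.val * c ^ h'.k.val) * (c⁻¹) ^ (h.j.val * h'.i.val)) := by
        rw [(cc2.mul_right cc).eq]
    _ = a ^ h.i.val * a ^ h'.i.val * (b ^ h.j.val * b ^ h'.j.val) *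
          (c ^ h.k.val * c ^ h'.k.val * (c⁻¹) ^ (h.j.val * h'.i.val)) := by
        group

end grp

lemma pp_smul (N : ℕ) (m : M N) : pp • m = 0 := by
  ext i; simp

lemma pp_smulV (N : ℕ) (m : V N) : pp • m = 0 := by
  refine Prod.ext (pp_smul N _) (Prod.ext (pp_smul N _) (pp_smul N _))

lemma e12_pow {N : ℕ} (r : M N →+ M N) (n : ℕ) : (e12 r) ^ n = e12 (n • r) := by
  induction n with
  | zero => ext v <;> simp [e12]
  | succ n ih =>
    rw [pow_succ, ih]
    refine Equiv.ext fun v => ?_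
    simp only [Equiv.Perm.mul_apply, e12, Equiv.coe_fn_mk, AddMonoidHom.coe_smul, Pi.smul_apply]
    refine Prod.ext ?_ rfl
    simp only [succ_nsmul]
    abel

lemma e23_pow {N : ℕ} (r : M N →+ M N) (n : ℕ) : (e23 r) ^ n = e23 (n • r) := by
  induction n with
  | zero => ext v <;> simp [e23]
  | succ n ih =>
    rw [pow_succ, ih]
    refine Equiv.ext fun v => ?_
    simp only [Equiv.Perm.mul_apply, e23, Equiv.coe_fn_mk, AddMonoidHom.coe_smul, Pi.smul_apply]
    refine Prod.ext rfl (Prod.ext ?_ rfl)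
    simp only [succ_nsmul]
    abel

lemma e31_pow {N : ℕ} (r : M N →+ M N) (n : ℕ) : (e31 r) ^ n = e31 (n • r) := by
  induction n with
  | zero => ext v <;> simp [e31]
  | succ n ih =>
    rw [pow_succ, ih]
    refine Equiv.ext fun v => ?_
    simp only [Equiv.Perm.mul_apply, e31, Equiv.coe_fn_mk, AddMonoidHom.coe_smul, Pi.smul_apply]
    refine Prod.ext rfl (Prod.ext rfl ?_)
    simp only [succ_nsmul]
    abel

lemma tr_pow {N : ℕ} (u : V N) (n : ℕ) : (tr u) ^ n = tr (n • u) := by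
  induction n with
  | zero => ext v <;> simp [tr]
  | succ n ih =>
    rw [pow_succ, ih]
    refine Equiv.ext fun v => ?_
    simp only [Equiv.Perm.mul_apply, tr, Equiv.coe_fn_mk, succ_nsmul]
    abel

lemma g_order (a : Gen) : (g a) ^ pp = 1 := by
  funext N
  rw [Pi.pow_apply, Pi.one_apply]
  cases a
  · show (e12 _) ^ pp = 1
    rw [e12_pow]
    refine Equiv.ext fun v => Prod.ext ?_ rfl
    show v.1 + pp • v.2.1 = v.1
    rw [pp_smul, add_zero]
  · show (e23 _) ^ pp = 1
    rw [e23_pow]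
    refine Equiv.ext fun v => Prod.ext rfl (Prod.ext ?_ rfl)
    show v.2.1 + pp • v.2.2 = v.2.1
    rw [pp_smul, add_zero]
  · show (e31 _) ^ pp = 1
    rw [e31_pow]
    refine Equiv.ext fun v => Prod.ext rfl (Prod.ext rfl ?_)
    show v.2.2 + pp • (sh N v.1) = v.2.2
    rw [pp_smul, add_zero]
  · show (tr _) ^ pp = 1
    rw [tr_pow]
    refine Equiv.ext fun v => ?_
    show v + pp • _ = v
    rw [pp_smulV, add_zero]

lemma comm_a (a b : Gen) : Commute (g a * g b * (g a)⁻¹ * (g b)⁻¹) (g a) := by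
  funext N
  refine Equiv.ext fun v => ?_
  cases a <;> cases b <;>
    (simp only [g, Pi.mul_apply, Pi.inv_apply, Equiv.Perm.mul_apply, Equiv.Perm.inv_def,
      Equiv.symm, e12, e23, e31, tr, Equiv.coe_fn_mk, AddMonoidHom.id_apply, map_add, map_sub,
      Prod.fst_add, Prod.snd_add, Prod.fst_sub, Prod.snd_sub, map_zero]
     refine Prod.ext ?_ (Prod.ext ?_ ?_) <;>
      simp only [Prod.fst_add, Prod.snd_add, Prod.fst_sub, Prod.snd_sub, map_add, map_sub,
        map_zero] <;> abel)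

lemma comm_b (a b : Gen) : Commute (g a * g b * (g a)⁻¹ * (g b)⁻¹) (g b) := by
  funext N
  refine Equiv.ext fun v => ?_
  cases a <;> cases b <;>
    (simp only [g, Pi.mul_apply, Pi.inv_apply, Equiv.Perm.mul_apply, Equiv.Perm.inv_def,
      Equiv.symm, e12, e23, e31, tr, Equiv.coe_fn_mk, AddMonoidHom.id_apply, map_add, map_sub,
      Prod.fst_add, Prod.snd_add, Prod.fst_sub, Prod.snd_sub, map_zero]
     refine Prod.ext ?_ (Prod.ext ?_ ?_) <;>
      simp only [Prod.fst_add, Prod.snd_add, Prod.fst_sub, Prod.snd_sub, map_add, map_sub,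
        map_zero] <;> abel)

theorem hS : S_HS := fun a b _ h h' =>
  heis_mul (g a) (g b) (g_order a) (g_order b) (comm_a a b) (comm_b a b) h h'

lemma cons_add_fin {N : ℕ} (a b : Fp) (u v : M N) :
    (Fin.cons a u : M (N + 1)) + Fin.cons b v = Fin.cons (a + b) (u + v) := by
  funext i
  refine Fin.cases ?_ (fun i => ?_) i <;> simp

lemma sh_cons (N : ℕ) (b : Fp) (m : M N) :
    sh (N + 1) (Fin.cons b m) = Fin.cons 0 (b.val • eps N + sh N m) := by
  cases N with
  | zero =>
    funext i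
    refine Fin.cases ?_ (fun i => i.elim0) i
    simp [sh]
  | succ n =>
    funext i
    refine Fin.cases ?_ (fun i => ?_) i
    · simp [sh]
    · refine Fin.cases ?_ (fun j => ?_) i
      · have h1 : b.val • (1 : Fp) = b := by
          rw [nsmul_eq_mul, mul_one, ZMod.natCast_zmod_val]
        have h2 : (b.val • (eps (n + 1))) 0 = b := by
          rw [Pi.smul_apply]
          simpa [eps] using h1
        simp only [sh, AddMonoidHom.coe_mk, ZeroHom.coe_mk, Fin.cons_succ, Pi.add_apply,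
          Fin.castSucc_zero, Fin.cons_zero, add_zero]
        rw [h2]
      · simp only [sh, AddMonoidHom.coe_mk, ZeroHom.coe_mk, Fin.cons_succ, Pi.add_apply,
          Pi.smul_apply, eps]
        rw [Pi.single_eq_of_ne (Fin.succ_ne_zero j)]
        simp

lemma w_pow (N : ℕ) (n : ℕ) (v : V N) : ((g .w N) ^ n) v = v + n • (0, 0, eps N) := by
  show ((tr _) ^ n) v = _
  rw [tr_pow]; rfl

theorem rEC : S_REC := by
  intro N b v
  refine ⟨?_, ?_, ?_, ?_⟩
  · show (_, _, _) = (_, _, _)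
    simp only [cons, AddMonoidHom.id_apply, cons_add_fin]
    rfl
  · show (_, _, _) = (_, _, _)
    simp only [cons, AddMonoidHom.id_apply, cons_add_fin]
    rfl
  · rw [w_pow]
    show (_, _, _) = (_, _, _)
    simp only [cons, sh_cons, cons_add_fin, add_zero]
    refine Prod.ext ?_ (Prod.ext ?_ ?_)
    · simp [g, e31]
    · simp [g, e31]
    · simp only [g, e31, Equiv.coe_fn_mk, Prod.snd_add, Prod.smul_snd]
      congr 1
      abel
  · show cons b v + (0, 0, eps (N + 1)) = _
    refine Prod.ext ?_ (Prod.ext ?_ ?_)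
    · simp [cons]
    · simp [cons]
    · show Fin.cons b.2.2 v.2.2 + eps (N + 1) = Fin.cons (b.2.2 + 1) v.2.2
      have : eps (N + 1) = Fin.cons 1 0 := by
        funext i
        refine Fin.cases ?_ (fun i => ?_) i
        · simp [eps]
        · simp [eps]
      rw [this, cons_add_fin, add_zero]

lemma sh_last (N : ℕ) (c : Fp) : sh (N + 1) (Pi.single (Fin.last N) c) = 0 := by
  funext i
  refine Fin.cases ?_ (fun i => ?_) i
  · simp [sh]
  · simp only [sh, AddMonoidHom.coe_mk, ZeroHom.coe_mk, Fin.cons_succ, Pi.zero_apply]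
    rw [Pi.single_eq_of_ne]
    exact (Fin.castSucc_lt_last i).ne

lemma lst_add (N : ℕ) (c d : X) : lst N (c + d) = lst N c + lst N d := by
  refine Prod.ext ?_ (Prod.ext ?_ ?_) <;> simp [lst, Pi.single_add]

/-- the linear part of a generator on the last letter -/
def lin : Gen → Equiv.Perm X
  | .x => ⟨fun c => (c.1 + c.2.1, c.2.1, c.2.2), fun c => (c.1 - c.2.1, c.2.1, c.2.2),
      fun c => by simp, fun c => by simp⟩
  | .y => ⟨fun c => (c.1, c.2.1 + c.2.2, c.2.2), fun c => (c.1, c.2.1 - c.2.2, c.2.2),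
      fun c => by simp, fun c => by simp⟩
  | .z => Equiv.refl X
  | .w => Equiv.refl X

lemma g_add_lst (N : ℕ) (a : Gen) (v : V (N + 1)) (c : X) :
    g a (N + 1) (v + lst N c) = g a (N + 1) v + lst N (lin a c) := by
  cases a
  · refine Prod.ext ?_ (Prod.ext ?_ ?_)
    · simp only [g, e12, lst, lin, Equiv.coe_fn_mk, AddMonoidHom.id_apply, Prod.fst_add,
        Prod.snd_add, Pi.single_add]
      abel
    · simp [g, e12, lst, lin]
    · simp [g, e12, lst, lin]
  · refine Prod.ext ?_ (Prod.ext ?_ ?_)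
    · simp [g, e23, lst, lin]
    · simp only [g, e23, lst, lin, Equiv.coe_fn_mk, AddMonoidHom.id_apply, Prod.fst_add,
        Prod.snd_add, Pi.single_add]
      abel
    · simp [g, e23, lst, lin]
  · refine Prod.ext ?_ (Prod.ext ?_ ?_)
    · simp [g, e31, lst, lin]
    · simp [g, e31, lst, lin]
    · simp only [g, e31, lst, lin, Equiv.coe_fn_mk, Prod.fst_add,
        Prod.snd_add, map_add, sh_last, Equiv.refl_apply]
      abel
  · simp only [g, tr, Equiv.coe_fn_mk, lin, Equiv.refl_apply]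
    abel

lemma gsymm_add_lst (N : ℕ) (a : Gen) (v : V (N + 1)) (c : X) :
    (g a (N + 1)).symm (v + lst N c) = (g a (N + 1)).symm v + lst N ((lin a).symm c) := by
  rw [Equiv.symm_apply_eq, g_add_lst]
  simp

theorem nEW : S_NEW := by
  intro N E _ F hF a
  constructor
  · intro v
    simp only [gsymm_add_lst]
    exact (Equiv.sum_comp (lin a).symm (fun c => F ((g a (N + 1)).symm v + lst N c))).trans
      (hF _)
  · intro v
    simp only [g_add_lst]
    exact (Equiv.sum_comp (lin a) (fun c => F ((g a (N + 1)) v + lst N c))).trans (hF _)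

/-- `hs a b ⟨k,0,0⟩ = (g a)^k` -/
lemma hs_fst (a b : Gen) (k : Fp) : hs a b ⟨k, 0, 0⟩ = (g a) ^ k.val := by
  simp [hs]

lemma hs_snd (a b : Gen) (k : Fp) : hs a b ⟨0, k, 0⟩ = (g b) ^ k.val := by
  simp [hs]

lemma hs_one (a b : Gen) : hs a b 1 = 1 := by
  simp [hs]

end Vale.Agent.P083.Words
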